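import Vale.Agent.P180.R2.H589.AltB
import Vale.Agent.P180.R2.H365.Itf

set_option linter.unusedSectionVars false

/-!
P180: the corner bound for blocks of alternating groups.
-/

namespace Vale.Agent.P180.R2.H589

open Equiv Finset Module
open Vale.Agent.P180 Vale.Agent.P180.H768.Gd

universe u

section Incl

variable {k : Type*} [Field k] {G : Type*} [Group G]

theorem incl_mem_map {T : Subgroup G} {R : Subgroup T} {a : MonoidAlgebra k T}
    (ha : a ∈ SubAlg k R) : incl k T a ∈ SubAlg k (R.map T.subtype) := by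
  refine SuppIn.induction (P := fun a => incl k T a ∈ SubAlg k (R.map T.subtype)) ha ?_ ?_ ?_
  · rw [map_zero]; exact Subalgebra.zero_mem _
  · intro x y hx hy
    rw [map_add]; exact Subalgebra.add_mem _ hx hy
  · intro x hx c
    rw [map_smul, incl_single]
    exact Subalgebra.smul_mem _ (single_mem_SubAlg (Subgroup.mem_map.2 ⟨x, hx, rfl⟩) 1) c

theorem exists_incl_map {T : Subgroup G} {R : Subgroup T} {a : MonoidAlgebra k G}
    (ha : a ∈ SubAlg k (R.map T.subtype)) : ∃ a' ∈ SubAlg k R, incl k T a' = a := by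
  refine SuppIn.induction (P := fun a => ∃ a' ∈ SubAlg k R, incl k T a' = a) ha ?_ ?_ ?_
  · exact ⟨0, Subalgebra.zero_mem _, map_zero _⟩
  · rintro x y ⟨x', hx, rfl⟩ ⟨y', hy, rfl⟩
    exact ⟨x' + y', Subalgebra.add_mem _ hx hy, map_add _ _ _⟩
  · rintro _ ⟨x, hx, rfl⟩ c
    exact ⟨c • MonoidAlgebra.single x 1, Subalgebra.smul_mem _ (single_mem_SubAlg hx 1) c,
      by rw [map_smul, incl_single]; rfl⟩

end Incl

theorem finrank_map_of_inj' {k M M' : Type*} [Field k] [AddCommGroup M] [Module k M]
    [AddCommGroup M'] [Module k M'] (f : M →ₗ[k] M') (p : Submodule k M)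
    (h : Function.Injective (f.domRestrict p)) : finrank k (p.map f) = finrank k p := by
  have h9 := LinearMap.finrank_range_of_inj h
  rwa [LinearMap.range_domRestrict] at h9

/-- The explicit bound. -/
def CC (n m : ℕ) : ℕ :=
  4 * (m.factorial * (4 * n * m) ^ m) +
    2 * ((m.factorial * (4 * n * m) ^ m) * (m.factorial * (4 * n * m) ^ m))

variable {p : ℕ} [Fact p.Prime] {k : Type u} [Field k] [CharP k p] [IsAlgClosed k] {α : Type}
  [Fintype α] [DecidableEq α]

theorem map_altF (F : Finset α) :
    (H365.altF F).map (alternatingGroup α).subtype = symF F ⊓ alternatingGroup α := by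
  ext x
  constructor
  · rintro ⟨y, hy, rfl⟩
    exact ⟨hy, y.2⟩
  · rintro ⟨h1, h2⟩
    exact ⟨⟨x, h2⟩, h1, rfl⟩

/-- **The corner bound for alternating groups.** -/
theorem alt_corner (F : Finset α) {P : Subgroup (alternatingGroup α)} (hP : IsPGroup p P)
    (hPF : ∀ h ∈ P, ∀ x ∈ F, (h : Perm α) x = x) {b f a : MonoidAlgebra k (alternatingGroup α)}
    (hb : IsBlockOf ⊤ b) (ha : a ∈ Fix (cj k (alternatingGroup α)) P)
    (hba : b = tr (cj k (alternatingGroup α)) P ⊤ a) (hf : H365.OneF F f)
    (hbr : br P (f * b) ≠ 0) :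
    finrank k (crn k (b * f) (b * f)) ≤ CC (Nat.card P) (Fᶜ).card := by
  classical
  obtain ⟨hfF, hff, hfS⟩ := hf
  have hcardP : 0 < Nat.card P := Nat.card_pos
  set n := Nat.card P with hn
  set m := (Fᶜ).card with hm
  set X := m.factorial * (4 * n * m) ^ m with hX
  have hX1 : 1 ≤ X := by
    rw [hX]
    apply Nat.mul_pos (Nat.factorial_pos m)
    rcases Nat.eq_zero_or_pos m with h | h
    · rw [h]; norm_num
    · positivity
  have hCC : CC n m = 4 * X + 2 * (X * X) := rfl
  rw [hCC]
  by_cases hNt : Nontrivial α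
  swap
  · -- trivial case
    rw [not_nontrivial_iff_subsingleton] at hNt
    have h1 : finrank k (crn k (b * f) (b * f)) ≤
        finrank k (MonoidAlgebra k (alternatingGroup α)) := Submodule.finrank_le _
    have h2 : finrank k (MonoidAlgebra k (alternatingGroup α)) = 1 := by
      rw [Module.finrank_eq_card_basis (MonoidAlgebra.basis (alternatingGroup α) k)]
      exact Fintype.card_unique
    omega
  have hidx := alternatingGroup.index_eq_two (α := α)
  obtain ⟨t, ht⟩ : ∃ t : Perm α, t ∉ alternatingGroup α := by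
    obtain ⟨x, y, hxy⟩ := hNt.exists_pair_ne
    refine ⟨swap x y, ?_⟩
    rw [Equiv.Perm.mem_alternatingGroup, Perm.sign_swap hxy]
    decide
  have hN : ∀ x y : Perm α, x ∉ (alternatingGroup α) → y ∉ (alternatingGroup α) → x * y ∈ (alternatingGroup α) := fun x y => not_mem_alt_mul
  set ι := incl k (alternatingGroup α) with hι
  have hιinj : Function.Injective ι := incl_injective (alternatingGroup α)
  set P1 := P.map (alternatingGroup α).subtype with hP1
  have hP1p : IsPGroup p P1 := hP.map (alternatingGroup α).subtype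
  have hP1N : P1 ≤ (alternatingGroup α) := by rintro _ ⟨x, _, rfl⟩; exact x.2
  have hP1F : ∀ h ∈ P1, ∀ x ∈ F, h x = x := by
    rintro _ ⟨h, hh, rfl⟩ x hx
    exact hPF h hh x hx
  have hP1card : Nat.card P1 = n := by
    rw [hn, hP1]
    exact Nat.card_congr (P.equivMapOfInjective (alternatingGroup α).subtype (alternatingGroup α).subtype_injective).symm.toEquiv
  have hb1 : IsBlockOf (alternatingGroup α) (ι b) := by
    rw [hι, isBlockOf_incl_iff]
    have := hb
    rw [IsBlockOf, ZAlg_top] at this
    exact this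
  have hf1 : ι f ∈ SubAlg k (symF F ⊓ (alternatingGroup α)) := by
    rw [← map_altF]
    exact incl_mem_map hfF
  have hff1 : ι f * ι f = ι f := by rw [← map_mul, hff]
  have hfS1 : ∀ y ∈ SubAlg k (symF F ⊓ (alternatingGroup α)), ∃ c : k, ι f * y * ι f = c • ι f := by
    intro y hy
    rw [← map_altF] at hy
    obtain ⟨y', hy', rfl⟩ := exists_incl_map hy
    obtain ⟨c, hc⟩ := hfS y' hy'
    exact ⟨c, by rw [← map_mul, ← map_mul, hc, map_smul]⟩
  have hbcomm : ι b * ι f = ι f * ι b := by
    rw [← map_mul, ← map_mul]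
    congr 1
    exact (commute_of_mem (SubAlg_top f) hb.mem.2).symm
  -- `f` is fixed by `P`
  have hfP : f ∈ Fix (cj k (alternatingGroup α)) P := by
    rw [mem_Fix_cj_iff]
    intro h hh
    have h5 : MonoidAlgebra.single h (1 : k) ∈ Fix (cj k (alternatingGroup α)) (H365.altF F) := by
      rw [mem_Fix_cj_iff]
      intro s hs
      rw [MonoidAlgebra.single_mul_single, MonoidAlgebra.single_mul_single]
      congr 1
      apply Subtype.ext
      ext y
      rw [Subgroup.coe_mul, Subgroup.coe_mul, Perm.mul_apply, Perm.mul_apply]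
      have hs' : IsF F (s : Perm α) := hs
      by_cases hy : y ∈ F
      · have h6 : (s : Perm α) y ∈ F := (IsF.mem hs').2 hy
        rw [hPF h hh y hy, hPF h hh _ h6]
      · have h6 : (h : Perm α) y ∉ F := by
          intro h7
          have h8 := hPF h hh _ h7
          have h9 := (h : Perm α).injective h8
          rw [h9] at h7
          exact hy h7
        rw [hs' _ hy, hs' _ h6]
    exact (commute_of_mem hfF h5).symm
  by_cases h2 : (2 : k) = 0
  · -- characteristic two
    have hp2 : p = 2 := by
      have h3 : ((2 : ℕ) : k) = 0 := by exact_mod_cast h2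
      have h4 := (CharP.cast_eq_zero_iff k p 2).1 h3
      exact (Nat.prime_dvd_prime_iff_eq (Fact.out) Nat.prime_two).1 h4
    subst hp2
    have ha1 : ι a ∈ Fix (cj k (Perm α)) P1 := (incl_mem_Fix_iff (alternatingGroup α) P a).2 ha
    have hba1 : ι b = tr (cj k (Perm α)) P1 (alternatingGroup α) (ι a) := by
      conv_lhs => rw [hba]
      exact incl_tr (alternatingGroup α) P ha
    obtain ⟨B, hB, hBb, P', hP', hcard, a', ha', hBa'⟩ :=
      exists_cover_two hN ht hidx hb1 hP1p hP1N ha1 (incl_mem (alternatingGroup α) a) hba1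
    have hBc : ∀ z, B * z = z * B := fun z => (commute_of_mem (SubAlg_top z) hB.mem.2).symm
    have hpow := H799.Jb_pow hP' hB.idem hB.mem.2 ha' hBa'
    have key := finrank_corner_two h2 F hf1 hff1 hfS1
      (fun j hj x => (commute_of_mem (SubAlg_top x) (H799.mem_Jb.1 hj).1).symm) hB.mem.2 hB.idem
      (H799.exists_scalar_Jb hB) hpow
    have hle : (crn k (b * f) (b * f)).map ι.toLinearMap ≤ crn k (ι f * B) (ι f * B) := by
      rintro _ ⟨x, hx, rfl⟩
      have hx' : x ∈ crn k (b * f) (b * f) := hx
      rw [mem_crn] at hx'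
      obtain ⟨y, rfl⟩ := hx'
      rw [mem_crn]
      refine ⟨ι b * ι y * ι b, ?_⟩
      show ι (b * f * y * (b * f)) = _
      simp only [map_mul]
      have e1 : ι f * B * (ι b * ι y * ι b) * (ι f * B) =
          ι f * (B * ι b) * ι y * (ι b * ι f) * B := by simp only [mul_assoc]
      have e2 : ι b * ι f * B = ι b * ι f := by
        rw [mul_assoc, ← hBc, ← mul_assoc, ← hBc, hBb]
      rw [e1, hBb, mul_assoc _ (ι b * ι f) B, e2, hbcomm]
    have h5 := Submodule.finrank_mono hle
    have h6 : finrank k ((crn k (b * f) (b * f)).map ι.toLinearMap) =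
        finrank k (crn k (b * f) (b * f)) :=
      finrank_map_of_inj' _ _ (fun x y hxy => Subtype.ext (hιinj hxy))
    have h7 : m.factorial * (2 * Nat.card P' * m) ^ m ≤ X := by
      rw [hX]
      apply Nat.mul_le_mul_left
      apply Nat.pow_le_pow_left
      apply Nat.mul_le_mul_right
      rw [hP1card] at hcard
      omega
    rw [← hm] at key
    omega
  · -- odd characteristic
    obtain ⟨w, hw, hwb, hbw⟩ := H365.gen hb hP ha hba hfP hff hbr
    have hf1P : ι f ∈ Fix (cj k (Perm α)) P1 := (incl_mem_Fix_iff (alternatingGroup α) P f).2 hfP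
    have hw1P : ι w ∈ Fix (cj k (Perm α)) P1 := (incl_mem_Fix_iff (alternatingGroup α) P w).2 hw
    have hbw1 : ι b = tr (cj k (Perm α)) P1 (alternatingGroup α) (ι f * ι w) := by
      conv_lhs => rw [hbw]
      rw [← map_mul]
      exact incl_tr (alternatingGroup α) P (Subalgebra.mul_mem _ hfP hw)
    obtain ⟨B, hB, hBb, w', hw', hBw⟩ := exists_cover_odd hN ht h2 hb1 hP1N hf1P hw1P hbw1
    have hBc : ∀ z, B * z = z * B := fun z => (commute_of_mem (SubAlg_top z) hB.mem.2).symm
    have hpow := H799.Jb_pow hP1p hB.idem hB.mem.2 (Subalgebra.mul_mem _ hf1P hw') hBw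
    have key := finrank_corner_odd h2 F hf1 hff1 hfS1
      (fun j hj x => (commute_of_mem (SubAlg_top x) (H799.mem_Jb.1 hj).1).symm) hB
      (H799.exists_scalar_Jb hB) hpow hP1F hw' hBw rfl
    have hle : (crn k (b * f) (b * f)).map
        ((LinearMap.mulRight k B).comp ι.toLinearMap) ≤ crn k (ι f * B) (ι f * B) := by
      rintro _ ⟨x, hx, rfl⟩
      have hx' : x ∈ crn k (b * f) (b * f) := hx
      rw [mem_crn] at hx'
      obtain ⟨y, rfl⟩ := hx'
      rw [mem_crn]
      refine ⟨ι b * ι y * ι b, ?_⟩
      show ι (b * f * y * (b * f)) * B = _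
      simp only [map_mul]
      have e1 : ι f * B * (ι b * ι y * ι b) * (ι f * B) =
          ι f * (B * ι b) * ι y * (ι b * ι f) * B := by simp only [mul_assoc]
      have e2 : ι b * ι f * ι y * (ι b * ι f) * B = ι f * ι b * ι y * (ι b * ι f) * B := by
        rw [hbcomm]
      have e3 : ι f * (B * ι b) * ι y * (ι b * ι f) * B =
          B * (ι f * ι b * ι y * (ι b * ι f) * B) := by
        rw [hBc (ι b), ← mul_assoc (ι f)]
        have : ι f * ι b * B = B * (ι f * ι b) := (hBc _).symm
        rw [this]
        simp only [mul_assoc]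
      have e4 : B * (ι f * ι b * ι y * (ι b * ι f) * B) = ι f * ι b * ι y * (ι b * ι f) * B := by
        rw [hBc, mul_assoc _ B B, hB.idem.eq]
      rw [e1, e2, e3, e4]
    have hinj : finrank k ((crn k (b * f) (b * f)).map
        ((LinearMap.mulRight k B).comp ι.toLinearMap)) = finrank k (crn k (b * f) (b * f)) := by
      have h8 : Function.Injective
          (((LinearMap.mulRight k B).comp ι.toLinearMap).domRestrict (crn k (b * f) (b * f))) := by
        rw [← LinearMap.ker_eq_bot, LinearMap.ker_eq_bot']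
        intro x hx
        have h9 : ι x.1 * B = 0 := hx
        obtain ⟨y, hy⟩ := mem_crn.1 x.2
        have h10 : ι x.1 * ι b = ι x.1 := by
          rw [← map_mul]
          congr 1
          have hfb : b * f * b = b * f := by
            rw [mul_assoc, commute_of_mem (SubAlg_top f) hb.mem.2, ← mul_assoc, hb.idem.eq]
          rw [hy, mul_assoc (b * f * y), hfb]
        have h11 := mul_injective_odd hN hb1 hB hBb (incl_mem (alternatingGroup α) x.1) h10 h9
        exact Subtype.ext (hιinj (by rw [h11, ZeroMemClass.coe_zero, map_zero]))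
      exact finrank_map_of_inj' _ _ h8
    have h5 := Submodule.finrank_mono hle
    rw [hinj] at h5
    have h7 : m.factorial * (2 * Nat.card P1 * m) ^ m ≤ X := by
      rw [hX]
      apply Nat.mul_le_mul_left
      apply Nat.pow_le_pow_left
      apply Nat.mul_le_mul_right
      rw [hP1card]
      omega
    have h8 := Nat.mul_le_mul h7 h7
    rw [← hm] at key
    omega

end Vale.Agent.P180.R2.H589
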