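import Mathlib

/-!
P180: general facts on corners `i A j` of a finite dimensional algebra.
-/

namespace Vale.Agent.P180.R2.H589

open Module

section Fin

variable {k M ι : Type*} [Field k] [AddCommGroup M] [Module k M] [FiniteDimensional k M]

theorem finrank_finset_sup_le (s : Finset ι) (S : ι → Submodule k M) :
    finrank k (s.sup S : Submodule k M) ≤ ∑ i ∈ s, finrank k (S i) := by
  classical
  induction s using Finset.induction_on with
  | empty => simp
  | insert a s ha ih =>
    rw [Finset.sup_insert, Finset.sum_insert ha]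
    exact (Submodule.finrank_add_le_finrank_add_finrank _ _).trans (by omega)

theorem finrank_finset_sup_le_mul (s : Finset ι) (S : ι → Submodule k M) (c : ℕ)
    (h : ∀ i ∈ s, finrank k (S i) ≤ c) :
    finrank k (s.sup S : Submodule k M) ≤ s.card * c := by
  refine (finrank_finset_sup_le s S).trans ?_
  have := Finset.sum_le_card_nsmul s (fun i => finrank k (S i)) c h
  simpa using this

end Fin

section Corner

variable {k A : Type*} [Field k] [Ring A] [Algebra k A]

/-- The corner `i A j`. -/
def crn (k : Type*) {A : Type*} [Field k] [Ring A] [Algebra k A] (i j : A) : Submodule k A :=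
  Submodule.map ((LinearMap.mulLeft k i).comp (LinearMap.mulRight k j)) ⊤

theorem mem_crn {i j x : A} : x ∈ crn k i j ↔ ∃ a, x = i * a * j := by
  unfold crn
  rw [Submodule.mem_map]
  constructor
  · rintro ⟨a, -, h⟩
    refine ⟨a, ?_⟩
    rw [← h]
    simp [mul_assoc]
  · rintro ⟨a, h⟩
    refine ⟨a, trivial, ?_⟩
    rw [h]
    simp [mul_assoc]

theorem mem_crn' {i j x : A} (hi : i * i = i) (hj : j * j = j) :
    x ∈ crn k i j ↔ i * x = x ∧ x * j = x := by
  rw [mem_crn]
  constructor
  · rintro ⟨a, rfl⟩
    constructor
    · rw [← mul_assoc, ← mul_assoc, hi]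
    · rw [mul_assoc, hj]
  · rintro ⟨h1, h2⟩
    exact ⟨x, by rw [h1, h2]⟩

/-- The two-sided ideal generated by `i`, as a subspace. -/
def idl (k : Type*) {A : Type*} [Field k] [Ring A] [Algebra k A] (i : A) : Submodule k A :=
  Submodule.span k {x | ∃ a b : A, x = a * i * b}

/-- If `j ∈ A i A` then `dim i A j ≤ dim j A j * dim i A i`. -/
theorem finrank_cross [FiniteDimensional k A] {i j : A} (hi : i * i = i) (hj : j * j = j)
    (h : j ∈ idl k i) :
    finrank k (crn k i j) ≤ finrank k (crn k j j) * finrank k (crn k i i) := by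
  classical
  -- products spanning `j A j`
  set P : Set A := {x | ∃ a b : A, x = (j * a * i) * (i * b * j)} with hP
  have hPle : Submodule.span k P ≤ crn k j j := by
    rw [Submodule.span_le]
    rintro x ⟨a, b, rfl⟩
    show _ ∈ crn k j j
    rw [mem_crn]
    exact ⟨a * i * (i * b), by simp only [mul_assoc]⟩
  have hjP : j ∈ Submodule.span k P := by
    have h1 : ∀ x ∈ idl k i, j * x * j ∈ Submodule.span k P := by
      intro x hx
      refine Submodule.span_induction ?_ ?_ ?_ ?_ hx
      · rintro x ⟨a, b, rfl⟩
        apply Submodule.subset_span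
        refine ⟨a, b, ?_⟩
        calc j * (a * i * b) * j = j * a * i * b * j := by simp only [mul_assoc]
          _ = j * a * (i * i) * b * j := by rw [hi]
          _ = _ := by simp only [mul_assoc]
      · simp
      · intro x y _ _ hx hy; rw [mul_add, add_mul]; exact Submodule.add_mem _ hx hy
      · intro c x _ hx
        rw [mul_smul_comm, smul_mul_assoc]
        exact Submodule.smul_mem _ _ hx
    have := h1 j h
    rwa [hj, hj] at this
  -- choose a basis among the products
  obtain ⟨T, hTP, hTspan, hTli⟩ := exists_linearIndependent k P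
  have hTfin : T.Finite := hTli.setFinite
  have := hTfin.fintype
  have hcard : Fintype.card T ≤ finrank k (crn k j j) := by
    have h1 : finrank k (Submodule.span k T) = Fintype.card T := by
      rw [finrank_span_set_eq_card hTli, Set.toFinset_card]
    rw [← h1]
    apply Submodule.finrank_mono
    rw [hTspan]
    exact hPle
  have hjT : j ∈ Submodule.span k T := by rw [hTspan]; exact hjP
  choose a b hab using (fun t : T => hTP t.2)
  -- the injective map
  let f : crn k i j →ₗ[k] (T → crn k i i) :=
    LinearMap.pi (fun t => LinearMap.codRestrict (crn k i i)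
      ((LinearMap.mulRight k (j * a t * i)).comp (crn k i j).subtype) (by
        intro x
        obtain ⟨y, hy⟩ := mem_crn.1 x.2
        rw [mem_crn]
        refine ⟨y * j * (j * a t), ?_⟩
        simp [hy, mul_assoc]))
  have hf : Function.Injective f := by
    rw [← LinearMap.ker_eq_bot, LinearMap.ker_eq_bot']
    intro x hx
    have h1 : ∀ t : T, (x : A) * (j * a t * i) = 0 := by
      intro t
      have := congrArg (fun y => ((y t : crn k i i) : A)) hx
      rw [← mul_assoc, ← mul_assoc]
      simpa [f, mul_assoc] using this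
    have h2 : ∀ y ∈ Submodule.span k T, (x : A) * y = 0 := by
      intro y hy
      refine Submodule.span_induction ?_ ?_ ?_ ?_ hy
      · intro t ht
        have h5 : t = j * a ⟨t, ht⟩ * i * (i * b ⟨t, ht⟩ * j) := hab ⟨t, ht⟩
        rw [h5, ← mul_assoc, h1, zero_mul]
      · simp
      · intro x y _ _ hx hy; rw [mul_add, hx, hy, add_zero]
      · intro c x _ hx; rw [mul_smul_comm, hx, smul_zero]
    have h3 := h2 j hjT
    obtain ⟨_, h4⟩ := (mem_crn' hi hj).1 x.2
    rw [h4] at h3
    exact Subtype.ext h3
  calc finrank k (crn k i j) ≤ finrank k (T → crn k i i) := LinearMap.finrank_le_finrank_of_injective hf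
    _ = Fintype.card T * finrank k (crn k i i) := by
        rw [Module.finrank_pi_fintype]; simp
    _ ≤ _ := Nat.mul_le_mul_right _ hcard

end Corner

section Descend

variable {k A : Type*} [Field k] [Ring A] [Algebra k A]

/-- Let `S` be a subalgebra, `f` an idempotent of `S` with `f S f = k f` and `E = ∑ x_l f y_l` with
`x_l, y_l ∈ S` and `f E = f`, where `E` commutes with `S`.  Then for `a ∈ f A f` the element
`∑ x_l a y_l` commutes with `S` and its corner is `a`. -/
theorem exists_lift {S : Subalgebra k A} {f E : A} (hfS : f ∈ S) (hff : f * f = f)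
    (hf : ∀ y ∈ S, ∃ c : k, f * y * f = c • f)
    {ι : Type*} (s : Finset ι) (x y : ι → A) (hx : ∀ i, x i ∈ S) (hy : ∀ i, y i ∈ S)
    (hE : E = ∑ i ∈ s, x i * f * y i) (hES : ∀ z ∈ S, E * z = z * E) (hfE : f * E = f)
    (a : A) (ha : f * a * f = a) :
    (∀ z ∈ S, z * (∑ i ∈ s, x i * a * y i) = (∑ i ∈ s, x i * a * y i) * z) ∧
    f * (∑ i ∈ s, x i * a * y i) * f = a ∧
    E * (∑ i ∈ s, x i * a * y i) = ∑ i ∈ s, x i * a * y i ∧
    (∑ i ∈ s, x i * a * y i) * E = ∑ i ∈ s, x i * a * y i := by
  classical
  have hEf : E * f = f := by rw [hES f hfS, hfE]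
  have hxE : ∀ i, E * (x i * f) = x i * f := fun i => by
    rw [← mul_assoc, hES _ (hx i), mul_assoc, hEf]
  have hyE : ∀ i, (f * y i) * E = f * y i := fun i => by
    rw [mul_assoc, ← hES _ (hy i), ← mul_assoc, hfE]
  choose! c hc using hf
  have ha1 : f * a = a := by rw [← ha, ← mul_assoc, ← mul_assoc, hff]
  have ha2 : a * f = a := by rw [← ha, mul_assoc, hff]
  have hxa : ∀ i, x i * a * y i = (x i * f) * a * (f * y i) := fun i => by
    rw [mul_assoc (x i) f a, ha1, mul_assoc (x i) a, mul_assoc (x i) a, ← mul_assoc a f, ha2]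
  have hE1 : E * (∑ i ∈ s, x i * a * y i) = ∑ i ∈ s, x i * a * y i := by
    rw [Finset.mul_sum]
    apply Finset.sum_congr rfl
    intro i _
    rw [hxa, mul_assoc (x i * f), ← mul_assoc, hxE]
  have hE2 : (∑ i ∈ s, x i * a * y i) * E = ∑ i ∈ s, x i * a * y i := by
    rw [Finset.sum_mul]
    apply Finset.sum_congr rfl
    intro i _
    rw [hxa, mul_assoc, hyE]
  refine ⟨?_, ?_, hE1, hE2⟩
  · intro z hz
    -- `z x_l f = ∑ τ_{l' l} x_{l'} f`
    have h1 : ∀ l, z * (x l * f) = ∑ l' ∈ s, c (y l' * z * x l) • (x l' * f) := by
      intro l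
      calc z * (x l * f) = E * (z * x l * f) := by
            rw [mul_assoc z, ← mul_assoc E, hES z hz, mul_assoc, hxE]
        _ = ∑ l' ∈ s, x l' * (f * (y l' * z * x l) * f) := by
            rw [hE, Finset.sum_mul]
            apply Finset.sum_congr rfl
            intro l' _
            simp only [mul_assoc]
        _ = _ := by
            apply Finset.sum_congr rfl
            intro l' _
            rw [hc _ (S.mul_mem (S.mul_mem (hy l') hz) (hx l)), mul_smul_comm]
    have h2 : ∀ l, (f * y l) * z = ∑ l' ∈ s, c (y l * z * x l') • (f * y l') := by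
      intro l
      calc (f * y l) * z = (f * y l * z) * E := by
            rw [mul_assoc (f * y l), ← hES z hz, ← mul_assoc, hyE]
        _ = ∑ l' ∈ s, (f * (y l * z * x l') * f) * y l' := by
            rw [hE, Finset.mul_sum]
            apply Finset.sum_congr rfl
            intro l' _
            simp only [mul_assoc]
        _ = _ := by
            apply Finset.sum_congr rfl
            intro l' _
            rw [hc _ (S.mul_mem (S.mul_mem (hy l) hz) (hx l')), smul_mul_assoc]
    rw [Finset.mul_sum, Finset.sum_mul]
    have e1 : ∀ l ∈ s, z * (x l * a * y l) =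
        ∑ l' ∈ s, c (y l' * z * x l) • ((x l' * f) * a * (f * y l)) := by
      intro l _
      rw [hxa, mul_assoc (x l * f), ← mul_assoc z, h1, Finset.sum_mul]
      apply Finset.sum_congr rfl
      intro l' _
      rw [smul_mul_assoc, mul_assoc (x l' * f)]
    have e2 : ∀ l ∈ s, (x l * a * y l) * z =
        ∑ l' ∈ s, c (y l * z * x l') • ((x l * f) * a * (f * y l')) := by
      intro l _
      rw [hxa, mul_assoc (x l * f * a), h2, Finset.mul_sum]
      apply Finset.sum_congr rfl
      intro l' _
      rw [mul_smul_comm]
    rw [Finset.sum_congr rfl e1, Finset.sum_congr rfl e2, Finset.sum_comm]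
  · rw [Finset.mul_sum, Finset.sum_mul]
    have e1 : ∀ l ∈ s, f * (x l * a * y l) * f = (c (x l) * c (y l)) • a := by
      intro l _
      calc f * (x l * a * y l) * f = (f * x l * f) * a * (f * y l * f) := by
            rw [hxa]; simp only [mul_assoc]
        _ = _ := by
            rw [hc _ (hx l), hc _ (hy l), smul_mul_assoc, smul_mul_assoc, mul_smul_comm, ha1, ha2,
              smul_smul]
    have e2 : (∑ l ∈ s, c (x l) * c (y l)) • f = f := by
      have h3 : f * E * f = ∑ l ∈ s, (c (x l) * c (y l)) • f := by
        rw [hE, Finset.mul_sum, Finset.sum_mul]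
        apply Finset.sum_congr rfl
        intro l _
        calc f * (x l * f * y l) * f = (f * x l * f) * (f * y l * f) := by
              have : f * x l * f * (f * y l * f) = f * x l * (f * f) * y l * f := by
                simp only [mul_assoc]
              rw [this, hff]; simp only [mul_assoc]
          _ = _ := by
              rw [hc _ (hx l), hc _ (hy l), smul_mul_assoc, mul_smul_comm, hff, smul_smul]
      rw [Finset.sum_smul, ← h3, hfE, hff]
    rw [Finset.sum_congr rfl e1, ← Finset.sum_smul]
    calc (∑ l ∈ s, c (x l) * c (y l)) • a = ((∑ l ∈ s, c (x l) * c (y l)) • f) * a := by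
          rw [smul_mul_assoc, ha1]
      _ = a := by rw [e2, ha1]

end Descend

end Vale.Agent.P180.R2.H589
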