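import Vale.Agent.P180.R2.H589.Gen2

set_option linter.unusedSectionVars false

/-!
P180: even and odd elements of a group algebra, with respect to a subgroup of index two.
-/

namespace Vale.Agent.P180.R2.H589

open Finset Module
open Vale.Agent.P180

section Parity

variable {k : Type*} [Field k] {G : Type*} [Group G] {N : Subgroup G}

open scoped Classical in
/-- The even part. -/
noncomputable def ev (N : Subgroup G) : MonoidAlgebra k G →ₗ[k] MonoidAlgebra k G where
  toFun a := MonoidAlgebra.ofCoeff (a.coeff.filter fun x : G => x ∈ N)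
  map_add' a b := by
    apply MonoidAlgebra.coeff_injective
    simp [Finsupp.filter_add]
  map_smul' r a := by
    apply MonoidAlgebra.coeff_injective
    simp [Finsupp.filter_smul]

open scoped Classical in
theorem ev_coeff (a : MonoidAlgebra k G) (x : G) :
    (ev N a).coeff x = if x ∈ N then a.coeff x else 0 := by
  change (a.coeff.filter fun x : G => x ∈ N) x = _
  rw [Finsupp.filter_apply]

/-- The odd part. -/
noncomputable def od (N : Subgroup G) : MonoidAlgebra k G →ₗ[k] MonoidAlgebra k G :=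
  LinearMap.id - ev N

theorem ev_add_od (a : MonoidAlgebra k G) : ev N a + od N a = a := by
  unfold od
  simp

open scoped Classical in
theorem od_coeff (a : MonoidAlgebra k G) (x : G) :
    (od N a).coeff x = if x ∈ N then 0 else a.coeff x := by
  unfold od
  rw [LinearMap.sub_apply, LinearMap.id_apply, MonoidAlgebra.coeff_sub, Finsupp.sub_apply, ev_coeff]
  split_ifs <;> simp

/-- Odd elements. -/
def Odd' (N : Subgroup G) (a : MonoidAlgebra k G) : Prop := SuppIn (N : Set G)ᶜ a

theorem ev_mem (a : MonoidAlgebra k G) : ev N a ∈ SubAlg k N := by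
  classical
  intro x hx
  rw [ev_coeff] at hx
  by_contra h
  exact hx (if_neg h)

theorem od_odd (a : MonoidAlgebra k G) : Odd' N (od N a) := by
  classical
  intro x hx hxN
  rw [od_coeff] at hx
  exact hx (if_pos hxN)

theorem ev_of_mem {a : MonoidAlgebra k G} (ha : a ∈ SubAlg k N) : ev N a = a := by
  classical
  ext x
  rw [ev_coeff]
  split_ifs with h
  · rfl
  · by_contra h1
    exact h (ha x (Ne.symm h1))

theorem ev_of_odd {a : MonoidAlgebra k G} (ha : Odd' N a) : ev N a = 0 := by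
  classical
  ext x
  rw [ev_coeff]
  split_ifs with h
  · by_contra h1
    exact ha x h1 h
  · rfl

theorem od_of_mem {a : MonoidAlgebra k G} (ha : a ∈ SubAlg k N) : od N a = 0 := by
  unfold od
  rw [LinearMap.sub_apply, LinearMap.id_apply, ev_of_mem ha, sub_self]

theorem od_of_odd {a : MonoidAlgebra k G} (ha : Odd' N a) : od N a = a := by
  unfold od
  rw [LinearMap.sub_apply, LinearMap.id_apply, ev_of_odd ha, sub_zero]

theorem ev_mem_SubAlg {H : Subgroup G} {a : MonoidAlgebra k G} (ha : a ∈ SubAlg k H) :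
    ev N a ∈ SubAlg k (H ⊓ N) := by
  classical
  intro x hx
  rw [ev_coeff] at hx
  by_cases h : x ∈ N
  · rw [if_pos h] at hx
    exact ⟨ha x hx, h⟩
  · exact absurd (if_neg h) hx

theorem od_mem_SubAlg {H : Subgroup G} {a : MonoidAlgebra k G} (ha : a ∈ SubAlg k H) :
    od N a ∈ SubAlg k H := by
  unfold od
  rw [LinearMap.sub_apply, LinearMap.id_apply]
  exact Subalgebra.sub_mem _ ha (SubAlg_mono inf_le_left (ev_mem_SubAlg ha))

theorem Odd'.mul_mem {a b : MonoidAlgebra k G} (ha : Odd' N a) (hb : b ∈ SubAlg k N) :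
    Odd' N (a * b) :=
  SuppIn.mul ha hb fun s hs t ht h => hs (by
    have := N.mul_mem h (N.inv_mem ht)
    rwa [mul_inv_cancel_right] at this)

theorem mem_mul_Odd' {a b : MonoidAlgebra k G} (ha : a ∈ SubAlg k N) (hb : Odd' N b) :
    Odd' N (a * b) :=
  SuppIn.mul ha hb fun s hs t ht h => ht (by
    have := N.mul_mem (N.inv_mem hs) h
    rwa [inv_mul_cancel_left] at this)

theorem Odd'.mul_Odd' (hN : ∀ x y : G, x ∉ N → y ∉ N → x * y ∈ N) {a b : MonoidAlgebra k G}
    (ha : Odd' N a) (hb : Odd' N b) : a * b ∈ SubAlg k N :=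
  SuppIn.mul ha hb fun s hs t ht => hN s t hs ht

theorem Odd'.add {a b : MonoidAlgebra k G} (ha : Odd' N a) (hb : Odd' N b) : Odd' N (a + b) :=
  SuppIn.add ha hb

theorem Odd'.smul {a : MonoidAlgebra k G} (c : k) (ha : Odd' N a) : Odd' N (c • a) :=
  SuppIn.smul c ha

theorem Odd'.sum {ι : Type*} (s : Finset ι) (a : ι → MonoidAlgebra k G)
    (ha : ∀ i ∈ s, Odd' N (a i)) : Odd' N (∑ i ∈ s, a i) := by
  classical
  induction s using Finset.induction_on with
  | empty => intro x hx; simp at hx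
  | insert i s hi ih =>
    rw [Finset.sum_insert hi]
    exact (ha i (mem_insert_self _ _)).add (ih fun j hj => ha j (mem_insert_of_mem hj))

theorem ev_mul (hN : ∀ x y : G, x ∉ N → y ∉ N → x * y ∈ N) (a b : MonoidAlgebra k G) :
    ev N (a * b) = ev N a * ev N b + od N a * od N b := by
  have h : a * b = (ev N a * ev N b + od N a * od N b) + (ev N a * od N b + od N a * ev N b) := by
    conv_lhs => rw [← ev_add_od (N := N) a, ← ev_add_od (N := N) b]
    noncomm_ring
  have h1 : ev N a * ev N b + od N a * od N b ∈ SubAlg k N :=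
    Subalgebra.add_mem _ (Subalgebra.mul_mem _ (ev_mem a) (ev_mem b))
      ((od_odd a).mul_Odd' hN (od_odd b))
  have h2 : Odd' N (ev N a * od N b + od N a * ev N b) :=
    (mem_mul_Odd' (ev_mem a) (od_odd b)).add ((od_odd a).mul_mem (ev_mem b))
  rw [h, map_add, ev_of_mem h1, ev_of_odd h2, add_zero]

theorem od_mul (hN : ∀ x y : G, x ∉ N → y ∉ N → x * y ∈ N) (a b : MonoidAlgebra k G) :
    od N (a * b) = ev N a * od N b + od N a * ev N b := by
  have h : a * b = (ev N a * ev N b + od N a * od N b) + (ev N a * od N b + od N a * ev N b) := by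
    conv_lhs => rw [← ev_add_od (N := N) a, ← ev_add_od (N := N) b]
    noncomm_ring
  have h1 : ev N a * ev N b + od N a * od N b ∈ SubAlg k N :=
    Subalgebra.add_mem _ (Subalgebra.mul_mem _ (ev_mem a) (ev_mem b))
      ((od_odd a).mul_Odd' hN (od_odd b))
  have h2 : Odd' N (ev N a * od N b + od N a * ev N b) :=
    (mem_mul_Odd' (ev_mem a) (od_odd b)).add ((od_odd a).mul_mem (ev_mem b))
  rw [h, map_add, od_of_mem h1, od_of_odd h2, zero_add]

theorem ev_cj [hNn : N.Normal] (g : G) (a : MonoidAlgebra k G) :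
    ev N (cj k G g a) = cj k G g (ev N a) := by
  classical
  ext x
  rw [ev_coeff, cj_coeff, cj_coeff, ev_coeff]
  have h : x ∈ N ↔ g⁻¹ * x * g ∈ N := by
    constructor
    · intro h
      have := hNn.conj_mem x h g⁻¹
      rwa [inv_inv] at this
    · intro h
      have := hNn.conj_mem _ h g
      simpa [mul_assoc] using this
  by_cases hx : x ∈ N
  · rw [if_pos hx, if_pos (h.1 hx)]
  · rw [if_neg hx, if_neg (fun h' => hx (h.2 h'))]

theorem ev_mem_Fix [N.Normal] {H : Subgroup G} {a : MonoidAlgebra k G}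
    (ha : a ∈ Fix (cj k G) H) : ev N a ∈ Fix (cj k G) H := by
  intro h hh
  rw [← ev_cj, ha h hh]

theorem od_mem_Fix [N.Normal] {H : Subgroup G} {a : MonoidAlgebra k G}
    (ha : a ∈ Fix (cj k G) H) : od N a ∈ Fix (cj k G) H := by
  unfold od
  rw [LinearMap.sub_apply, LinearMap.id_apply]
  exact Subalgebra.sub_mem _ ha (ev_mem_Fix ha)

end Parity

section Corner

variable {k : Type*} [Field k] {G : Type*} [Group G] [Finite G] {N H : Subgroup G}

/-- The odd part of the corner `f kH f`. -/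
theorem odd_corner (hN : ∀ x y : G, x ∉ N → y ∉ N → x * y ∈ N) {f : MonoidAlgebra k G}
    (hf : f ∈ SubAlg k (H ⊓ N)) (hff : f * f = f)
    (hfS : ∀ y ∈ SubAlg k (H ⊓ N), ∃ c : k, f * y * f = c • f)
    {v : MonoidAlgebra k G} (hv : v ∈ SubAlg k H) (hvo : Odd' N v) (hfv : f * v * f = v)
    (hv0 : v ≠ 0) :
    (∃ a : k, a ≠ 0 ∧ v * v = a • f) ∧
    ∀ x ∈ SubAlg k H, Odd' N x → f * x * f = x → ∃ c : k, x = c • v := by
  classical
  have hfH : f ∈ SubAlg k H := SubAlg_mono inf_le_left hf
  have hfN : f ∈ SubAlg k N := SubAlg_mono inf_le_right hf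
  obtain ⟨h, hh⟩ : ∃ h, v.coeff h ≠ 0 := by
    by_contra hcon
    push Not at hcon
    apply hv0
    ext x
    rw [hcon x]
    simp
  have hhH : h ∈ H := hv h hh
  have hhN : h ∉ N := hvo h hh
  set y := f * MonoidAlgebra.single h⁻¹ 1 * f with hy
  have hyo : Odd' N y := (mem_mul_Odd' hfN (SuppIn.single (by
    intro h'; exact hhN (by simpa using N.inv_mem h')) 1)).mul_mem hfN
  have hyH : y ∈ SubAlg k H := Subalgebra.mul_mem _ (Subalgebra.mul_mem _ hfH
    (single_mem_SubAlg (H.inv_mem hhH) 1)) hfH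
  have hfy : f * y * f = y := by
    rw [hy]
    calc f * (f * MonoidAlgebra.single h⁻¹ 1 * f) * f
        = (f * f) * MonoidAlgebra.single h⁻¹ 1 * (f * f) := by simp only [mul_assoc]
      _ = _ := by rw [hff]
  have hleft : ∀ x, f * x * f = x → f * x = x := by
    intro x hx
    rw [← hx, ← mul_assoc, ← mul_assoc, hff]
  have hright : ∀ x, f * x * f = x → x * f = x := by
    intro x hx
    rw [← hx, mul_assoc, hff]
  -- products of odd elements of the corner are scalars
  have hprod : ∀ x ∈ SubAlg k H, ∀ x' ∈ SubAlg k H, Odd' N x → Odd' N x' → f * x * f = x →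
      f * x' * f = x' → ∃ c : k, x * x' = c • f := by
    intro x hx x' hx' ho ho' h1 h2
    have h3 : x * x' ∈ SubAlg k (H ⊓ N) := fun g hg =>
      ⟨Subalgebra.mul_mem _ hx hx' g hg, ho.mul_Odd' hN ho' g hg⟩
    obtain ⟨c, hc⟩ := hfS _ h3
    refine ⟨c, ?_⟩
    rw [← hc]
    rw [← mul_assoc, hleft x h1, mul_assoc, hright x' h2]
  obtain ⟨c, hc⟩ := hprod v hv y hyH hvo hyo hfv hfy
  have hc0 : c ≠ 0 := by
    rintro rfl
    rw [zero_smul] at hc
    apply hh
    rw [coeff_eq_mul']
    have h1 : (v * MonoidAlgebra.single h⁻¹ 1).coeff 1 = (v * y).coeff 1 := by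
      have h2 : f * (v * (f * MonoidAlgebra.single h⁻¹ 1)) = v * MonoidAlgebra.single h⁻¹ 1 := by
        calc f * (v * (f * MonoidAlgebra.single h⁻¹ 1)) = (f * v * f) * MonoidAlgebra.single h⁻¹ 1 := by
              simp only [mul_assoc]
          _ = _ := by rw [hfv]
      rw [hy, ← mul_assoc, coeff_one_comm' _ f, h2]
    rw [h1, hc]
    simp
  have hall : ∀ x ∈ SubAlg k H, Odd' N x → f * x * f = x → ∃ c : k, x = c • v := by
    intro x hx hxo hfx
    obtain ⟨c', hc'⟩ := hprod y hyH x hx hyo hxo hfy hfx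
    refine ⟨c⁻¹ * c', ?_⟩
    have h1 : c • x = c' • v := by
      calc c • x = (v * y) * x := by rw [hc, smul_mul_assoc, hleft x hfx]
        _ = v * (y * x) := mul_assoc _ _ _
        _ = c' • v := by rw [hc', mul_smul_comm, hright v hfv]
    rw [mul_smul, ← h1, smul_smul, inv_mul_cancel₀ hc0, one_smul]
  refine ⟨?_, hall⟩
  obtain ⟨t, ht⟩ := hall y hyH hyo hfy
  have h1 : t • (v * v) = c • f := by rw [← hc, ht, mul_smul_comm]
  have ht0 : t ≠ 0 := by
    rintro rfl
    rw [zero_smul] at h1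
    apply hv0
    have h2 : f = 0 := by
      rw [← one_smul k f, ← inv_mul_cancel₀ hc0, mul_smul, ← h1, smul_zero]
    rw [← hfv, h2]
    simp
  refine ⟨t⁻¹ * c, mul_ne_zero (inv_ne_zero ht0) hc0, ?_⟩
  rw [mul_smul, ← h1, smul_smul, inv_mul_cancel₀ ht0, one_smul]

/-- The corner of `kH`. -/
theorem corner_dichotomy {f : MonoidAlgebra k G}
    (hf : f ∈ SubAlg k (H ⊓ N)) (hff : f * f = f)
    (hfS : ∀ y ∈ SubAlg k (H ⊓ N), ∃ c : k, f * y * f = c • f) :
    (∀ y ∈ SubAlg k H, ∃ c : k, f * y * f = c • f) ∨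
    ∃ v ∈ SubAlg k H, Odd' N v ∧ f * v * f = v ∧ v ≠ 0 := by
  classical
  by_contra hcon
  push Not at hcon
  obtain ⟨⟨y, hy, h1⟩, h2⟩ := hcon
  have hfH : f ∈ SubAlg k H := SubAlg_mono inf_le_left hf
  have hfN : f ∈ SubAlg k N := SubAlg_mono inf_le_right hf
  have h3 : f * od N y * f = 0 := by
    apply h2
    · exact Subalgebra.mul_mem _ (Subalgebra.mul_mem _ hfH (od_mem_SubAlg hy)) hfH
    · exact (mem_mul_Odd' hfN (od_odd y)).mul_mem hfN
    · calc f * (f * od N y * f) * f = (f * f) * od N y * (f * f) := by simp only [mul_assoc]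
        _ = _ := by rw [hff]
  obtain ⟨c, hc⟩ := hfS _ (ev_mem_SubAlg (N := N) hy)
  apply h1 c
  rw [← hc]
  conv_lhs => rw [← ev_add_od (N := N) y]
  rw [mul_add, add_mul, h3, add_zero]

end Corner

end Vale.Agent.P180.R2.H589
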