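import Vale.Agent.P180.R2.H47.Ob
import Mathlib.GroupTheory.Transfer

/-!
P180: quasisimple groups with cyclic Sylow subgroups modulo the centre; outer automorphisms of a
perfect group and of its quotient by the centre.
-/

set_option linter.all false

namespace Vale.Agent.P180.R2.H589

open Subgroup Vale.Agent.P180.R2.H47

section CT

variable {L : Type*} [Group L] [Finite L] {p : ℕ} [Fact p.Prime]

/-- In a perfect group with an abelian Sylow `p`-subgroup the centre has order prime to `p`. -/
theorem eq_one_of_center_of_perfect (hperf : commutator L = ⊤) (P : Sylow p L)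
    (hcomm : ∀ x ∈ (P : Subgroup L), ∀ y ∈ (P : Subgroup L), x * y = y * x) {z : L}
    (hz : z ∈ center L) (hzP : z ∈ (P : Subgroup L)) : z = 1 := by
  let _ : CommGroup (P : Subgroup L) :=
    { (inferInstance : Group (P : Subgroup L)) with
      mul_comm := fun a b => Subtype.ext (hcomm a a.2 b b.2) }
  have hzc : ∀ g, g * z = z * g := mem_center_iff.mp hz
  have key : ∀ (k : ℕ) (g₀ : L), g₀⁻¹ * z ^ k * g₀ ∈ (P : Subgroup L) →
      g₀⁻¹ * z ^ k * g₀ = z ^ k := by
    intro k g₀ _
    have h1 : g₀ * z ^ k = z ^ k * g₀ := (Commute.pow_right (hzc g₀) k)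
    rw [mul_assoc, ← h1, inv_mul_cancel_left]
  have h1 := MonoidHom.transfer_eq_pow (MonoidHom.id (P : Subgroup L)) z key
  have h2 : commutator L ≤ (MonoidHom.transfer (MonoidHom.id (P : Subgroup L))).ker := by
    rw [commutator_def, commutator_le]
    intro x _ y _
    rw [MonoidHom.mem_ker, commutatorElement_def, map_mul, map_mul, map_mul, map_inv, map_inv,
      mul_comm (MonoidHom.transfer _ x), mul_inv_cancel_right, mul_inv_cancel]
  have h3 : MonoidHom.transfer (MonoidHom.id (P : Subgroup L)) z = 1 := by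
    have : z ∈ commutator L := by rw [hperf]; exact mem_top z
    exact MonoidHom.mem_ker.mp (h2 this)
  rw [h1] at h3
  have h4 : z ^ (P : Subgroup L).index = 1 := congrArg Subtype.val h3
  obtain ⟨n, hn⟩ := P.2 ⟨z, hzP⟩
  have hn : z ^ p ^ n = 1 := congrArg Subtype.val hn
  have h5 := Nat.dvd_gcd (orderOf_dvd_of_pow_eq_one hn) (orderOf_dvd_of_pow_eq_one h4)
  have h6 : Nat.Coprime (p ^ n) (P : Subgroup L).index := by
    apply Nat.Coprime.pow_left
    rw [(Fact.out : p.Prime).coprime_iff_not_dvd]
    exact P.not_dvd_index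
  rw [h6] at h5
  exact orderOf_eq_one_iff.mp (Nat.dvd_one.mp h5)

/-- **(CT)** -/
theorem cyclic_of_quot (hperf : commutator L = ⊤)
    (h : ∀ P : Subgroup (L ⧸ center L), IsPGroup p P → IsCyclic P) (Q : Subgroup L)
    (hQ : IsPGroup p Q) : IsCyclic Q := by
  obtain ⟨P, hQP⟩ := hQ.exists_le_sylow
  let q : L →* L ⧸ center L := QuotientGroup.mk' (center L)
  have hc : IsCyclic ((P : Subgroup L).map q) := h _ (P.2.map q)
  have hcomm : ∀ x ∈ (P : Subgroup L), ∀ y ∈ (P : Subgroup L), x * y = y * x := by
    let f : (P : Subgroup L) →* (P : Subgroup L).map q := q.subgroupMap (P : Subgroup L)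
    have hf : f.ker ≤ center (P : Subgroup L) := by
      intro x hx
      have h1 : q (x : L) = 1 := congrArg Subtype.val (MonoidHom.mem_ker.mp hx)
      have h2 : (x : L) ∈ center L := (QuotientGroup.eq_one_iff _).mp h1
      rw [mem_center_iff]
      intro y
      exact Subtype.ext (mem_center_iff.mp h2 y)
    have h3 := commutative_of_cyclic_center_quotient f hf
    intro x hx y hy
    exact congrArg Subtype.val (h3 ⟨x, hx⟩ ⟨y, hy⟩)
  have hinj : Function.Injective (q.subgroupMap (P : Subgroup L)) := by
    rw [injective_iff_map_eq_one]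
    intro x hx
    have h1 : q (x : L) = 1 := congrArg Subtype.val hx
    have h2 : (x : L) ∈ center L := (QuotientGroup.eq_one_iff _).mp h1
    exact Subtype.ext (eq_one_of_center_of_perfect hperf P hcomm h2 x.2)
  have h4 : IsCyclic (P : Subgroup L) := isCyclic_of_injective _ hinj
  exact isCyclic_of_injective (Subgroup.inclusion hQP) (Subgroup.inclusion_injective hQP)

/-- In a perfect group whose quotient by the centre has cyclic `p`-subgroups, the centre has order
prime to `p`. -/
theorem not_dvd_center_of_quot (hperf : commutator L = ⊤)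
    (h : ∀ P : Subgroup (L ⧸ center L), IsPGroup p P → IsCyclic P) :
    ¬ p ∣ Nat.card (center L) := by
  intro hd
  obtain ⟨z, hz⟩ := exists_prime_orderOf_dvd_card' p hd
  have hz1 : (z : L) ≠ 1 := by
    intro h0
    have h1 : z = 1 := Subtype.ext h0
    rw [h1, orderOf_one] at hz
    exact (Fact.out : p.Prime).one_lt.ne hz
  have hzp : IsPGroup p (zpowers (z : L)) := by
    rintro ⟨_, m, rfl⟩
    refine ⟨1, Subtype.ext ?_⟩
    change ((z : L) ^ m) ^ p ^ 1 = 1
    have h1 : (z : L) ^ p = 1 := by
      have h2 : z ^ p = 1 := by rw [← hz]; exact pow_orderOf_eq_one z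
      exact congrArg Subtype.val h2
    rw [pow_one, ← zpow_natCast, ← zpow_mul, mul_comm, zpow_mul, zpow_natCast, h1, one_zpow]
  obtain ⟨P, hP⟩ := hzp.exists_le_sylow
  have hcy := cyclic_of_quot hperf h (P : Subgroup L) P.2
  refine hz1 (eq_one_of_center_of_perfect hperf P ?_ z.2 (hP (mem_zpowers _)))
  intro x hx y hy
  have _ := hcy
  have h3 : (⟨x, hx⟩ : (P : Subgroup L)) * ⟨y, hy⟩ = ⟨y, hy⟩ * ⟨x, hx⟩ := by
    let _ := IsCyclic.commGroup (α := (P : Subgroup L))
    exact mul_comm _ _
  exact congrArg Subtype.val h3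

end CT

section Out

variable {L : Type*} [Group L]

/-- The action of the automorphisms on the quotient by the centre. -/
def autQ : MulAut L →* MulAut (L ⧸ center L) where
  toFun θ := QuotientGroup.congr (center L) (center L) θ (by
    ext x
    constructor
    · rintro ⟨y, hy, rfl⟩
      rw [SetLike.mem_coe, mem_center_iff] at hy
      rw [mem_center_iff]
      intro g
      obtain ⟨g', rfl⟩ := θ.surjective g
      change θ g' * θ y = θ y * θ g'
      rw [← map_mul, ← map_mul, hy]
    · intro hx
      rw [mem_center_iff] at hx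
      refine ⟨θ.symm x, ?_, θ.apply_symm_apply x⟩
      rw [SetLike.mem_coe, mem_center_iff]
      intro g
      apply θ.injective
      rw [map_mul, map_mul, θ.apply_symm_apply, hx])
  map_one' := by
    ext x
    obtain ⟨y, rfl⟩ := QuotientGroup.mk_surjective x
    rfl
  map_mul' := by
    intro θ θ'
    ext x
    obtain ⟨y, rfl⟩ := QuotientGroup.mk_surjective x
    rfl

theorem autQ_mk (θ : MulAut L) (x : L) :
    autQ θ (x : L ⧸ center L) = ((θ x : L) : L ⧸ center L) := rfl

/-- Automorphisms of a perfect group are determined by the action on the quotient by the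
centre. -/
theorem autQ_injective (hperf : commutator L = ⊤) :
    Function.Injective (autQ : MulAut L →* MulAut (L ⧸ center L)) := by
  rw [injective_iff_map_eq_one]
  intro θ hθ
  have h1 : ∀ x, x⁻¹ * θ x ∈ center L := by
    intro x
    rw [← QuotientGroup.eq, ← autQ_mk, hθ]
    rfl
  -- `x ↦ x⁻¹ θ(x)` is a homomorphism
  let χ : L →* center L :=
    { toFun := fun x => ⟨x⁻¹ * θ x, h1 x⟩
      map_one' := Subtype.ext (by simp)
      map_mul' := by
        intro x y
        apply Subtype.ext
        change (x * y)⁻¹ * θ (x * y) = x⁻¹ * θ x * (y⁻¹ * θ y)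
        have h2 := mem_center_iff.mp (h1 x) y⁻¹
        rw [map_mul, mul_inv_rev]
        calc y⁻¹ * x⁻¹ * (θ x * θ y) = y⁻¹ * (x⁻¹ * θ x) * θ y := by group
          _ = x⁻¹ * θ x * (y⁻¹ * θ y) := by rw [h2]; group }
  have h2 : commutator L ≤ χ.ker := by
    rw [commutator_def, commutator_le]
    intro x _ y _
    have hcc : χ x * χ y = χ y * χ x := Subtype.ext (mem_center_iff.mp (χ y).2 (χ x : L))
    rw [MonoidHom.mem_ker, commutatorElement_def, map_mul, map_mul, map_mul, map_inv, map_inv,
      hcc, mul_inv_cancel_right, mul_inv_cancel]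
  ext x
  have h3 : x ∈ commutator L := by rw [hperf]; exact mem_top x
  have h4 : x⁻¹ * θ x = 1 := congrArg Subtype.val (MonoidHom.mem_ker.mp (h2 h3))
  rw [MulAut.one_apply]
  exact (inv_mul_eq_one.mp h4).symm

theorem autQ_conj : (MulAut.conj : L →* MulAut L).range.map autQ =
    (MulAut.conj : L ⧸ center L →* MulAut (L ⧸ center L)).range := by
  ext θ
  constructor
  · rintro ⟨_, ⟨x, rfl⟩, rfl⟩
    refine ⟨(x : L ⧸ center L), ?_⟩
    ext y
    obtain ⟨y, rfl⟩ := QuotientGroup.mk_surjective y
    rfl
  · rintro ⟨x, rfl⟩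
    obtain ⟨x, rfl⟩ := QuotientGroup.mk_surjective x
    refine ⟨_, ⟨x, rfl⟩, ?_⟩
    ext y
    obtain ⟨y, rfl⟩ := QuotientGroup.mk_surjective y
    rfl

end Out

section OutI

variable {G : Type} [Group G]

/-- **(OUT)** -/
theorem outI_dvd_quot {L : Subgroup G} (hperf : commutator L = ⊤) :
    outI L ∣ (MulAut.conj : L ⧸ center L →* MulAut (L ⧸ center L)).range.index := by
  have hinj : Function.Injective (autQ : MulAut L →* MulAut (L ⧸ center L)) :=
    autQ_injective hperf
  rw [outI_eq]
  have h1 : (MulAut.conj : L →* MulAut L).range.relIndex L.normalizerMonoidHom.range =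
      ((MulAut.conj : L →* MulAut L).range.map autQ).relIndex
        (L.normalizerMonoidHom.range.map autQ) := by
    rw [relIndex_map_map_of_injective _ _ hinj]
  rw [h1, autQ_conj]
  have hn : (MulAut.conj : L ⧸ center L →* MulAut (L ⧸ center L)).range.Normal :=
    inn_normal (L ⧸ center L)
  exact relIndex_dvd_index_of_normal _ _

/-- If the outer automorphism group of `L / Z(L)` is solvable, so is `N_G(L) / L C_G(L)`. -/
theorem solvOut_of_quot {L : Subgroup G} (hperf : commutator L = ⊤) {l : ℕ}
    (h : derivedSeries (MulAut (L ⧸ center L)) l ≤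
      (MulAut.conj : L ⧸ center L →* MulAut (L ⧸ center L)).range) :
    (derivedSeries (normalizer (L : Set G)) l).map (normalizer (L : Set G)).subtype ≤
      L ⊔ centralizer (L : Set G) := by
  rintro _ ⟨x, hx, rfl⟩
  let ψ : normalizer (L : Set G) →* MulAut (L ⧸ center L) := autQ.comp L.normalizerMonoidHom
  have h1 : ψ x ∈ derivedSeries (MulAut (L ⧸ center L)) l :=
    map_derivedSeries_le_derivedSeries ψ l ⟨x, hx, rfl⟩
  have h2 := h h1
  rw [← autQ_conj] at h2
  obtain ⟨_, ⟨y, rfl⟩, hy⟩ := h2
  have h3 : MulAut.conj y = L.normalizerMonoidHom x := autQ_injective hperf hy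
  have h4 : x ∈ (L ⊔ centralizer (L : Set G)).subgroupOf (normalizer (L : Set G)) := by
    rw [sup_cent_subgroupOf]
    exact ⟨y, h3⟩
  exact h4

end OutI

end Vale.Agent.P180.R2.H589
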