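import Vale.Agent.P180.R2.H589.OddP
import Vale.Agent.P180.R2.H799.Jb

set_option linter.unusedSectionVars false

/-!
P180: blocks of a group covering a block of a subgroup of index two.
-/

namespace Vale.Agent.P180.R2.H589

open Equiv Finset Module
open Vale.Agent.P180 Vale.Agent.P180.H768.Gd

section Cover

universe u

variable {k : Type u} [Field k] {G : Type} [Group G] [Finite G] {N : Subgroup G}

/-- The trace from a subgroup of index two. -/
theorem tr_index_two (hN : ∀ x y : G, x ∉ N → y ∉ N → x * y ∈ N) {t : G} (ht : t ∉ N)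
    {b : MonoidAlgebra k G} (hb : b ∈ Fix (cj k G) N) :
    tr (cj k G) N ⊤ b = b + cj k G t b := by
  have hti : t⁻¹ ∉ N := fun h => ht (by simpa using N.inv_mem h)
  rw [tr_eq_sum' (ι := Fin 2) hb ![1, t] (fun _ => Subgroup.mem_top _)]
  · rw [Fin.sum_univ_two]
    simp only [Matrix.cons_val_zero, Matrix.cons_val_one]
    rw [map_one_act]
  · intro i j hij
    fin_cases i <;> fin_cases j
    · rfl
    · exfalso
      simp only [Fin.zero_eta, Fin.mk_one, Matrix.cons_val_zero, Matrix.cons_val_one, inv_one,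
        one_mul] at hij
      exact ht hij
    · exfalso
      simp only [Fin.zero_eta, Fin.mk_one, Matrix.cons_val_zero, Matrix.cons_val_one, mul_one] at hij
      exact hti hij
    · rfl
  · intro x _
    by_cases hx : x ∈ N
    · exact ⟨0, by simpa using hx⟩
    · exact ⟨1, by simpa using hN _ _ hti hx⟩

theorem tr_comp_index_two (hN : ∀ x y : G, x ∉ N → y ∉ N → x * y ∈ N) {t : G} (ht : t ∉ N)
    {b a : MonoidAlgebra k G} {P : Subgroup G} (hPN : P ≤ N) (ha : a ∈ Fix (cj k G) P)
    (hba : b = tr (cj k G) P N a) :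
    b + cj k G t b = tr (cj k G) P ⊤ a := by
  have hb : b ∈ Fix (cj k G) N := by rw [hba]; exact tr_mem_Fix ha
  rw [← tr_index_two hN ht hb, hba, tr_tr ha hPN le_top]

theorem conj_conj (hN : ∀ x y : G, x ∉ N → y ∉ N → x * y ∈ N) {t : G} (ht : t ∉ N)
    {b : MonoidAlgebra k G} (hb : b ∈ Fix (cj k G) N) : cj k G t (cj k G t b) = b := by
  rw [← map_mul_act, hb _ (hN t t ht ht)]

theorem fix_top_of (hN : ∀ x y : G, x ∉ N → y ∉ N → x * y ∈ N) {t : G} (ht : t ∉ N)
    {b : MonoidAlgebra k G} (hb : b ∈ Fix (cj k G) N) (hbt : cj k G t b = b) :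
    b ∈ Fix (cj k G) ⊤ := by
  intro g _
  by_cases hg : g ∈ N
  · exact hb g hg
  · have h1 : g = t * (t⁻¹ * g) := by group
    rw [h1, map_mul_act, hb _ (hN _ _ (fun h => ht (by simpa using N.inv_mem h)) hg), hbt]

/-- Idempotents of the centre are even, in characteristic two. -/
theorem idem_even (hN : ∀ x y : G, x ∉ N → y ∉ N → x * y ∈ N) (h2 : (2 : k) = 0)
    {c : MonoidAlgebra k G} (hc : c ∈ Fix (cj k G) ⊤) (hcc : c * c = c) [N.Normal] :
    c ∈ SubAlg k N := by
  have h1 := od_mul (N := N) hN c c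
  rw [hcc] at h1
  have h3 : ev N c * od N c = od N c * ev N c := commute_of_mem (SubAlg_top _) (od_mem_Fix hc)
  rw [h3] at h1
  have h4 : od N c * ev N c + od N c * ev N c = (2 : k) • (od N c * ev N c) := (two_smul k _).symm
  rw [h4, h2, zero_smul] at h1
  rw [← ev_add_od (N := N) c, h1, add_zero]
  exact ev_mem c

/-- In characteristic two, a block of `kN` lies under exactly one block of `kG`, whose defect is at
most twice as large. -/
theorem exists_cover_two [N.Normal] (hN : ∀ x y : G, x ∉ N → y ∉ N → x * y ∈ N) {t : G}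
    (ht : t ∉ N) (hidx : N.index = 2) [CharP k 2] {b a : MonoidAlgebra k G} (hb : IsBlockOf N b)
    {P : Subgroup G} (hP : IsPGroup 2 P) (hPN : P ≤ N) (ha : a ∈ Fix (cj k G) P)
    (haN : a ∈ SubAlg k N) (hba : b = tr (cj k G) P N a) :
    ∃ B, IsBlockOf (⊤ : Subgroup G) B ∧ B * b = b ∧ ∃ P' : Subgroup G, IsPGroup 2 P' ∧
      Nat.card P' ≤ 2 * Nat.card P ∧ ∃ a' ∈ Fix (cj k G) P', B = tr (cj k G) P' ⊤ a' := by
  have h2 : (2 : k) = 0 := by
    have := CharP.cast_eq_zero k 2
    exact_mod_cast this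
  have : Fact (Nat.Prime 2) := ⟨Nat.prime_two⟩
  by_cases hbt : cj k G t b = b
  · have hbF : b ∈ Fix (cj k G) ⊤ := fix_top_of hN ht hb.mem.2 hbt
    have hB : IsBlockOf (⊤ : Subgroup G) b := by
      refine ⟨⟨SubAlg_top _, hbF⟩, hb.idem, hb.ne_zero, ?_⟩
      intro c hc hcc hcb
      exact hb.primitive c ⟨idem_even hN h2 hc.2 hcc, Fix_mono _ le_top hc.2⟩ hcc hcb
    obtain ⟨P', hP', hcard, a', ha', hba'⟩ := H799.exists_defect_le hP hPN hB haN ha hba
    rw [hidx] at hcard
    exact ⟨b, hB, hb.idem, P', hP', hcard, a', ha', hba'⟩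
  · have hbt' : IsBlockOf N (cj k G t b) := hb.conj t
    have hort : b * cj k G t b = 0 := by
      rcases IsPrimIn.eq_or_mul_eq_zero (by exact ZAlg_comm) hb hbt' with h | h
      · exact absurd h.symm hbt
      · exact h
    have hort' : cj k G t b * b = 0 := by rw [ZAlg_comm _ hbt'.mem _ hb.mem, hort]
    set B := b + cj k G t b with hBdef
    have hBF : B ∈ Fix (cj k G) ⊤ := by
      apply fix_top_of hN ht (Subalgebra.add_mem _ hb.mem.2 hbt'.mem.2)
      rw [map_add, conj_conj hN ht hb.mem.2, add_comm]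
    have hBb : B * b = b := by rw [hBdef, add_mul, hb.idem.eq, hort', add_zero]
    have hBt : B * cj k G t b = cj k G t b := by
      rw [hBdef, add_mul, hbt'.idem.eq, hort, zero_add]
    have hBB : B * B = B := by
      conv_lhs => rw [hBdef, mul_add, ← hBdef, hBb, hBt]
    have hB : IsBlockOf (⊤ : Subgroup G) B := by
      refine ⟨⟨SubAlg_top _, hBF⟩, hBB, ?_, ?_⟩
      · intro h0
        apply hb.ne_zero
        rw [← hBb, h0, zero_mul]
      · intro c hc hcc hcB
        have hcN : c ∈ ZAlg k N := ⟨idem_even hN h2 hc.2 hcc, Fix_mono _ le_top hc.2⟩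
        have hcb : IsIdempotentElem (c * b) := by
          show c * b * (c * b) = c * b
          rw [mul_assoc, ← mul_assoc b, ZAlg_comm b hb.mem c hcN, mul_assoc c b b, hb.idem.eq,
            ← mul_assoc, hcc.eq]
        have hct : c * cj k G t b = cj k G t (c * b) := by rw [map_mul, hc.2 t trivial]
        rcases hb.primitive (c * b) (Subalgebra.mul_mem _ hcN hb.mem) hcb
          (by rw [mul_assoc, hb.idem.eq]) with h | h
        · left
          rw [← hcB, hBdef, mul_add, hct, h, map_zero, add_zero]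
        · right
          rw [← hcB, hBdef, mul_add, hct, h]
    refine ⟨B, hB, hBb, P, hP, by omega, a, ha, ?_⟩
    exact tr_comp_index_two hN ht hPN ha hba

/-- In odd characteristic: a block of `kG` over `b`, with a trace formula. -/
theorem exists_cover_odd [N.Normal] (hN : ∀ x y : G, x ∉ N → y ∉ N → x * y ∈ N) {t : G}
    (ht : t ∉ N) (h2 : (2 : k) ≠ 0) {b f w : MonoidAlgebra k G} (hb : IsBlockOf N b)
    {P : Subgroup G} (hPN : P ≤ N) (hf : f ∈ Fix (cj k G) P) (hw : w ∈ Fix (cj k G) P)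
    (hbw : b = tr (cj k G) P N (f * w)) :
    ∃ B, IsBlockOf (⊤ : Subgroup G) B ∧ B * b ≠ 0 ∧
      ∃ w' ∈ Fix (cj k G) P, B = tr (cj k G) P ⊤ (f * w') := by
  have : FiniteDimensional k (MonoidAlgebra k G) :=
    Module.Finite.equiv (MonoidAlgebra.coeffLinearEquiv k (M := G) (S := k)).symm
  obtain ⟨B, hB, hbB⟩ := exists_isPrimIn (ZAlg k (⊤ : Subgroup G)) (by exact ZAlg_comm) hb.ne_zero
  have hBc : ∀ z, B * z = z * B := fun z => (commute_of_mem (SubAlg_top z) hB.mem.2).symm
  have htr := tr_comp_index_two hN ht hPN (Subalgebra.mul_mem _ hf hw) hbw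
  have hBP : B ∈ Fix (cj k G) P := Fix_mono _ le_top hB.mem.2
  have hBb : B * b ≠ 0 := by rwa [hBc]
  refine ⟨B, hB, hBb, ?_⟩
  by_cases hbt : cj k G t b = b
  · -- `B b = B`
    have hbF : b ∈ Fix (cj k G) ⊤ := fix_top_of hN ht hb.mem.2 hbt
    have h1 : B * b = B := by
      have hid : IsIdempotentElem (B * b) := by
        show B * b * (B * b) = B * b
        rw [mul_assoc, ← mul_assoc b, ← hBc b, mul_assoc B b b, hb.idem.eq, ← mul_assoc, hB.idem.eq]
      rcases hB.primitive (B * b) ⟨SubAlg_top _, Subalgebra.mul_mem _ hB.mem.2 hbF⟩ hid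
        (by rw [mul_assoc, ← hBc b, ← mul_assoc, hB.idem.eq]) with h | h
      · exact absurd h hBb
      · exact h
    rw [hbt] at htr
    refine ⟨(2 : k)⁻¹ • (w * B), Subalgebra.smul_mem _ (Subalgebra.mul_mem _ hw hBP) _, ?_⟩
    rw [mul_smul_comm, tr_smul, ← mul_assoc, ← tr_mul hB.mem.2, ← htr, ← two_smul k b,
      smul_mul_assoc, smul_smul, inv_mul_cancel₀ h2, one_smul, ← hBc b, h1]
  · have hbt' : IsBlockOf N (cj k G t b) := hb.conj t
    have hort : b * cj k G t b = 0 := by
      rcases IsPrimIn.eq_or_mul_eq_zero (by exact ZAlg_comm) hb hbt' with h | h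
      · exact absurd h.symm hbt
      · exact h
    have hort' : cj k G t b * b = 0 := by rw [ZAlg_comm _ hbt'.mem _ hb.mem, hort]
    set C := b + cj k G t b with hCdef
    have hCF : C ∈ Fix (cj k G) ⊤ := by
      apply fix_top_of hN ht (Subalgebra.add_mem _ hb.mem.2 hbt'.mem.2)
      rw [map_add, conj_conj hN ht hb.mem.2, add_comm]
    have hCC : C * C = C := by
      rw [hCdef, add_mul, mul_add, mul_add, hb.idem.eq, hbt'.idem.eq, hort, hort', add_zero,
        zero_add]
    have hCb : C * b = b := by rw [hCdef, add_mul, hb.idem.eq, hort', add_zero]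
    have h1 : B * C = B := by
      have hid : IsIdempotentElem (B * C) := by
        show B * C * (B * C) = B * C
        rw [mul_assoc, ← mul_assoc C, ← hBc C, mul_assoc B C C, hCC, ← mul_assoc, hB.idem.eq]
      rcases hB.primitive (B * C) ⟨SubAlg_top _, Subalgebra.mul_mem _ hB.mem.2 hCF⟩ hid
        (by rw [mul_assoc, ← hBc C, ← mul_assoc, hB.idem.eq]) with h | h
      · exfalso
        apply hBb
        rw [← hCb, ← mul_assoc, h, zero_mul]
      · exact h
    refine ⟨w * B, Subalgebra.mul_mem _ hw hBP, ?_⟩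
    rw [← mul_assoc, ← tr_mul hB.mem.2, ← htr, ← hBc C, h1]

/-- Multiplication by `B` is injective on `kN b`. -/
theorem mul_injective_odd [N.Normal] (hN : ∀ x y : G, x ∉ N → y ∉ N → x * y ∈ N)
    {b B : MonoidAlgebra k G} (hb : IsBlockOf N b)
    (hB : IsBlockOf (⊤ : Subgroup G) B) (hBb : B * b ≠ 0) {x : MonoidAlgebra k G}
    (hx : x ∈ SubAlg k N) (hxb : x * b = x) (hxB : x * B = 0) : x = 0 := by
  have : FiniteDimensional k (MonoidAlgebra k G) :=
    Module.Finite.equiv (MonoidAlgebra.coeffLinearEquiv k (M := G) (S := k)).symm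
  set B0 := ev N B with hB0
  set B1 := od N B with hB1
  have hB0N : B0 ∈ ZAlg k N := ⟨ev_mem B, Fix_mono _ le_top (ev_mem_Fix hB.mem.2)⟩
  have hB1F : B1 ∈ Fix (cj k G) ⊤ := od_mem_Fix hB.mem.2
  have hB0F : B0 ∈ Fix (cj k G) ⊤ := ev_mem_Fix hB.mem.2
  -- the even part of `x B = 0`
  have h1 : x * B0 = 0 := by
    have h3 := ev_mul hN x B
    rw [hxB, map_zero, ev_of_mem hx, od_of_mem hx, zero_mul, add_zero] at h3
    exact h3.symm
  have h3 : b * B0 ∈ ZAlg k N := Subalgebra.mul_mem _ hb.mem hB0N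
  have h4 : b * B0 * b = b * B0 := by
    rw [mul_assoc, ZAlg_comm B0 hB0N b hb.mem, ← mul_assoc, hb.idem.eq]
  rcases hb.dichotomy (by exact ZAlg_comm) h3 h4 with h5 | ⟨y, hy, hyb, hxy⟩
  · exfalso
    -- `b B0` is nilpotent
    have e0 := ev_mul hN B B
    have e1 := od_mul hN B B
    have hBB : B * B = B := hB.idem
    rw [hBB] at e0 e1
    rw [← hB0, ← hB1] at e0 e1
    have hc01 : B0 * B1 = B1 * B0 := commute_of_mem (SubAlg_top _) hB1F
    have hbc0 : b * B0 = B0 * b := commute_of_mem (SubAlg_top _) hB0F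
    have hbc1 : b * B1 = B1 * b := commute_of_mem (SubAlg_top _) hB1F
    -- `(b B1) (1 - 2 b B0) = 0`
    have e2 : (b * B1) * (1 - (2 : k) • (b * B0)) = 0 := by
      have e3 : b * B1 * (b * B0) = b * (B1 * B0) := by
        rw [mul_assoc, ← mul_assoc B1, ← hbc1, mul_assoc b B1 B0, ← mul_assoc, hb.idem.eq]
      have e4 : (2 : k) • (B1 * B0) = B1 := by
        rw [two_smul]
        conv_rhs => rw [e1, hc01]
      rw [mul_sub, mul_one, mul_smul_comm, e3, ← mul_smul_comm, e4, sub_self]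
    have hu : IsUnit (1 - (2 : k) • (b * B0)) := (h5.smul (2 : k)).isUnit_one_sub
    have e5 : b * B1 = 0 := by
      obtain ⟨u, hu'⟩ := hu
      rw [← hu'] at e2
      exact (Units.mul_left_eq_zero u).1 e2
    have e6 : IsIdempotentElem (b * B0) := by
      show b * B0 * (b * B0) = b * B0
      have e7 : b * B0 * (b * B0) = b * (B0 * B0) := by
        rw [mul_assoc, ← mul_assoc B0, ← hbc0, mul_assoc b B0 B0, ← mul_assoc, hb.idem.eq]
      have e8 : b * (B1 * B1) = 0 := by rw [← mul_assoc, e5, zero_mul]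
      rw [e7]
      conv_rhs => rw [e0, mul_add, e8, add_zero]
    have e7 : b * B0 = 0 := by
      obtain ⟨n, hn⟩ := h5
      rcases Nat.eq_zero_or_pos n with h0 | hpos
      · rw [h0, pow_zero] at hn
        rw [← one_mul (b * B0), hn, zero_mul]
      · rwa [e6.pow_eq hpos.ne'] at hn
    apply hBb
    rw [← ev_add_od (N := N) B, add_mul, ← hB0, ← hB1, ← hbc0, ← hbc1, e5, e7, add_zero]
  · rw [← hxb, ← hxy, ← mul_assoc, ← mul_assoc, hxb, h1, zero_mul]

end Cover

end Vale.Agent.P180.R2.H589
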