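import Mathlib

/-!
P180: the centraliser of `k Sym(F)` in `k Sym(α)` is generated by the centre of `k Sym(F)`, the sums
of transpositions `∑ f ∈ F, (t f)` and the permutations of the complement of `F`.
-/

set_option linter.unusedSectionVars false

namespace Vale.Agent.P180.R2.H589

open Equiv Finset

variable {k α : Type*} [CommRing k] [Fintype α] [DecidableEq α]

/-- Number of points of `F` which are moved by `g`. -/
def dg (F : Finset α) (g : Perm α) : ℕ := (F.filter (fun x => g x ≠ x)).card

/-- The permutations which fix the points outside of `F`. -/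
def IsF (F : Finset α) (h : Perm α) : Prop := ∀ x ∉ F, h x = x

/-- Conjugacy under `Sym(F)`. -/
def Cj (F : Finset α) (g g' : Perm α) : Prop := ∃ h : Perm α, IsF F h ∧ g' = h * g * h⁻¹

/-- The sum of the transpositions `(t f)`, `f ∈ F`. -/
noncomputable def Y (k : Type*) [CommRing k] (F : Finset α) (t : α) : MonoidAlgebra k (Perm α) :=
  ∑ f ∈ F, MonoidAlgebra.single (swap t f) 1

/-- Generators of the centraliser. -/
def gens (k : Type*) [CommRing k] (F : Finset α) : Set (MonoidAlgebra k (Perm α)) :=
  {z | (∀ g, z.coeff g ≠ 0 → IsF F g) ∧ ∀ h, IsF F h →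
    z * MonoidAlgebra.single h 1 = MonoidAlgebra.single h 1 * z} ∪
  {z | ∃ t ∉ F, z = Y k F t} ∪
  {z | ∃ σ : Perm α, (∀ x ∈ F, σ x = x) ∧ z = MonoidAlgebra.single σ 1}

/-- The subalgebra. -/
noncomputable def Cn (k : Type*) [CommRing k] (F : Finset α) :
    Subalgebra k (MonoidAlgebra k (Perm α)) := Algebra.adjoin k (gens k F)

theorem IsF.inv {F : Finset α} {h : Perm α} (hh : IsF F h) : IsF F h⁻¹ := by
  intro x hx
  rw [Perm.inv_eq_iff_eq, hh x hx]

theorem IsF.mul {F : Finset α} {h h' : Perm α} (hh : IsF F h) (hh' : IsF F h') :
    IsF F (h * h') := by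
  intro x hx
  rw [Perm.mul_apply, hh' x hx, hh x hx]

theorem IsF.mem {F : Finset α} {h : Perm α} (hh : IsF F h) {x : α} : h x ∈ F ↔ x ∈ F := by
  constructor
  · intro hx
    by_contra hc
    rw [hh x hc] at hx
    exact hc hx
  · intro hx
    by_contra hc
    have h1 := hh (h x) hc
    have h2 := h.injective h1
    rw [h2] at hc
    exact hc hx

theorem Cj.refl (F : Finset α) (g : Perm α) : Cj F g g := ⟨1, fun _ _ => rfl, by simp⟩

theorem Cj.symm {F : Finset α} {g g' : Perm α} (h : Cj F g g') : Cj F g' g := by
  obtain ⟨h, hh, rfl⟩ := h
  exact ⟨h⁻¹, hh.inv, by group⟩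

theorem Cj.trans {F : Finset α} {g g' g'' : Perm α} (h : Cj F g g') (h' : Cj F g' g'') :
    Cj F g g'' := by
  obtain ⟨h, hh, rfl⟩ := h
  obtain ⟨h', hh', rfl⟩ := h'
  exact ⟨h' * h, hh'.mul hh, by group⟩

theorem dg_conj {F : Finset α} {g g' : Perm α} (h : Cj F g g') : dg F g' = dg F g := by
  obtain ⟨h, hh, rfl⟩ := h
  unfold dg
  symm
  apply Finset.card_bij (fun x _ => h x)
  · intro x hx
    rw [mem_filter] at hx ⊢
    refine ⟨hh.mem.2 hx.1, ?_⟩
    simpa using hx.2
  · intro x _ y _ hxy
    exact h.injective hxy
  · intro y hy
    rw [mem_filter] at hy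
    refine ⟨h⁻¹ y, ?_, by simp⟩
    rw [mem_filter]
    refine ⟨hh.inv.mem.2 hy.1, ?_⟩
    intro hc
    apply hy.2
    simp only [Perm.mul_apply]
    rw [hc]
    simp

theorem mul_swap_apply_f (x : Perm α) (t f : α) : (x * swap t f) f = x t := by simp

theorem dg_mul_swap_le {F : Finset α} {t f : α} (ht : t ∉ F) (x : Perm α) :
    dg F (x * swap t f) ≤ dg F x + 1 := by
  unfold dg
  calc _ ≤ (insert f (F.filter (fun y => x y ≠ y))).card := by
        apply card_le_card
        intro y hy
        rw [mem_filter] at hy
        rw [mem_insert, mem_filter]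
        by_cases hyf : y = f
        · exact Or.inl hyf
        · right
          refine ⟨hy.1, ?_⟩
          have hyt : y ≠ t := fun h => ht (h ▸ hy.1)
          have := hy.2
          rw [Perm.mul_apply, swap_apply_of_ne_of_ne hyt hyf] at this
          exact this
    _ ≤ _ := card_insert_le _ _

/-- If the degree drops, then `f = x t`. -/
theorem eq_of_dg_mul_swap_lt {F : Finset α} {t f : α} (ht : t ∉ F) (x : Perm α)
    (h : dg F (x * swap t f) < dg F x) : x t = f := by
  by_contra hc
  apply absurd h
  rw [not_lt]
  unfold dg
  apply card_le_card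
  intro y hy
  rw [mem_filter] at hy ⊢
  refine ⟨hy.1, ?_⟩
  have hyt : y ≠ t := fun h => ht (h ▸ hy.1)
  by_cases hyf : y = f
  · subst hyf
    rw [mul_swap_apply_f]
    exact hc
  · rw [Perm.mul_apply, swap_apply_of_ne_of_ne hyt hyf]
    exact hy.2

/-- Removing a point of `F` from a cycle. -/
theorem dg_remove {F : Finset α} {t : α} (ht : t ∉ F) (g : Perm α) (hg : g t ∈ F) :
    dg F (g * swap t (g t)) + 1 = dg F g := by
  unfold dg
  have h1 : g t ∉ F.filter (fun y => (g * swap t (g t)) y ≠ y) := by
    rw [mem_filter, mul_swap_apply_f]
    simp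
  rw [← card_insert_of_notMem h1]
  congr 1
  ext y
  rw [mem_insert, mem_filter, mem_filter]
  by_cases hyf : y = g t
  · subst hyf
    simp only [true_or, true_iff]
    refine ⟨hg, ?_⟩
    intro hc
    have := g.injective hc
    rw [this] at hg
    exact ht hg
  · simp only [hyf, false_or]
    by_cases hy : y ∈ F
    · have hyt : y ≠ t := fun h => ht (h ▸ hy)
      rw [Perm.mul_apply, swap_apply_of_ne_of_ne hyt hyf]
    · simp [hy]

theorem coeff_mul_single_one_right (M : MonoidAlgebra k (Perm α)) (s g : Perm α) :
    (M * MonoidAlgebra.single s 1).coeff g = M.coeff (g * s⁻¹) := by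
  rw [MonoidAlgebra.coeff_mul_single_eq_coeff_mul (m₂ := g * s⁻¹), mul_one]
  intro m' _
  exact eq_mul_inv_iff_mul_eq.symm

theorem coeff_single_mul_left (M : MonoidAlgebra k (Perm α)) (s g : Perm α) :
    (MonoidAlgebra.single s 1 * M).coeff g = M.coeff (s⁻¹ * g) := by
  rw [MonoidAlgebra.coeff_single_mul_eq_mul_coeff (m₂ := s⁻¹ * g), one_mul]
  intro m' _
  exact eq_inv_mul_iff_mul_eq.symm

theorem mul_Y_apply (F : Finset α) (t : α) (M : MonoidAlgebra k (Perm α)) (g : Perm α) :
    (M * Y k F t).coeff g = ∑ f ∈ F, M.coeff (g * swap t f) := by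
  unfold Y
  rw [mul_sum, MonoidAlgebra.coeff_sum, Finsupp.finsetSum_apply]
  apply sum_congr rfl
  intro f _
  rw [coeff_mul_single_one_right]
  simp

/-- Elements of the centraliser of `Sym(F)`. -/
def IsInv (F : Finset α) (x : MonoidAlgebra k (Perm α)) : Prop :=
  ∀ h, IsF F h → x * MonoidAlgebra.single h 1 = MonoidAlgebra.single h 1 * x

theorem IsInv.coeff_eq {F : Finset α} {x : MonoidAlgebra k (Perm α)} (hx : IsInv F x)
    {g g' : Perm α} (h : Cj F g g') : x.coeff g' = x.coeff g := by
  obtain ⟨h, hh, rfl⟩ := h
  have h1 := hx h hh
  have h2 := congrArg (fun z => z.coeff (h * g)) h1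
  simp only [coeff_mul_single_one_right, coeff_single_mul_left] at h2
  rw [h2]
  simp

theorem isInv_of_coeff_eq {F : Finset α} {x : MonoidAlgebra k (Perm α)}
    (hx : ∀ g g' : Perm α, Cj F g g' → x.coeff g' = x.coeff g) : IsInv F x := by
  intro h hh
  ext g
  rw [coeff_mul_single_one_right, coeff_single_mul_left]
  exact (hx _ _ ⟨h⁻¹, hh.inv, by group⟩).symm

/-- The element with the top part of the class of `g`. -/
theorem exists_top (F : Finset α) : ∀ (d : ℕ) (g : Perm α), dg F g = d →
    ∃ M ∈ Cn k F, ∀ g', (M.coeff g' ≠ 0 → dg F g' ≤ d) ∧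
      (dg F g' = d → (Cj F g g' → M.coeff g' = 1) ∧ (¬ Cj F g g' → M.coeff g' = 0)) := by
  intro d
  induction d using Nat.strong_induction_on with
  | _ d ih =>
    intro g hg
    by_cases hT : ∃ t, t ∉ F ∧ g t ∈ F
    · obtain ⟨t, ht, hgt⟩ := hT
      have h1 := dg_remove ht g hgt
      obtain ⟨M, hM, hMc⟩ := ih (dg F (g * swap t (g t))) (by omega) (g * swap t (g t)) rfl
      refine ⟨M * Y k F t, (Cn k F).mul_mem hM (Algebra.subset_adjoin (Or.inl (Or.inr ⟨t, ht, rfl⟩))),
        fun g' => ⟨?_, ?_⟩⟩
      · intro hne
        rw [mul_Y_apply] at hne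
        obtain ⟨f, -, hf⟩ := exists_ne_zero_of_sum_ne_zero hne
        have h2 := (hMc _).1 hf
        have h3 := dg_mul_swap_le ht (g' * swap t f) (f := f)
        rw [mul_assoc, swap_mul_self, mul_one] at h3
        omega
      · intro hd
        have key : (M * Y k F t).coeff g' = if g' t ∈ F then M.coeff (g' * swap t (g' t)) else 0 := by
          rw [mul_Y_apply]
          split_ifs with hF
          · rw [sum_eq_single_of_mem (g' t) hF]
            intro f _ hf
            by_contra hne
            have h2 := (hMc _).1 hne
            exact hf (eq_of_dg_mul_swap_lt ht g' (by omega)).symm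
          · apply sum_eq_zero
            intro f hfF
            by_contra hne
            have h2 := (hMc _).1 hne
            have h3 := eq_of_dg_mul_swap_lt ht g' (f := f) (by omega)
            rw [h3] at hF
            exact hF hfF
        constructor
        · rintro ⟨h, hh, rfl⟩
          have ht' : h⁻¹ t = t := hh.inv t ht
          have e1 : (h * g * h⁻¹) t = h (g t) := by simp only [Perm.mul_apply, ht']
          rw [key, if_pos (by rw [e1]; exact hh.mem.2 hgt), e1]
          have e2 : h * g * h⁻¹ * swap t (h (g t)) = h * (g * swap t (g t)) * h⁻¹ := by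
            have : swap t (h (g t)) = h * swap t (g t) * h⁻¹ := by
              have h5 := Equiv.swap_apply_apply h t (g t)
              rwa [hh t ht] at h5
            rw [this]; group
          rw [e2]
          have h4 := hMc (h * (g * swap t (g t)) * h⁻¹)
          exact (h4.2 (dg_conj ⟨h, hh, rfl⟩)).1 ⟨h, hh, rfl⟩
        · intro hn
          rw [key]
          split_ifs with hF
          · have h2 := dg_remove ht g' hF
            have h4 := hMc (g' * swap t (g' t))
            refine (h4.2 (by omega)).2 ?_
            rintro ⟨h, hh, he⟩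
            apply hn
            -- `g' = h g2 h⁻¹ (t f')`
            set f' := g' t with hf'
            set f := g t with hf
            have a1 : (g * swap t f) f = f := by rw [mul_swap_apply_f]
            have a2 : (g' * swap t f') f' = f' := by rw [mul_swap_apply_f]
            have a3 : (g * swap t f) (h⁻¹ f') = h⁻¹ f' := by
              have : h ((g * swap t f) (h⁻¹ f')) = f' := by
                have := a2
                rw [he] at this
                simpa only [Perm.mul_apply] using this
              rw [Perm.eq_inv_iff_eq]
              exact this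
            set f'' := h⁻¹ f' with hf''
            have b1 : f'' ∈ F := hh.inv.mem.2 hF
            have hsF : IsF F (swap f f'') := by
              intro x hx
              rw [swap_apply_of_ne_of_ne]
              · rintro rfl; exact hx hgt
              · rintro rfl; exact hx b1
            have hft : f ≠ t := fun h' => ht (h' ▸ hgt)
            have hft'' : f'' ≠ t := fun h' => ht (h' ▸ b1)
            -- the transposition commutes with `g2`
            have c1 : (g * swap t f) * swap f f'' = swap f f'' * (g * swap t f) := by
              have := Equiv.mul_swap_eq_swap_mul (g * swap t f) f f''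
              rwa [a1, a3] at this
            have c2 : swap t f'' = swap f f'' * swap t f * swap f f'' := by
              have := Equiv.swap_apply_apply (swap f f'') t f
              rwa [swap_apply_of_ne_of_ne hft.symm hft''.symm, swap_apply_left, Equiv.swap_inv]
                at this
            refine ⟨h * swap f f'', hh.mul hsF, ?_⟩
            have d1 : g' = h * (g * swap t f) * h⁻¹ * swap t f' := by
              rw [← he, mul_assoc, swap_mul_self, mul_one]
            have d2 : swap t f' = h * swap t f'' * h⁻¹ := by
              have h5 : h f'' = f' := by rw [hf'']; simp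
              have := Equiv.swap_apply_apply h t f''
              rwa [hh t ht, h5] at this
            have d3 : g = (g * swap t f) * swap t f := by
              rw [mul_assoc, swap_mul_self, mul_one]
            calc g' = h * ((g * swap t f) * swap t f'') * h⁻¹ := by rw [d1, d2]; group
              _ = h * (((g * swap t f) * swap f f'') * swap t f * swap f f'') * h⁻¹ := by
                  rw [c2]; group
              _ = h * (swap f f'' * ((g * swap t f) * swap t f) * swap f f'') * h⁻¹ := by
                  rw [c1]; group
              _ = h * (swap f f'' * g * swap f f'') * h⁻¹ := by rw [← d3]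
              _ = _ := by
                  rw [mul_inv_rev, Equiv.swap_inv]; group
          · rfl
    · -- `g` preserves `F`
      push Not at hT
      have hpres : ∀ x, x ∈ F → g x ∈ F := by
        intro x hx
        by_contra hc
        have himg : (Fᶜ).image g = Fᶜ := by
          apply eq_of_subset_of_card_le
          · intro y hy
            rw [mem_image] at hy
            obtain ⟨t, ht, rfl⟩ := hy
            rw [mem_compl] at ht ⊢
            exact hT t ht
          · rw [card_image_of_injective _ g.injective]
        have h1 : g x ∈ (Fᶜ).image g := by rw [himg, mem_compl]; exact hc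
        rw [mem_image] at h1
        obtain ⟨t, ht, he⟩ := h1
        rw [g.injective he, mem_compl] at ht
        exact ht hx
      have hiff : ∀ x, g x ∈ F ↔ x ∈ F := fun x =>
        ⟨fun h => by by_contra hc; exact hT x hc h, hpres x⟩
      set h : Perm α := Perm.ofSubtype (g.subtypePerm (p := fun x => x ∈ F) hiff) with hh
      have hF : ∀ x ∈ F, h x = g x := by
        intro x hx
        rw [hh, Perm.ofSubtype_apply_of_mem _ hx]
        rfl
      have hhF : IsF F h := by
        intro x hx
        rw [hh, Perm.ofSubtype_apply_of_not_mem _ hx]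
      set σ : Perm α := h⁻¹ * g with hσ
      have hσF : ∀ x ∈ F, σ x = x := by
        intro x hx
        rw [hσ, Perm.mul_apply, Perm.inv_eq_iff_eq, hF x hx]
      have hcomm : ∀ h0 : Perm α, IsF F h0 → h0 * σ = σ * h0 := by
        intro h0 hh0
        apply Perm.Disjoint.commute
        intro x
        by_cases hx : x ∈ F
        · exact Or.inr (hσF x hx)
        · exact Or.inl (hh0 x hx)
      have hg' : g = h * σ := by rw [hσ]; group
      classical
      set O : MonoidAlgebra k (Perm α) :=
        ∑ h' ∈ (univ : Finset (Perm α)).filter (fun h' => Cj F h h'), MonoidAlgebra.single h' 1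
        with hO
      have hOc : ∀ g', O.coeff g' = if Cj F h g' then 1 else 0 := by
        intro g'
        rw [hO, MonoidAlgebra.coeff_sum, Finsupp.finsetSum_apply]
        simp only [MonoidAlgebra.coeff_single, Finsupp.single_apply]
        rw [sum_ite_eq' _ g' (fun _ => (1 : k))]
        simp
      have hOmem : O ∈ Cn k F := by
        apply Algebra.subset_adjoin
        refine Or.inl (Or.inl ⟨?_, ?_⟩)
        · intro g' hne
          rw [hOc] at hne
          have : Cj F h g' := by
            by_contra hc
            rw [if_neg hc] at hne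
            exact hne rfl
          obtain ⟨h0, hh0, rfl⟩ := this
          exact (hh0.mul hhF).mul hh0.inv
        · apply isInv_of_coeff_eq
          intro g1 g2 h12
          rw [hOc, hOc]
          have : Cj F h g2 ↔ Cj F h g1 := ⟨fun h => h.trans h12.symm, fun h => h.trans h12⟩
          simp only [this]
      refine ⟨O * MonoidAlgebra.single σ 1, (Cn k F).mul_mem hOmem
        (Algebra.subset_adjoin (Or.inr ⟨σ, hσF, rfl⟩)), fun g' => ?_⟩
      have key : (O * MonoidAlgebra.single σ 1).coeff g' = if Cj F g g' then 1 else 0 := by
        rw [coeff_mul_single_one_right, hOc]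
        have : Cj F h (g' * σ⁻¹) ↔ Cj F g g' := by
          constructor
          · rintro ⟨h0, hh0, he⟩
            refine ⟨h0, hh0, ?_⟩
            rw [hg', ← mul_assoc h0, mul_assoc _ σ, ← hcomm _ hh0.inv, ← mul_assoc, ← he]
            group
          · rintro ⟨h0, hh0, rfl⟩
            refine ⟨h0, hh0, ?_⟩
            rw [hg', ← mul_assoc h0, mul_assoc _ σ, ← hcomm _ hh0.inv]
            group
        simp only [this]
      rw [key]
      refine ⟨?_, fun _ => ⟨fun hc => if_pos hc, fun hc => if_neg hc⟩⟩
      intro hne
      by_cases hc : Cj F g g'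
      · rw [dg_conj hc, hg]
      · rw [if_neg hc] at hne
        exact absurd rfl hne

/-- The generators belong to the centraliser. -/
theorem isInv_of_mem {F : Finset α} {x : MonoidAlgebra k (Perm α)} (hx : x ∈ Cn k F) :
    IsInv F x := by
  intro h hh
  have hle : Cn k F ≤ Subalgebra.centralizer k {MonoidAlgebra.single h (1 : k)} := by
    apply Algebra.adjoin_le
    rintro z ((⟨-, hz⟩ | ⟨t, ht, rfl⟩) | ⟨σ, hσ, rfl⟩)
    · rw [SetLike.mem_coe, Subalgebra.mem_centralizer_iff]
      rintro _ rfl
      exact (hz h hh).symm
    · rw [SetLike.mem_coe, Subalgebra.mem_centralizer_iff]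
      rintro _ rfl
      unfold Y
      rw [mul_sum, sum_mul]
      apply sum_bij (fun f _ => h f)
      · intro f hf; exact hh.mem.2 hf
      · intro a _ b _ hab; exact h.injective hab
      · intro f hf; exact ⟨h⁻¹ f, hh.inv.mem.2 hf, by simp⟩
      · intro f hf
        rw [MonoidAlgebra.single_mul_single, MonoidAlgebra.single_mul_single,
          Equiv.mul_swap_eq_swap_mul, hh t ht]
    · rw [SetLike.mem_coe, Subalgebra.mem_centralizer_iff]
      rintro _ rfl
      rw [MonoidAlgebra.single_mul_single, MonoidAlgebra.single_mul_single]
      congr 1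
      apply Perm.Disjoint.commute
      intro x
      by_cases hx : x ∈ F
      · exact Or.inr (hσ x hx)
      · exact Or.inl (hh x hx)
  have := hle hx
  rw [Subalgebra.mem_centralizer_iff] at this
  exact (this _ rfl).symm

/-- **The centraliser of `Sym(F)`**: it is generated by the centre of `k Sym(F)`, the sums of
transpositions and the permutations of the complement. -/
theorem mem_Cn_of_isInv {F : Finset α} {x : MonoidAlgebra k (Perm α)} (hx : IsInv F x) :
    x ∈ Cn k F := by
  classical
  -- induction on the top degree and the number of elements in it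
  suffices H : ∀ (d c : ℕ) (x : MonoidAlgebra k (Perm α)), IsInv F x →
      (∀ g, x.coeff g ≠ 0 → dg F g ≤ d) →
      ((univ : Finset (Perm α)).filter (fun g => dg F g = d ∧ x.coeff g ≠ 0)).card ≤ c →
      x ∈ Cn k F by
    refine H F.card _ x hx (fun g _ => card_le_card (filter_subset _ _)) le_rfl
  intro d
  induction d using Nat.strong_induction_on with
  | _ d ihd =>
  -- no element of degree `d`
  have h0 : ∀ x : MonoidAlgebra k (Perm α), IsInv F x → (∀ g, x.coeff g ≠ 0 → dg F g ≤ d) →
      (univ : Finset (Perm α)).filter (fun g => dg F g = d ∧ x.coeff g ≠ 0) = ∅ → x ∈ Cn k F := by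
    intro x hx h1 h2
    rw [filter_eq_empty_iff] at h2
    rcases Nat.eq_zero_or_pos d with hd | hd
    · have : x = 0 := by
        ext g
        by_contra hne
        exact h2 (mem_univ g) ⟨by have := h1 g hne; omega, hne⟩
      rw [this]
      exact (Cn k F).zero_mem
    · refine ihd (d - 1) (by omega) _ x hx (fun g hg => ?_) le_rfl
      have h3 := h1 g hg
      have h4 : dg F g ≠ d := fun h => h2 (mem_univ g) ⟨h, hg⟩
      omega
  intro c
  induction c with
  | zero =>
    intro x hx h1 h2
    exact h0 x hx h1 (card_eq_zero.1 (Nat.le_zero.1 h2))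
  | succ c ihc =>
    intro x hx h1 h2
    rcases eq_empty_or_nonempty
      ((univ : Finset (Perm α)).filter (fun g => dg F g = d ∧ x.coeff g ≠ 0)) with he | ⟨g, hg⟩
    · exact h0 x hx h1 he
    · rw [mem_filter] at hg
      obtain ⟨-, hgd, hgx⟩ := hg
      obtain ⟨M, hM, hMc⟩ := exists_top (k := k) F d g hgd
      have hMi : IsInv F M := isInv_of_mem hM
      have hx' : IsInv F (x - x.coeff g • M) := by
        intro h hh
        rw [sub_mul, mul_sub, hx h hh, smul_mul_assoc, mul_smul_comm, hMi h hh]
      have hc : ∀ g', (x - x.coeff g • M).coeff g' = x.coeff g' - x.coeff g * M.coeff g' := by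
        intro g'
        simp
      have hmem : x - x.coeff g • M ∈ Cn k F := by
        apply ihc _ hx'
        · intro g' hne
          rw [hc] at hne
          by_cases h3 : x.coeff g' = 0
          · rw [h3, zero_sub] at hne
            apply (hMc g').1
            intro h4
            rw [h4, mul_zero, neg_zero] at hne
            exact hne rfl
          · exact h1 g' h3
        · have hlt : ((univ : Finset (Perm α)).filter
              (fun g' => dg F g' = d ∧ (x - x.coeff g • M).coeff g' ≠ 0)) ⊂
              ((univ : Finset (Perm α)).filter (fun g' => dg F g' = d ∧ x.coeff g' ≠ 0)) := by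
            rw [ssubset_iff_of_subset]
            · refine ⟨g, by simp [hgd, hgx], ?_⟩
              rw [mem_filter, not_and]
              intro _ h5
              apply h5.2
              rw [hc, ((hMc g).2 hgd).1 (Cj.refl F g)]
              ring
            · intro g' hg'
              rw [mem_filter] at hg' ⊢
              refine ⟨mem_univ _, hg'.2.1, ?_⟩
              intro h5
              apply hg'.2.2
              rw [hc, h5, zero_sub, neg_eq_zero]
              by_cases h6 : Cj F g g'
              · rw [hx.coeff_eq h6] at h5
                exact absurd h5 hgx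
              · rw [((hMc g').2 hg'.2.1).2 h6, mul_zero]
          have := card_lt_card hlt
          omega
      have : x = (x - x.coeff g • M) + x.coeff g • M := by abel
      rw [this]
      exact (Cn k F).add_mem hmem ((Cn k F).smul_mem hM _)

end Vale.Agent.P180.R2.H589
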