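import Vale.Agent.P180.R2.H589.JM
import Vale.Agent.P180.R2.H589.Alg
import Vale.Agent.P180.Bdl.B1

set_option linter.unusedSectionVars false

/-!
P180: the dimension of `E b C`, where `C` is the centralizer of `k Sym(F)` in `k Sym(n)`.
-/

namespace Vale.Agent.P180.R2.H589

open Equiv Finset Polynomial Module
open Vale.Agent.P180

section General

variable {k α : Type*} [Field k] [Fintype α] [DecidableEq α]

/-- The permutations which fix the points outside of `F`. -/
def symF (F : Finset α) : Subgroup (Perm α) where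
  carrier := {h | IsF F h}
  mul_mem' := fun ha hb => IsF.mul ha hb
  one_mem' := fun _ _ => rfl
  inv_mem' := fun ha => IsF.inv ha

theorem mem_symF {F : Finset α} {h : Perm α} : h ∈ symF F ↔ IsF F h := Iff.rfl

theorem isInv_of_mem_Fix {F : Finset α} {x : MonoidAlgebra k (Perm α)}
    (hx : x ∈ Fix (cj k (Perm α)) (symF F)) : IsInv F x := by
  intro h hh
  exact (mem_Fix_cj_iff.1 hx h hh).symm

theorem mem_gens_of_mem_ZAlg {F : Finset α} {x : MonoidAlgebra k (Perm α)}
    (hx : x ∈ ZAlg k (symF F)) : x ∈ gens k F :=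
  Or.inl (Or.inl ⟨hx.1, fun h hh => (mem_Fix_cj_iff.1 hx.2 h hh).symm⟩)

/-- Elements which commute with everything: `J ⊤` is a two-sided ideal. -/
theorem mul_mem_JT {A : Type*} [Ring A] [Algebra k A] {J : Submodule k A}
    (hJ : ∀ j ∈ J, ∀ x : A, j * x = x * j) {x : A} (hx : x ∈ J * (⊤ : Submodule k A)) (a : A) :
    a * x ∈ J * (⊤ : Submodule k A) ∧ x * a ∈ J * (⊤ : Submodule k A) := by
  refine Submodule.mul_induction_on hx ?_ ?_
  · intro j hj y _
    constructor
    · rw [← mul_assoc, ← hJ j hj, mul_assoc]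
      exact Submodule.mul_mem_mul hj trivial
    · rw [mul_assoc]
      exact Submodule.mul_mem_mul hj trivial
  · intro x y hx hy
    rw [mul_add, add_mul]
    exact ⟨Submodule.add_mem _ hx.1 hy.1, Submodule.add_mem _ hx.2 hy.2⟩

theorem pow_eq_zero_of_mem_JT {A : Type*} [Ring A] [Algebra k A] {J : Submodule k A}
    (hJ : ∀ j ∈ J, ∀ x : A, j * x = x * j) {g : ℕ} (hg : J ^ g = ⊥) {x : A}
    (hx : x ∈ J * (⊤ : Submodule k A)) : x ^ g = 0 := by
  have hc : Commute J (⊤ : Submodule k A) := by
    apply le_antisymm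
    · rw [Submodule.mul_le]
      intro j hj y _
      rw [hJ j hj]
      exact Submodule.mul_mem_mul trivial hj
    · rw [Submodule.mul_le]
      intro y _ j hj
      rw [← hJ j hj]
      exact Submodule.mul_mem_mul hj trivial
  have h1 := Submodule.pow_mem_pow _ hx g
  rw [hc.mul_pow, hg, Submodule.bot_mul] at h1
  simpa using h1

end General

section FinN

variable {k : Type*} [Field k] {n : ℕ}

/-- The first `l` points. -/
def Fl (n l : ℕ) : Finset (Fin n) := univ.filter (fun i : Fin n => (i : ℕ) < l)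

theorem mem_Fl {l : ℕ} {i : Fin n} : i ∈ Fl n l ↔ (i : ℕ) < l := by simp [Fl]

theorem L_mem_SubAlg {l : ℕ} {i : Fin n} (hi : (i : ℕ) < l) :
    L k i ∈ SubAlg k (symF (Fl n l)) := by
  unfold L
  apply Subalgebra.sum_mem
  intro j hj
  rw [mem_filter] at hj
  apply single_mem_SubAlg
  intro x hx
  rw [mem_Fl] at hx
  apply swap_apply_of_ne_of_ne
  · rintro rfl
    have := Fin.lt_def.1 hj.2
    omega
  · rintro rfl
    exact hx hi

theorem coeff_Q_mem {l : ℕ} (hl : l ≤ n) : ∀ a ≤ l, ∀ r,
    (Q k n 0 a).coeff r ∈ SubAlg k (symF (Fl n l)) := by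
  intro a
  induction a with
  | zero =>
    intro _ r
    rw [Q, coeff_one]
    split_ifs
    · exact Subalgebra.one_mem _
    · exact Subalgebra.zero_mem _
  | succ a ih =>
    intro ha r
    rw [Q, fac, dif_pos (by omega : 0 + a < n), mul_sub, coeff_sub, coeff_mul_C]
    apply Subalgebra.sub_mem
    · cases r with
      | zero => rw [coeff_mul_X_zero]; exact Subalgebra.zero_mem _
      | succ r => rw [coeff_mul_X]; exact ih (by omega) r
    · exact Subalgebra.mul_mem _ (ih (by omega) r) (L_mem_SubAlg (by show 0 + a < l; omega))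

theorem commute_coeff {R : Type*} [Ring R] {a : R} {p : R[X]} (h : Commute (C a) p) (r : ℕ) :
    Commute a (p.coeff r) := by
  have h1 := congrArg (fun q => q.coeff r) h.eq
  rw [coeff_C_mul, coeff_mul_C] at h1
  exact h1

theorem XC_comm {R : Type*} [Ring R] {a b : R} (h : a * b = b * a) :
    (X - C a) * (X - C b) = (X - C b) * (X - C a) := by
  rw [sub_mul, sub_mul, mul_sub, mul_sub, mul_sub, mul_sub, ← C_mul, ← C_mul, h, X_mul_C, X_mul_C]
  abel

theorem coeff_Q_center (r : ℕ) : (Q k n 0 n).coeff r ∈ Fix (cj k (Perm (Fin n))) ⊤ := by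
  rw [mem_Fix_cj_iff]
  intro h _
  apply comm_of_neighbours _ n
  · intro i j hij _
    apply commute_coeff
    apply gp_comm_Q hij
    right; right
    exact ⟨Nat.zero_le _, by have := j.2; omega⟩
  · intro x hx
    exact absurd x.2 (by omega)

theorem coeff_Q_ZAlg {l : ℕ} (hl : l ≤ n) (r : ℕ) :
    (Q k n 0 l).coeff r ∈ ZAlg k (symF (Fl n l)) := by
  refine ⟨coeff_Q_mem hl l le_rfl r, mem_Fix_cj_iff.2 ?_⟩
  intro h hh
  apply comm_of_neighbours _ l
  · intro i j hij hj
    apply commute_coeff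
    apply gp_comm_Q hij
    right; right
    exact ⟨Nat.zero_le _, by omega⟩
  · intro x hx
    apply hh
    rw [mem_Fl]
    omega

theorem natDegree_Q_le (l m : ℕ) : (Q k n l m).natDegree ≤ m := by
  induction m with
  | zero => rw [Q]; simp
  | succ m ih =>
    rw [Q]
    refine (natDegree_mul_le).trans ?_
    refine Nat.add_le_add ih ?_
    unfold fac
    split_ifs
    · exact natDegree_X_sub_C_le _
    · simp

theorem monic_Q {l m : ℕ} (h : l + m ≤ n) : (Q k n l m).Monic ∧ (Q k n l m).natDegree = m := by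
  induction m with
  | zero => rw [Q]; simp
  | succ m ih =>
    obtain ⟨h1, h2⟩ := ih (by omega)
    rw [Q, fac, dif_pos (by omega : l + m < n)]
    refine ⟨h1.mul (monic_X_sub_C _), ?_⟩
    rw [h1.natDegree_mul (monic_X_sub_C _), h2, natDegree_X_sub_C]

theorem mul_swap_aux {R : Type*} [Ring R] {p a b q : R} (hq : q = p * a) (h : a * b = b * a) :
    q * b = p * b * a := by rw [hq, mul_assoc, h, mul_assoc]

theorem fac_comm (j : Fin n) (a : ℕ) :
    (X - C (L k j)) * fac k n a = fac k n a * (X - C (L k j)) := by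
  unfold fac
  split_ifs with h'
  · exact XC_comm (L_comm _ _).eq
  · rw [mul_one, one_mul]

theorem fac_eq (j : Fin n) : fac k n j = X - C (L k j) := by
  unfold fac
  rw [dif_pos j.2]

/-- `L j` is a root of `Q k n l m`. -/
theorem exists_factor {l m : ℕ} {j : Fin n} (h1 : l ≤ j) (h2 : (j : ℕ) < l + m) :
    ∃ p, Q k n l m = p * (X - C (L k j)) := by
  induction m with
  | zero => omega
  | succ m ih =>
    rcases Nat.lt_or_ge (j : ℕ) (l + m) with h | h
    · obtain ⟨p, hp⟩ := ih h
      exact ⟨p * fac k n (l + m), mul_swap_aux hp (fac_comm j _)⟩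
    · have hj : l + m = (j : ℕ) := by omega
      refine ⟨Q k n l m, ?_⟩
      rw [Q, hj, fac_eq]

theorem eval_Q {l m : ℕ} {j : Fin n} (h1 : l ≤ j) (h2 : (j : ℕ) < l + m) :
    ∑ i ∈ range (m + 1), (Q k n l m).coeff i * L k j ^ i = 0 := by
  obtain ⟨p, hp⟩ := exists_factor (k := k) h1 h2
  have h3 : eval (L k j) (Q k n l m) = 0 := by rw [hp, eval_mul_X_sub_C]
  rw [eval_eq_sum_range' (Nat.lt_succ_of_le (natDegree_Q_le l m))] at h3
  exact h3

end FinN

end Vale.Agent.P180.R2.H589
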