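import Vale.Agent.P180.R2.H589.Dim

set_option linter.unusedSectionVars false

/-!
P180: polynomial identities for the Jucys-Murphy elements, over the centre of `k Sym(F)`.
-/

namespace Vale.Agent.P180.R2.H589

open Equiv Finset Polynomial Module
open Vale.Agent.P180

variable {k : Type*} [Field k] {n : ℕ}

/-- Elements which are congruent to an element of `Z(k Sym(F))` after multiplication by `b E`. -/
def Good {A : Type*} [Ring A] [Algebra k A] (Z : Subalgebra k A) (J : Submodule k A) (e y : A) :
    Prop := ∃ c ∈ Z, e * y - e * c ∈ J * (⊤ : Submodule k A)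

section Good

variable {A : Type*} [Ring A] [Algebra k A] {Z : Subalgebra k A} {J : Submodule k A} {e : A}

theorem Good.add {y y' : A} (h : Good Z J e y) (h' : Good Z J e y') : Good Z J e (y + y') := by
  obtain ⟨c, hc, h1⟩ := h
  obtain ⟨c', hc', h1'⟩ := h'
  refine ⟨c + c', Z.add_mem hc hc', ?_⟩
  have : e * (y + y') - e * (c + c') = (e * y - e * c) + (e * y' - e * c') := by noncomm_ring
  rw [this]
  exact Submodule.add_mem _ h1 h1'

theorem Good.sub {y y' : A} (h : Good Z J e y) (h' : Good Z J e y') : Good Z J e (y - y') := by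
  obtain ⟨c, hc, h1⟩ := h
  obtain ⟨c', hc', h1'⟩ := h'
  refine ⟨c - c', Z.sub_mem hc hc', ?_⟩
  have : e * (y - y') - e * (c - c') = (e * y - e * c) - (e * y' - e * c') := by noncomm_ring
  rw [this]
  exact Submodule.sub_mem _ h1 h1'

theorem Good.sum {ι : Type*} (s : Finset ι) (y : ι → A) (h : ∀ i ∈ s, Good Z J e (y i)) :
    Good Z J e (∑ i ∈ s, y i) := by
  classical
  induction s using Finset.induction_on with
  | empty => exact ⟨0, Z.zero_mem, by simp⟩
  | insert a s ha ih =>
    rw [Finset.sum_insert ha]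
    exact (h a (Finset.mem_insert_self _ _)).add (ih fun i hi => h i (Finset.mem_insert_of_mem hi))

theorem Good.mul_left (hJ : ∀ j ∈ J, ∀ x : A, j * x = x * j) {u y : A} (hu : u ∈ Z)
    (hue : u * e = e * u) (h : Good Z J e y) : Good Z J e (u * y) := by
  obtain ⟨c, hc, h1⟩ := h
  refine ⟨u * c, Z.mul_mem hu hc, ?_⟩
  have : e * (u * y) - e * (u * c) = u * (e * y - e * c) := by
    rw [mul_sub, ← mul_assoc, ← mul_assoc, ← mul_assoc, ← mul_assoc, hue]
  rw [this]
  exact (mul_mem_JT hJ h1 u).1

end Good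

/-- The coefficients of the (reversed) product of the last factors. -/
theorem good_coeff {l m : ℕ} (hn : l + m = n) {E b : MonoidAlgebra k (Perm (Fin n))}
    {J : Submodule k (MonoidAlgebra k (Perm (Fin n)))}
    (hE : E ∈ ZAlg k (symF (Fl n l)))
    (hJc : ∀ j ∈ J, ∀ x, j * x = x * j)
    (hb : b ∈ Fix (cj k (Perm (Fin n))) ⊤)
    (hJ : ∀ z ∈ Fix (cj k (Perm (Fin n))) ⊤, ∃ c : k, b * z - c • b ∈ J) (r : ℕ) :
    Good (ZAlg k (symF (Fl n l))) J (b * E) ((reflect m (Q k n l m)).coeff r) := by
  have hP : reflect n (Q k n 0 n) = reflect l (Q k n 0 l) * reflect m (Q k n l m) := by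
    have h1 := Q_add (k := k) (n := n) 0 l m
    rw [Nat.zero_add, hn] at h1
    have h2 := reflect_mul (Q k n 0 l) (Q k n l m) (natDegree_Q_le 0 l) (natDegree_Q_le l m)
    rw [← h1, hn] at h2
    exact h2
  have hbc : ∀ x, x * b = b * x := fun x => commute_of_mem (SubAlg_top x) hb
  induction r using Nat.strong_induction_on with
  | _ r ih =>
    have h3 := congrArg (fun p => p.coeff r) hP
    simp only [coeff_mul] at h3
    have h4 : ((0, r) : ℕ × ℕ) ∈ antidiagonal r := by simp
    rw [← Finset.add_sum_erase _ _ h4] at h3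
    have h5 : (reflect l (Q k n 0 l)).coeff 0 = 1 := by
      rw [coeff_reflect, revAt_le (Nat.zero_le l), Nat.sub_zero]
      obtain ⟨h6, h7⟩ := monic_Q (k := k) (n := n) (l := 0) (m := l) (by omega)
      have := h6.coeff_natDegree
      rwa [h7] at this
    simp only [h5, one_mul] at h3
    have h6 : (reflect m (Q k n l m)).coeff r = (reflect n (Q k n 0 n)).coeff r -
        ∑ x ∈ (antidiagonal r).erase (0, r), (reflect l (Q k n 0 l)).coeff x.1 *
          (reflect m (Q k n l m)).coeff x.2 := by
      rw [h3]; abel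
    rw [h6]
    apply Good.sub
    · rw [coeff_reflect]
      obtain ⟨c, hc⟩ := hJ _ (coeff_Q_center (k := k) (n := n) (revAt n r))
      refine ⟨algebraMap k _ c, Subalgebra.algebraMap_mem _ _, ?_⟩
      have h7 : b * E * (Q k n 0 n).coeff (revAt n r) - b * E * algebraMap k _ c
          = (b * (Q k n 0 n).coeff (revAt n r) - c • b) * E := by
        have h8 : E * (Q k n 0 n).coeff (revAt n r) = (Q k n 0 n).coeff (revAt n r) * E :=
          commute_of_mem (SubAlg_top E) (coeff_Q_center _)
        rw [sub_mul, mul_assoc, h8, ← mul_assoc, Algebra.algebraMap_eq_smul_one, mul_smul_comm,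
          mul_one, smul_mul_assoc]
      rw [h7]
      exact Submodule.mul_mem_mul hc trivial
    · apply Good.sum
      intro x hx
      rw [Finset.mem_erase, HasAntidiagonal.mem_antidiagonal] at hx
      have hlt : x.2 < r := by
        rcases Nat.eq_zero_or_pos x.1 with h | h
        · exfalso
          apply hx.1
          ext
          · exact h
          · show x.2 = r
            omega
        · omega
      apply Good.mul_left hJc _ _ (ih _ hlt)
      · rw [coeff_reflect]
        exact coeff_Q_ZAlg (by omega) _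
      · rw [coeff_reflect]
        have h9 : ∀ s, (Q k n 0 l).coeff s * E = E * (Q k n 0 l).coeff s := fun s =>
          ZAlg_comm _ (coeff_Q_ZAlg (by omega) s) _ hE
        rw [← mul_assoc, hbc, mul_assoc, h9, ← mul_assoc]

theorem L_comm_ZAlg {l : ℕ} {j : Fin n} (hj : l ≤ j) {c : MonoidAlgebra k (Perm (Fin n))}
    (hc : c ∈ SubAlg k (symF (Fl n l))) : c * L k j = L k j * c := by
  apply commute_of_mem hc
  rw [mem_Fix_cj_iff]
  intro x hx
  apply gp_comm_L
  · apply hx
    rw [mem_Fl]
    omega
  · intro y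
    by_cases hy : y ∈ Fl n l
    · have h1 : x y ∈ Fl n l := (IsF.mem hx).2 hy
      rw [mem_Fl] at hy h1
      rw [Fin.lt_def, Fin.lt_def]
      omega
    · rw [hx y hy]

/-- The polynomial identity for `L j`. -/
theorem exists_identity {l m : ℕ} (hn : l + m = n) {E b : MonoidAlgebra k (Perm (Fin n))}
    {J : Submodule k (MonoidAlgebra k (Perm (Fin n)))}
    (hE : E ∈ ZAlg k (symF (Fl n l))) (hEE : E * E = E)
    (hJc : ∀ j ∈ J, ∀ x, j * x = x * j)
    (hb : b ∈ Fix (cj k (Perm (Fin n))) ⊤) (hbb : b * b = b)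
    (hJ : ∀ z ∈ Fix (cj k (Perm (Fin n))) ⊤, ∃ c : k, b * z - c • b ∈ J)
    {g : ℕ} (hg : J ^ g = ⊥) {j : Fin n} (hj : l ≤ j) :
    ∃ a : ℕ → MonoidAlgebra k (Perm (Fin n)), (∀ i, a i ∈ ZAlg k (symF (Fl n l))) ∧
      b * E * L k j ^ (g * m) = - ∑ i ∈ range (g * m), b * E * (a i * L k j ^ i) := by
  classical
  set Z := ZAlg k (symF (Fl n l)) with hZ
  have hbc : ∀ x, x * b = b * x := fun x => commute_of_mem (SubAlg_top x) hb
  -- the coefficients
  have h1 := fun i => good_coeff hn hE hJc hb hJ (m - i)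
  have h2 : ∀ i : Fin m, ∃ c : Z, b * E * (Q k n l m).coeff i - b * E * c ∈
      J * (⊤ : Submodule k (MonoidAlgebra k (Perm (Fin n)))) := by
    intro i
    obtain ⟨c, hc, h3⟩ := h1 i
    refine ⟨⟨c, hc⟩, ?_⟩
    rw [coeff_reflect, revAt_le (Nat.sub_le _ _), Nat.sub_sub_self i.2.le] at h3
    exact h3
  choose c hc using h2
  -- the polynomial
  set q : (Z)[X] := X ^ m + ∑ i : Fin m, C (c i) * X ^ (i : ℕ) with hq
  have hdeg : (∑ i : Fin m, C (c i) * X ^ (i : ℕ) : (Z)[X]).degree < m :=
    degree_sum_fin_lt _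
  have hmon : q.Monic := monic_X_pow_add hdeg
  have hnt : Nontrivial Z := ⟨⟨0, 1, fun h => by
    have h' := congrArg (fun z : Z => (z : MonoidAlgebra k (Perm (Fin n)))) h
    exact zero_ne_one h'⟩⟩
  have hnat : q.natDegree = m := by
    rw [hq, natDegree_add_eq_left_of_degree_lt, natDegree_X_pow]
    rw [degree_X_pow]
    exact hdeg
  have hcL : ∀ a : Z, Commute ((Z.val : Z →+* MonoidAlgebra k (Perm (Fin n))) a) (L k j) :=
    fun a => L_comm_ZAlg hj a.2.1
  set ev := eval₂RingHom' (Z.val : Z →+* MonoidAlgebra k (Perm (Fin n))) (L k j) hcL with hev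
  have hevX : ev X = L k j := by simp [hev]
  have hevC : ∀ a : Z, ev (C a) = a := by
    intro a
    simp [hev]
  -- `b E q(L)` is in the nilpotent ideal
  have h5 : b * E * ev q ∈ J * (⊤ : Submodule k (MonoidAlgebra k (Perm (Fin n)))) := by
    have h6 : b * E * ev q = - ∑ i : Fin m, (b * E * (Q k n l m).coeff i - b * E * c i) *
        L k j ^ (i : ℕ) := by
      have h7 := eval_Q (k := k) (n := n) (l := l) (m := m) hj (by have := j.2; omega)
      have h8 : (Q k n l m).coeff m = 1 := by
        obtain ⟨h9, h10⟩ := monic_Q (k := k) (n := n) (l := l) (m := m) (by omega)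
        have := h9.coeff_natDegree
        rwa [h10] at this
      rw [sum_range_succ, h8, one_mul, ← Fin.sum_univ_eq_sum_range
        (fun i => (Q k n l m).coeff i * L k j ^ i)] at h7
      have h9 : ev q = L k j ^ m + ∑ i : Fin m, (c i : MonoidAlgebra k (Perm (Fin n))) *
          L k j ^ (i : ℕ) := by
        rw [hq, map_add, map_pow, hevX, map_sum]
        congr 1
        apply Finset.sum_congr rfl
        intro i _
        rw [map_mul, hevC, map_pow, hevX]
      have h10 : ev q = ∑ i : Fin m, (c i : MonoidAlgebra k (Perm (Fin n))) * L k j ^ (i : ℕ) -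
          ∑ i : Fin m, (Q k n l m).coeff i * L k j ^ (i : ℕ) := by
        rw [h9, ← sub_eq_zero]
        rw [← h7]
        abel
      rw [h10, ← Finset.sum_sub_distrib, Finset.mul_sum, ← Finset.sum_neg_distrib]
      apply Finset.sum_congr rfl
      intro i _
      noncomm_ring
    rw [h6]
    apply Submodule.neg_mem
    apply Submodule.sum_mem
    intro i _
    exact (mul_mem_JT hJc (hc i) _).2
  have h6 := pow_eq_zero_of_mem_JT hJc hg h5
  -- commutation
  have hEev : ∀ p : (Z)[X], E * ev p = ev p * E := by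
    intro p
    induction p using Polynomial.induction_on' with
    | add p q hp hq => rw [map_add, mul_add, add_mul, hp, hq]
    | monomial i a =>
      rw [← C_mul_X_pow_eq_monomial, map_mul, map_pow, hevX, hevC]
      have e1 : E * (a : MonoidAlgebra k (Perm (Fin n))) = a * E := ZAlg_comm _ hE _ a.2
      have e2 : Commute E (L k j ^ i) := Commute.pow_right (L_comm_ZAlg hj hE.1) i
      rw [← mul_assoc, e1, mul_assoc, e2.eq, ← mul_assoc]
  have hbE : Commute (b * E) (ev q) := by
    unfold Commute SemiconjBy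
    rw [mul_assoc, hEev, ← mul_assoc, ← hbc, mul_assoc]
  have hbEE : IsIdempotentElem (b * E) := by
    unfold IsIdempotentElem
    rw [mul_assoc, ← mul_assoc E, hbc E, mul_assoc b E E, hEE, ← mul_assoc, hbb]
  rw [hbE.mul_pow, ← map_pow] at h6
  rcases Nat.eq_zero_or_pos g with h0 | hpos
  · -- `g = 0`: everything is zero
    subst h0
    have h7 : b * E = 0 := by
      have : (1 : MonoidAlgebra k (Perm (Fin n))) ∈ (⊥ : Submodule k (MonoidAlgebra k (Perm (Fin n)))) := by
        rw [← hg, pow_zero]; exact Submodule.one_le.1 le_rfl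
      have h8 : (1 : MonoidAlgebra k (Perm (Fin n))) = 0 := (Submodule.mem_bot k).1 this
      rw [← mul_one (b * E), h8, mul_zero]
    exact ⟨fun _ => 0, fun _ => Z.zero_mem, by rw [h7]; simp⟩
  rw [hbEE.pow_eq hpos.ne'] at h6
  have hmon2 : (q ^ g).Monic := hmon.pow g
  have hnat2 : (q ^ g).natDegree = g * m := by rw [hmon.natDegree_pow, hnat]
  have h7 := hmon2.as_sum
  rw [hnat2] at h7
  rw [h7, map_add, map_pow, hevX, map_sum] at h6
  refine ⟨fun i => ((q ^ g).coeff i : Z), fun i => ((q ^ g).coeff i).2, ?_⟩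
  rw [mul_add] at h6
  rw [eq_neg_iff_add_eq_zero]
  rw [← h6]
  congr 1
  rw [Finset.mul_sum]
  apply Finset.sum_congr rfl
  intro i _
  rw [map_mul, hevC, map_pow, hevX]

end Vale.Agent.P180.R2.H589
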