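import Vale.Agent.P180.R2.H589.Dim2

set_option linter.unusedSectionVars false

/-!
P180: the dimension bound for `b E C`.
-/

namespace Vale.Agent.P180.R2.H589

open Equiv Finset Module
open Vale.Agent.P180

variable {k : Type*} [Field k] {n : ℕ}

/-- The Jucys-Murphy elements with numerical indices. -/
noncomputable def LN (k : Type*) [Field k] (n s : ℕ) : MonoidAlgebra k (Perm (Fin n)) :=
  if h : s < n then L k ⟨s, h⟩ else 1

/-- The spaces spanned by the monomials in the first `r` Jucys-Murphy elements. -/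
noncomputable def Vr (n l N : ℕ) (e : MonoidAlgebra k (Perm (Fin n)))
    (Z : Subalgebra k (MonoidAlgebra k (Perm (Fin n)))) :
    ℕ → Submodule k (MonoidAlgebra k (Perm (Fin n)))
  | 0 => Submodule.map (LinearMap.mulLeft k e) (Subalgebra.toSubmodule Z)
  | r + 1 => (range N).sup fun i =>
      Submodule.map (LinearMap.mulRight k (LN k n (l + r) ^ i)) (Vr n l N e Z r)

section

variable {l m N : ℕ} {e : MonoidAlgebra k (Perm (Fin n))}
  {Z : Subalgebra k (MonoidAlgebra k (Perm (Fin n)))}

theorem mem_Vr_succ {r i : ℕ} (hi : i < N) {v : MonoidAlgebra k (Perm (Fin n))}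
    (hv : v ∈ Vr n l N e Z r) : v * LN k n (l + r) ^ i ∈ Vr n l N e Z (r + 1) := by
  rw [Vr]
  have h1 : Submodule.map (LinearMap.mulRight k (LN k n (l + r) ^ i)) (Vr n l N e Z r) ≤
      (range N).sup fun i =>
        Submodule.map (LinearMap.mulRight k (LN k n (l + r) ^ i)) (Vr n l N e Z r) :=
    Finset.le_sup (f := fun i =>
      Submodule.map (LinearMap.mulRight k (LN k n (l + r) ^ i)) (Vr n l N e Z r))
      (Finset.mem_range.2 hi)
  exact h1 ⟨v, hv, rfl⟩

theorem Vr_succ_le {r : ℕ} {W : Submodule k (MonoidAlgebra k (Perm (Fin n)))}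
    (h : ∀ i < N, ∀ v ∈ Vr n l N e Z r, v * LN k n (l + r) ^ i ∈ W) :
    Vr n l N e Z (r + 1) ≤ W := by
  rw [Vr]
  apply Finset.sup_le
  intro i hi
  rw [Submodule.map_le_iff_le_comap]
  intro v hv
  exact h i (Finset.mem_range.1 hi) v hv

theorem LN_comm (s s' : ℕ) : LN k n s * LN k n s' = LN k n s' * LN k n s := by
  unfold LN
  split_ifs
  · exact (L_comm _ _).eq
  all_goals simp

theorem finrank_Vr (r : ℕ) : finrank k (Vr n l N e Z r) ≤ finrank k (Vr n l N e Z 0) * N ^ r := by
  induction r with
  | zero => simp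
  | succ r ih =>
    set d := finrank k (Vr n l N e Z 0) with hd
    rw [Vr]
    refine (finrank_finset_sup_le_mul _ _ (d * N ^ r) ?_).trans ?_
    · intro i _
      exact (Submodule.finrank_map_le _ _).trans ih
    · rw [Finset.card_range, pow_succ]
      exact le_of_eq (by ring)

/-- Properties of the spaces. -/
theorem Vr_props (hee : e * e = e) (heZ : ∀ z ∈ Z, z * e = e * z)
    (hZL : ∀ r, ∀ z ∈ Z, z * LN k n (l + r) = LN k n (l + r) * z)
    (heL : ∀ r, e * LN k n (l + r) = LN k n (l + r) * e)
    (hid : ∀ r < m, ∃ a : ℕ → MonoidAlgebra k (Perm (Fin n)), (∀ i, a i ∈ Z) ∧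
      e * LN k n (l + r) ^ N = - ∑ i ∈ range N, e * (a i * LN k n (l + r) ^ i)) :
    ∀ r ≤ m, (∀ v ∈ Vr n l N e Z r, v * e = v) ∧
      (∀ v ∈ Vr n l N e Z r, ∀ z ∈ Z, v * z ∈ Vr n l N e Z r) ∧
      (∀ s < r, ∀ v ∈ Vr n l N e Z r, v * LN k n (l + s) ∈ Vr n l N e Z r) := by
  intro r
  induction r with
  | zero =>
    intro _
    refine ⟨?_, ?_, fun s hs => absurd hs (Nat.not_lt_zero s)⟩
    · rintro v ⟨z, hz, rfl⟩
      show e * z * e = e * z
      rw [mul_assoc, heZ z hz, ← mul_assoc, hee]
    · rintro v ⟨z, hz, rfl⟩ z' hz'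
      refine ⟨z * z', Z.mul_mem hz hz', ?_⟩
      show e * (z * z') = e * z * z'
      rw [mul_assoc]
  | succ r ih =>
    intro hr
    obtain ⟨h1, h2, h3⟩ := ih (by omega)
    have heLp : ∀ i, e * LN k n (l + r) ^ i = LN k n (l + r) ^ i * e := fun i =>
      (Commute.pow_right (heL r) i : Commute e _).eq
    have hZLp : ∀ i, ∀ z ∈ Z, z * LN k n (l + r) ^ i = LN k n (l + r) ^ i * z := fun i z hz =>
      (Commute.pow_right (hZL r z hz) i : Commute z _).eq
    refine ⟨?_, ?_, ?_⟩
    · have : Vr n l N e Z (r + 1) ≤ LinearMap.ker (LinearMap.mulRight k e - LinearMap.id) := by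
        apply Vr_succ_le
        intro i _ v hv
        rw [LinearMap.mem_ker, LinearMap.sub_apply, LinearMap.mulRight_apply, LinearMap.id_apply,
          sub_eq_zero, mul_assoc, ← heLp, ← mul_assoc, h1 v hv]
      intro v hv
      have := this hv
      rwa [LinearMap.mem_ker, LinearMap.sub_apply, LinearMap.mulRight_apply, LinearMap.id_apply,
          sub_eq_zero] at this
    · intro v hv z hz
      have : Vr n l N e Z (r + 1) ≤ Submodule.comap (LinearMap.mulRight k z)
          (Vr n l N e Z (r + 1)) := by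
        apply Vr_succ_le
        intro i hi v hv
        show v * LN k n (l + r) ^ i * z ∈ Vr n l N e Z (r + 1)
        rw [mul_assoc, ← hZLp i z hz, ← mul_assoc]
        exact mem_Vr_succ hi (h2 v hv z hz)
      exact this hv
    · intro s hs v hv
      have : Vr n l N e Z (r + 1) ≤ Submodule.comap (LinearMap.mulRight k (LN k n (l + s)))
          (Vr n l N e Z (r + 1)) := by
        apply Vr_succ_le
        intro i hi v hv
        show v * LN k n (l + r) ^ i * LN k n (l + s) ∈ Vr n l N e Z (r + 1)
        rcases Nat.lt_or_ge s r with h | h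
        · have h4 : LN k n (l + r) ^ i * LN k n (l + s) = LN k n (l + s) * LN k n (l + r) ^ i :=
            ((Commute.pow_right (LN_comm (l + s) (l + r)) i : Commute _ _).eq).symm
          rw [mul_assoc, h4, ← mul_assoc]
          exact mem_Vr_succ hi (h3 s h v hv)
        · have hsr : s = r := by omega
          subst hsr
          rw [mul_assoc, ← pow_succ]
          rcases Nat.lt_or_ge (i + 1) N with h5 | h5
          · exact mem_Vr_succ h5 hv
          · have h6 : i + 1 = N := by omega
            obtain ⟨a, ha, h7⟩ := hid s (by omega)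
            have h8 : v * LN k n (l + s) ^ (i + 1) =
                - ∑ i ∈ range N, (v * a i) * LN k n (l + s) ^ i := by
              calc v * LN k n (l + s) ^ (i + 1) = v * (e * LN k n (l + s) ^ N) := by
                    rw [h6, ← mul_assoc, h1 v hv]
                _ = _ := by
                    rw [h7, mul_neg, Finset.mul_sum]
                    congr 1
                    apply Finset.sum_congr rfl
                    intro i _
                    rw [← mul_assoc, h1 v hv, mul_assoc]
            rw [h8]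
            apply Submodule.neg_mem
            apply Submodule.sum_mem
            intro i hi
            exact mem_Vr_succ (Finset.mem_range.1 hi) (h2 v hv _ (ha i))
      exact this hv

theorem e_mem_Vr (hN : 0 < N) : ∀ r, e ∈ Vr n l N e Z r := by
  intro r
  induction r with
  | zero => exact ⟨1, Z.one_mem, by simp⟩
  | succ r ih =>
    have := mem_Vr_succ (n := n) (l := l) (e := e) (Z := Z) hN ih
    rwa [pow_zero, mul_one] at this

end

/-- The permutations fixing all points of `F`. -/
def fixers (n l : ℕ) : Finset (Perm (Fin n)) := univ.filter (fun w => ∀ x : Fin n, (x : ℕ) < l → w x = x)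

theorem mem_fixers {l : ℕ} {w : Perm (Fin n)} :
    w ∈ fixers n l ↔ ∀ x : Fin n, (x : ℕ) < l → w x = x := by simp [fixers]

/-- The space `M`. -/
noncomputable def MM (n l m N : ℕ) (e : MonoidAlgebra k (Perm (Fin n)))
    (Z : Subalgebra k (MonoidAlgebra k (Perm (Fin n)))) :
    Submodule k (MonoidAlgebra k (Perm (Fin n))) :=
  (fixers n l).sup fun w => Submodule.map (LinearMap.mulRight k (gp k w)) (Vr n l N e Z m)

section

variable {l m N : ℕ} {e : MonoidAlgebra k (Perm (Fin n))}
  {Z : Subalgebra k (MonoidAlgebra k (Perm (Fin n)))}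

theorem mem_MM {w : Perm (Fin n)} (hw : w ∈ fixers n l) {v : MonoidAlgebra k (Perm (Fin n))}
    (hv : v ∈ Vr n l N e Z m) : v * gp k w ∈ MM n l m N e Z := by
  have h1 : Submodule.map (LinearMap.mulRight k (gp k w)) (Vr n l N e Z m) ≤ MM n l m N e Z :=
    Finset.le_sup (f := fun w => Submodule.map (LinearMap.mulRight k (gp k w)) (Vr n l N e Z m)) hw
  exact h1 ⟨v, hv, rfl⟩

theorem MM_le {W : Submodule k (MonoidAlgebra k (Perm (Fin n)))}
    (h : ∀ w ∈ fixers n l, ∀ v ∈ Vr n l N e Z m, v * gp k w ∈ W) : MM n l m N e Z ≤ W := by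
  apply Finset.sup_le
  intro w hw
  rw [Submodule.map_le_iff_le_comap]
  intro v hv
  exact h w hw v hv

theorem finrank_MM : finrank k (MM n l m N e Z) ≤
    (fixers n l).card * (finrank k (Vr n l N e Z 0) * N ^ m) := by
  refine finrank_finset_sup_le_mul _ _ _ ?_
  intro w _
  exact (Submodule.finrank_map_le _ _).trans (finrank_Vr m)

end

/-- `Y_t` in terms of the Jucys-Murphy elements. -/
theorem Y_eq {l : ℕ} {t : Fin n} (ht : l ≤ t) :
    Y k (Fl n l) t = L k t - ∑ j ∈ univ.filter (fun j : Fin n => l ≤ (j : ℕ) ∧ j < t), gp k (swap j t) := by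
  unfold L Y
  have h1 : univ.filter (fun j : Fin n => j < t) =
      Fl n l ∪ univ.filter (fun j : Fin n => l ≤ (j : ℕ) ∧ j < t) := by
    ext x
    simp only [mem_filter, mem_univ, true_and, mem_union, mem_Fl, Fin.lt_def]
    omega
  have h2 : Disjoint (Fl n l) (univ.filter (fun j : Fin n => l ≤ (j : ℕ) ∧ j < t)) := by
    rw [Finset.disjoint_left]
    intro x hx hx'
    rw [mem_Fl] at hx
    rw [mem_filter] at hx'
    omega
  rw [h1, sum_union h2, add_sub_cancel_right]
  apply sum_congr rfl
  intro f _
  rw [swap_comm]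

/-- **The dimension bound.** -/
theorem finrank_le {l m : ℕ} (hn : l + m = n) {E b : MonoidAlgebra k (Perm (Fin n))}
    {J : Submodule k (MonoidAlgebra k (Perm (Fin n)))}
    (hE : E ∈ ZAlg k (symF (Fl n l))) (hEE : E * E = E)
    (hJc : ∀ j ∈ J, ∀ x, j * x = x * j)
    (hb : b ∈ Fix (cj k (Perm (Fin n))) ⊤) (hbb : b * b = b)
    (hJ : ∀ z ∈ Fix (cj k (Perm (Fin n))) ⊤, ∃ c : k, b * z - c • b ∈ J)
    {g : ℕ} (hg : J ^ g = ⊥) :
    finrank k (Submodule.map (LinearMap.mulLeft k (b * E))
      (Subalgebra.toSubmodule (Fix (cj k (Perm (Fin n))) (symF (Fl n l))))) ≤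
    (fixers n l).card * (finrank k (Submodule.map (LinearMap.mulLeft k E)
      (Subalgebra.toSubmodule (ZAlg k (symF (Fl n l))))) * (g * m) ^ m) := by
  classical
  set Z := ZAlg k (symF (Fl n l)) with hZ
  set e := b * E with he
  have hbc : ∀ x, x * b = b * x := fun x => commute_of_mem (SubAlg_top x) hb
  have hee : e * e = e := by
    rw [he, mul_assoc, ← mul_assoc E, hbc E, mul_assoc b E E, hEE, ← mul_assoc, hbb]
  have heZ : ∀ z ∈ Z, z * e = e * z := by
    intro z hz
    rw [he, ← mul_assoc, hbc, mul_assoc, ZAlg_comm z hz E hE, mul_assoc]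
  have hZL : ∀ r, ∀ z ∈ Z, z * LN k n (l + r) = LN k n (l + r) * z := by
    intro r z hz
    unfold LN
    split_ifs with h
    · exact L_comm_ZAlg (by show l ≤ l + r; omega) hz.1
    · simp
  have heL : ∀ r, e * LN k n (l + r) = LN k n (l + r) * e := by
    intro r
    rw [he, mul_assoc, hZL r E hE, ← mul_assoc, ← hbc, mul_assoc]
  have hid : ∀ r < m, ∃ a : ℕ → MonoidAlgebra k (Perm (Fin n)), (∀ i, a i ∈ Z) ∧
      e * LN k n (l + r) ^ (g * m) = - ∑ i ∈ range (g * m), e * (a i * LN k n (l + r) ^ i) := by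
    intro r hr
    have h1 : LN k n (l + r) = L k ⟨l + r, by omega⟩ := by
      unfold LN; rw [dif_pos (by omega)]
    rw [h1]
    exact exists_identity hn hE hEE hJc hb hbb hJ hg (by show l ≤ l + r; omega)
  obtain ⟨h1, h2, h3⟩ := Vr_props (N := g * m) hee heZ hZL heL hid m le_rfl
  -- `e ∈ MM`
  have h1mem : (1 : Perm (Fin n)) ∈ fixers n l := by rw [mem_fixers]; intro x _; rfl
  have h4 : e ∈ MM n l m (g * m) e Z := by
    rcases Nat.eq_zero_or_pos g with h0 | hpos
    · have h5 : e = 0 := by
        have h6 : (1 : MonoidAlgebra k (Perm (Fin n))) ∈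
            (⊥ : Submodule k (MonoidAlgebra k (Perm (Fin n)))) := by
          rw [← hg, h0, pow_zero]; exact Submodule.one_le.1 le_rfl
        have h8 : (1 : MonoidAlgebra k (Perm (Fin n))) = 0 := (Submodule.mem_bot k).1 h6
        rw [← mul_one e, h8, mul_zero]
      rw [h5]; exact Submodule.zero_mem _
    · have h5 : e ∈ Vr n l (g * m) e Z m := by
        rcases Nat.eq_zero_or_pos m with h0 | hm
        · subst h0; exact ⟨1, Z.one_mem, by simp⟩
        · exact e_mem_Vr (Nat.mul_pos hpos hm) m
      have := mem_MM h1mem h5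
      rwa [gp_one, mul_one] at this
  -- commutation of fixers with `Z`
  have hwZ : ∀ w ∈ fixers n l, ∀ z ∈ Z, gp k w * z = z * gp k w := by
    intro w hw z hz
    have h5 : gp k w ∈ Fix (cj k (Perm (Fin n))) (symF (Fl n l)) := by
      rw [mem_Fix_cj_iff]
      intro x hx
      rw [MonoidAlgebra.single_mul_single, MonoidAlgebra.single_mul_single]
      congr 1
      ext y
      rw [mem_fixers] at hw
      rw [Perm.mul_apply, Perm.mul_apply]
      by_cases hy : y ∈ Fl n l
      · have h6 : x y ∈ Fl n l := (IsF.mem hx).2 hy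
        rw [hw y (mem_Fl.1 hy), hw _ (mem_Fl.1 h6)]
      · have h6 : w y ∉ Fl n l := by
          intro h7
          have h8 := hw _ (mem_Fl.1 h7)
          have h9 := w.injective h8
          rw [h9] at h7
          exact hy h7
        rw [hx _ hy, hx _ h6]
    exact (commute_of_mem hz.1 h5).symm
  -- `v (j t)`
  have hVL : ∀ v ∈ Vr n l (g * m) e Z m, ∀ t : Fin n, l ≤ (t : ℕ) →
      v * L k t ∈ Vr n l (g * m) e Z m := by
    intro v hv t ht
    have h5 : L k t = LN k n (l + ((t : ℕ) - l)) := by
      unfold LN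
      have h6 : l + ((t : ℕ) - l) = t := by omega
      rw [dif_pos (by rw [h6]; exact t.2)]
      congr 1
      exact Fin.ext h6.symm
    rw [h5]
    exact h3 _ (by have := t.2; omega) v hv
  -- closure
  have hclos : ∀ x ∈ gens k (Fl n l), ∀ y ∈ MM n l m (g * m) e Z, y * x ∈ MM n l m (g * m) e Z := by
    intro x hx y hy
    have : MM n l m (g * m) e Z ≤ Submodule.comap (LinearMap.mulRight k x)
        (MM n l m (g * m) e Z) := by
      apply MM_le
      intro w hw v hv
      show v * gp k w * x ∈ MM n l m (g * m) e Z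
      rcases hx with (hx | ⟨t, ht, rfl⟩) | ⟨σ, hσ, rfl⟩
      · have hxZ : x ∈ Z := ⟨hx.1, mem_Fix_cj_iff.2 fun h hh => (hx.2 h hh).symm⟩
        rw [mul_assoc, hwZ w hw x hxZ, ← mul_assoc]
        exact mem_MM hw (h2 v hv x hxZ)
      · -- `Y_t`
        rw [mem_Fl] at ht
        have hw' := mem_fixers.1 hw
        have h5 : gp k w * Y k (Fl n l) t = Y k (Fl n l) (w t) * gp k w := by
          unfold Y
          rw [mul_sum, sum_mul]
          apply sum_congr rfl
          intro f hf
          rw [MonoidAlgebra.single_mul_single, MonoidAlgebra.single_mul_single,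
            Equiv.mul_swap_eq_swap_mul, hw' f (mem_Fl.1 hf)]
        have h6 : l ≤ (w t : Fin n) := by
          by_contra hc
          have h7 := hw' (w t) (by omega)
          have h8 := w.injective h7
          rw [h8] at hc
          omega
        rw [mul_assoc, h5, Y_eq h6, sub_mul, mul_sub, ← mul_assoc, sum_mul, mul_sum]
        apply Submodule.sub_mem
        · exact mem_MM hw (hVL v hv _ h6)
        · apply Submodule.sum_mem
          intro j hj
          rw [mem_filter] at hj
          rw [← gp_mul]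
          apply mem_MM _ hv
          rw [mem_fixers]
          intro x hx
          rw [Perm.mul_apply, hw' x hx]
          apply swap_apply_of_ne_of_ne
          · rintro rfl; omega
          · rintro rfl; omega
      · rw [mul_assoc]
        have h5 : gp k w * MonoidAlgebra.single σ 1 = gp k (w * σ) := by rw [gp_mul]
        rw [h5]
        apply mem_MM _ hv
        rw [mem_fixers] at hw ⊢
        intro x hx
        rw [Perm.mul_apply, hσ x (mem_Fl.2 hx), hw x hx]
    exact this hy
  have hclos2 : ∀ x ∈ Cn k (Fl n l), ∀ y ∈ MM n l m (g * m) e Z, y * x ∈ MM n l m (g * m) e Z := by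
    intro x hx
    refine Algebra.adjoin_induction (p := fun x _ => ∀ y ∈ MM n l m (g * m) e Z,
      y * x ∈ MM n l m (g * m) e Z) ?_ ?_ ?_ ?_ hx
    · exact hclos
    · intro c y hy
      rw [← Algebra.commutes, ← Algebra.smul_def]
      exact Submodule.smul_mem _ _ hy
    · intro x x' _ _ hx hx' y hy
      rw [mul_add]
      exact Submodule.add_mem _ (hx y hy) (hx' y hy)
    · intro x x' _ _ hx hx' y hy
      rw [← mul_assoc]
      exact hx' _ (hx y hy)
  have hle : Submodule.map (LinearMap.mulLeft k e)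
      (Subalgebra.toSubmodule (Fix (cj k (Perm (Fin n))) (symF (Fl n l)))) ≤
      MM n l m (g * m) e Z := by
    rintro _ ⟨x, hx, rfl⟩
    exact hclos2 x (mem_Cn_of_isInv (isInv_of_mem_Fix hx)) e h4
  refine (Submodule.finrank_mono hle).trans (finrank_MM.trans ?_)
  apply Nat.mul_le_mul_left
  apply Nat.mul_le_mul_right
  have h5 : Vr n l (g * m) e Z 0 = Submodule.map (LinearMap.mulLeft k b)
      (Submodule.map (LinearMap.mulLeft k E) (Subalgebra.toSubmodule Z)) := by
    rw [Vr, ← Submodule.map_comp]
    congr 1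
    ext1 x
    simp [he]
  rw [h5]
  exact Submodule.finrank_map_le _ _

end Vale.Agent.P180.R2.H589
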