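import Vale.Agent.P180.R2.H589.Dim3

set_option linter.unusedSectionVars false

/-!
P180: the dimension bound for arbitrary finite sets, and for corners.
-/

namespace Vale.Agent.P180.R2.H589

open Equiv Finset Module
open Vale.Agent.P180

section Transport

variable {k : Type*} [Field k] {G H : Type*} [Group G] [Group H]

/-- Transport of the group algebra along an isomorphism. -/
noncomputable def TP (k : Type*) [Field k] {G H : Type*} [Group G] [Group H] (θ : G ≃* H) :
    MonoidAlgebra k G ≃ₐ[k] MonoidAlgebra k H := MonoidAlgebra.domCongr k k θ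

theorem TP_coeff (θ : G ≃* H) (x : MonoidAlgebra k G) (g : G) :
    (TP k θ x).coeff (θ g) = x.coeff g := by
  unfold TP
  rw [MonoidAlgebra.coeff_domCongr, MulEquiv.symm_apply_apply]

theorem TP_single (θ : G ≃* H) (g : G) (c : k) :
    TP k θ (MonoidAlgebra.single g c) = MonoidAlgebra.single (θ g) c := by
  unfold TP
  rw [MonoidAlgebra.domCongr_single]

theorem TP_mem_SubAlg (θ : G ≃* H) {K : Subgroup G} {K' : Subgroup H}
    (hK : ∀ g, g ∈ K ↔ θ g ∈ K') {x : MonoidAlgebra k G} :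
    TP k θ x ∈ SubAlg k K' ↔ x ∈ SubAlg k K := by
  constructor
  · intro h g hg
    rw [← TP_coeff θ] at hg
    exact (hK g).2 (h _ hg)
  · intro h g hg
    obtain ⟨g', rfl⟩ := θ.surjective g
    rw [TP_coeff] at hg
    exact (hK g').1 (h _ hg)

theorem TP_mem_Fix (θ : G ≃* H) {K : Subgroup G} {K' : Subgroup H}
    (hK : ∀ g, g ∈ K ↔ θ g ∈ K') {x : MonoidAlgebra k G} :
    TP k θ x ∈ Fix (cj k H) K' ↔ x ∈ Fix (cj k G) K := by
  rw [mem_Fix_cj_iff, mem_Fix_cj_iff]
  constructor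
  · intro h g hg
    have h1 := h (θ g) ((hK g).1 hg)
    rw [← TP_single, ← map_mul, ← map_mul] at h1
    exact (TP k θ).injective h1
  · intro h g hg
    obtain ⟨g', rfl⟩ := θ.surjective g
    rw [← TP_single, ← map_mul, ← map_mul, h g' ((hK g').2 hg)]

end Transport

section Card

theorem card_fixers (l m : ℕ) : (fixers (l + m) l).card = m.factorial := by
  classical
  have h1 : Fintype.card {w : Perm (Fin (l + m)) // ∀ x : Fin (l + m), ¬ ¬ ((x : ℕ) < l) → w x = x}
      = Fintype.card (Perm {x : Fin (l + m) // ¬ ((x : ℕ) < l)}) :=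
    Fintype.card_congr (Equiv.Perm.subtypeEquivSubtypePerm _).symm
  have h2 : (fixers (l + m) l).card =
      Fintype.card {w : Perm (Fin (l + m)) // ∀ x : Fin (l + m), ¬ ¬ ((x : ℕ) < l) → w x = x} := by
    rw [Fintype.card_subtype]
    congr 1
    ext w
    rw [mem_fixers]
    simp
  rw [h2, h1, Fintype.card_perm]
  congr 1
  rw [Fintype.card_subtype_compl, Fintype.card_fin]
  have h3 : Fintype.card {x : Fin (l + m) // (x : ℕ) < l} = l := by
    rw [Fintype.card_subtype]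
    have : (univ.filter fun x : Fin (l + m) => (x : ℕ) < l) = univ.image (Fin.castAdd m) := by
      ext x
      simp only [mem_filter, mem_univ, true_and, mem_image]
      constructor
      · intro h
        exact ⟨⟨x, h⟩, Fin.ext rfl⟩
      · rintro ⟨y, rfl⟩
        exact y.2
    rw [this, card_image_of_injective _ (Fin.castAdd_injective l m), card_univ, Fintype.card_fin]
  omega

/-- An enumeration which lists the points of `F` first. -/
theorem exists_enum {α : Type*} [Fintype α] [DecidableEq α] (F : Finset α) :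
    ∃ ε : α ≃ Fin (F.card + (Fᶜ).card), ∀ x, x ∈ F ↔ ε x ∈ Fl (F.card + (Fᶜ).card) F.card := by
  have e1 : {x // x ∈ F} ≃ Fin F.card := F.equivFin
  have e2 : {x // ¬ x ∈ F} ≃ Fin (Fᶜ).card :=
    (Equiv.subtypeEquivRight (fun x => by rw [Finset.mem_compl])).trans (Fᶜ).equivFin
  refine ⟨(Equiv.sumCompl (fun x => x ∈ F)).symm.trans ((Equiv.sumCongr e1 e2).trans finSumFinEquiv),
    ?_⟩
  intro x
  rw [mem_Fl]
  by_cases hx : x ∈ F
  · have h1 : (Equiv.sumCompl (fun x => x ∈ F)).symm x = Sum.inl ⟨x, hx⟩ :=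
      Equiv.sumCompl_symm_apply_of_pos hx
    simp [h1, hx]
  · have h1 : (Equiv.sumCompl (fun x => x ∈ F)).symm x = Sum.inr ⟨x, hx⟩ :=
      Equiv.sumCompl_symm_apply_of_neg hx
    simp [h1, hx]

end Card

section Main

variable {k : Type*} [Field k] {α : Type*} [Fintype α] [DecidableEq α]

/-- **The dimension bound**, for arbitrary finite sets. -/
theorem finrank_bEC_le (F : Finset α) {E b : MonoidAlgebra k (Perm α)}
    {J : Submodule k (MonoidAlgebra k (Perm α))}
    (hE : E ∈ ZAlg k (symF F)) (hEE : E * E = E)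
    (hJc : ∀ j ∈ J, ∀ x, j * x = x * j)
    (hb : b ∈ Fix (cj k (Perm α)) ⊤) (hbb : b * b = b)
    (hJ : ∀ z ∈ Fix (cj k (Perm α)) ⊤, ∃ c : k, b * z - c • b ∈ J)
    {g : ℕ} (hg : J ^ g = ⊥) :
    finrank k (Submodule.map (LinearMap.mulLeft k (b * E))
      (Subalgebra.toSubmodule (Fix (cj k (Perm α)) (symF F)))) ≤
    (Fᶜ).card.factorial * (finrank k (Submodule.map (LinearMap.mulLeft k E)
      (Subalgebra.toSubmodule (ZAlg k (symF F)))) * (g * (Fᶜ).card) ^ (Fᶜ).card) := by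
  classical
  obtain ⟨l, m, hm, ε, hε⟩ : ∃ l m : ℕ, m = (Fᶜ).card ∧ ∃ ε : α ≃ Fin (l + m),
      ∀ x, x ∈ F ↔ ε x ∈ Fl (l + m) l := ⟨_, _, rfl, exists_enum F⟩
  rw [← hm]
  set θ : Perm α ≃* Perm (Fin (l + m)) := ε.permCongrHom with hθ
  have hθa : ∀ (g : Perm α) (x : Fin (l + m)), θ g x = ε (g (ε.symm x)) := fun g x => rfl
  have hK : ∀ g : Perm α, g ∈ symF F ↔ θ g ∈ symF (Fl (l + m) l) := by
    intro g
    rw [mem_symF, mem_symF]
    constructor
    · intro h x hx
      rw [hθa, h (ε.symm x), Equiv.apply_symm_apply]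
      intro h'
      rw [hε, Equiv.apply_symm_apply] at h'
      exact hx h'
    · intro h x hx
      have h1 := h (ε x) (fun h' => hx ((hε x).2 h'))
      rw [hθa, Equiv.symm_apply_apply] at h1
      exact ε.injective h1
  have hKt : ∀ g : Perm α, g ∈ (⊤ : Subgroup (Perm α)) ↔ θ g ∈ (⊤ : Subgroup (Perm (Fin (l + m)))) :=
    fun g => ⟨fun _ => trivial, fun _ => trivial⟩
  set Φ := TP k θ with hΦ
  have hE' : Φ E ∈ ZAlg k (symF (Fl (l + m) l)) :=
    ⟨(TP_mem_SubAlg θ hK).2 hE.1, (TP_mem_Fix θ hK).2 hE.2⟩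
  have hEE' : Φ E * Φ E = Φ E := by rw [← map_mul, hEE]
  have hJc' : ∀ j ∈ J.map Φ.toLinearMap, ∀ x, j * x = x * j := by
    rintro _ ⟨j, hj, rfl⟩ x
    obtain ⟨y, rfl⟩ := Φ.surjective x
    show Φ j * Φ y = Φ y * Φ j
    rw [← map_mul, ← map_mul, hJc j hj]
  have hb' : Φ b ∈ Fix (cj k (Perm (Fin (l + m)))) ⊤ := (TP_mem_Fix θ hKt).2 hb
  have hbb' : Φ b * Φ b = Φ b := by rw [← map_mul, hbb]
  have hJ' : ∀ z ∈ Fix (cj k (Perm (Fin (l + m)))) ⊤, ∃ c : k, Φ b * z - c • Φ b ∈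
      J.map Φ.toLinearMap := by
    intro z hz
    obtain ⟨y, rfl⟩ := Φ.surjective z
    obtain ⟨c, hc⟩ := hJ y ((TP_mem_Fix θ hKt).1 hz)
    refine ⟨c, b * y - c • b, hc, ?_⟩
    show Φ (b * y - c • b) = _
    rw [map_sub, map_mul, map_smul]
  have hg' : (J.map Φ.toLinearMap) ^ g = ⊥ := by
    have := Submodule.map_pow J Φ.toAlgHom g
    rw [hg, Submodule.map_bot] at this
    exact this.symm
  have key := finrank_le (n := l + m) rfl hE' hEE' hJc' hb' hbb' hJ' hg'
  rw [card_fixers] at key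
  have h1 : Submodule.map Φ.toLinearEquiv.toLinearMap (Submodule.map (LinearMap.mulLeft k (b * E))
      (Subalgebra.toSubmodule (Fix (cj k (Perm α)) (symF F)))) =
      (Submodule.map (LinearMap.mulLeft k (Φ b * Φ E))
      (Subalgebra.toSubmodule (Fix (cj k (Perm (Fin (l + m)))) (symF (Fl (l + m) l))))) := by
    rw [← Submodule.map_comp]
    ext y
    constructor
    · rintro ⟨x, hx, rfl⟩
      refine ⟨Φ x, (TP_mem_Fix θ hK).2 hx, ?_⟩
      show Φ b * Φ E * Φ x = Φ (b * E * x)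
      rw [map_mul, map_mul]
    · rintro ⟨x, hx, rfl⟩
      obtain ⟨x', rfl⟩ := Φ.surjective x
      refine ⟨x', (TP_mem_Fix θ hK).1 hx, ?_⟩
      show Φ (b * E * x') = Φ b * Φ E * Φ x'
      rw [map_mul, map_mul]
  have h2 : Submodule.map Φ.toLinearEquiv.toLinearMap (Submodule.map (LinearMap.mulLeft k E)
      (Subalgebra.toSubmodule (ZAlg k (symF F)))) =
      (Submodule.map (LinearMap.mulLeft k (Φ E))
      (Subalgebra.toSubmodule (ZAlg k (symF (Fl (l + m) l))))) := by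
    rw [← Submodule.map_comp]
    ext y
    constructor
    · rintro ⟨x, hx, rfl⟩
      refine ⟨Φ x, ⟨(TP_mem_SubAlg θ hK).2 hx.1, (TP_mem_Fix θ hK).2 hx.2⟩, ?_⟩
      show Φ E * Φ x = Φ (E * x)
      rw [map_mul]
    · rintro ⟨x, hx, rfl⟩
      obtain ⟨x', rfl⟩ := Φ.surjective x
      refine ⟨x', ⟨(TP_mem_SubAlg θ hK).1 hx.1, (TP_mem_Fix θ hK).1 hx.2⟩, ?_⟩
      show Φ (E * x') = Φ E * Φ x'
      rw [map_mul]
  rw [← h1, ← h2, LinearEquiv.finrank_map_eq, LinearEquiv.finrank_map_eq] at key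
  exact key

end Main

end Vale.Agent.P180.R2.H589
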