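import Vale.Agent.P180.R2.H589.Gen1
import Vale.Agent.P180.R2.H365.Gen

set_option linter.unusedSectionVars false

/-!
P180: idempotents `f` with `f kH f = k f` and the block they generate.
-/

namespace Vale.Agent.P180.R2.H589

open Equiv Finset Module
open Vale.Agent.P180

section Group

variable {k : Type*} [Field k] {G : Type*} [Group G] [Finite G]

theorem coeff_one_comm' (a b : MonoidAlgebra k G) : (a * b).coeff 1 = (b * a).coeff 1 := by
  have := Fintype.ofFinite G
  classical
  exact H365.coeff_one_comm a b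

theorem coeff_eq_mul' (a : MonoidAlgebra k G) (x : G) :
    a.coeff x = (a * MonoidAlgebra.single x⁻¹ 1).coeff 1 := by
  have := Fintype.ofFinite G
  classical
  exact H365.coeff_eq_mul a x

/-- The trace form of a corner. -/
theorem coeff_one_ne_zero {H : Subgroup G} {f : MonoidAlgebra k G} (hf : f ∈ SubAlg k H)
    (hff : f * f = f) (hf0 : f ≠ 0) (hfS : ∀ y ∈ SubAlg k H, ∃ c : k, f * y * f = c • f) :
    f.coeff 1 ≠ 0 := by
  intro h0
  apply hf0
  ext x
  by_cases hx : x ∈ H
  · rw [coeff_eq_mul']
    obtain ⟨c, hc⟩ := hfS _ (single_mem_SubAlg (k := k) (H.inv_mem hx) 1)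
    have h1 : (f * MonoidAlgebra.single x⁻¹ (1 : k)).coeff 1 =
        (f * MonoidAlgebra.single x⁻¹ 1 * f).coeff 1 := by
      rw [coeff_one_comm' (f * MonoidAlgebra.single x⁻¹ 1) f, ← mul_assoc, hff]
    rw [h1, hc, MonoidAlgebra.coeff_smul, Finsupp.smul_apply, h0, smul_zero]
    simp
  · by_contra hne
    exact hx (hf x (by simpa using hne))

/-- The idempotent of the simple block generated by `f`. -/
theorem exists_block {H : Subgroup G} {f : MonoidAlgebra k G} (hf : f ∈ SubAlg k H)
    (hff : f * f = f) (hf0 : f ≠ 0) (hfS : ∀ y ∈ SubAlg k H, ∃ c : k, f * y * f = c • f) :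
    ∃ (E : MonoidAlgebra k G) (s : Finset H) (x y : H → MonoidAlgebra k G),
      E ∈ ZAlg k H ∧ E * E = E ∧ f * E = f ∧ (∀ i, x i ∈ SubAlg k H) ∧ (∀ i, y i ∈ SubAlg k H) ∧
      E = ∑ i ∈ s, x i * f * y i := by
  classical
  have := Fintype.ofFinite H
  have hl := coeff_one_ne_zero hf hff hf0 hfS
  set t := f.coeff 1 with ht
  set x : H → MonoidAlgebra k G := fun h => t • MonoidAlgebra.single (h : G) 1 with hx
  set y : H → MonoidAlgebra k G := fun h => MonoidAlgebra.single (h : G)⁻¹ 1 with hy
  have hxS : ∀ i, x i ∈ SubAlg k H := fun i => Subalgebra.smul_mem _ (single_mem_SubAlg i.2 1) _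
  have hyS : ∀ i, y i ∈ SubAlg k H := fun i => single_mem_SubAlg (H.inv_mem i.2) 1
  set E : MonoidAlgebra k G := ∑ i : H, x i * f * y i with hE
  have hES : E ∈ SubAlg k H := Subalgebra.sum_mem _ fun i _ =>
    Subalgebra.mul_mem _ (Subalgebra.mul_mem _ (hxS i) hf) (hyS i)
  have hEF : E ∈ Fix (cj k G) H := by
    rw [mem_Fix_cj_iff]
    intro g hg
    rw [hE, mul_sum, sum_mul]
    apply Fintype.sum_bijective (fun h : H => (⟨g, hg⟩ : H) * h) (Group.mulLeft_bijective _)
    intro h
    simp only [hx, hy]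
    rw [smul_mul_assoc, smul_mul_assoc, smul_mul_assoc, smul_mul_assoc, smul_mul_assoc,
      mul_smul_comm]
    congr 1
    have e1 : (((⟨g, hg⟩ : H) * h : H) : G) = g * h := rfl
    rw [e1, mul_assoc, mul_assoc, mul_assoc, MonoidAlgebra.single_mul_single,
      mul_inv_rev, inv_mul_cancel_right, ← mul_assoc (MonoidAlgebra.single g (1 : k)),
      MonoidAlgebra.single_mul_single, one_mul]
  have hfE : f * E = f := by
    have h1 : ∀ h : H, f * (x h * f * y h) = f * (f.coeff (h : G)⁻¹ • MonoidAlgebra.single (h : G)⁻¹ 1) := by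
      intro h
      obtain ⟨c, hc⟩ := hfS _ (single_mem_SubAlg (k := k) h.2 1)
      have h2 : c * t = f.coeff (h : G)⁻¹ := by
        have h3 := congrArg (fun z => z.coeff 1) hc
        rw [MonoidAlgebra.coeff_smul, Finsupp.smul_apply, smul_eq_mul, ← ht] at h3
        rw [← h3, coeff_one_comm', ← mul_assoc, hff, coeff_eq_mul' f, inv_inv]
      calc f * (x h * f * y h) = t • ((f * MonoidAlgebra.single (h : G) 1 * f) *
            MonoidAlgebra.single (h : G)⁻¹ 1) := by
            simp only [hx, hy, smul_mul_assoc, mul_smul_comm, mul_assoc]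
        _ = (c * t) • (f * MonoidAlgebra.single (h : G)⁻¹ 1) := by
            rw [hc, smul_mul_assoc, smul_smul, mul_comm]
        _ = _ := by rw [h2, mul_smul_comm]
    have h4 : f = ∑ h : H, f.coeff (h : G)⁻¹ • MonoidAlgebra.single (h : G)⁻¹ (1 : k) := by
      ext g
      rw [MonoidAlgebra.coeff_sum, Finsupp.finsetSum_apply]
      by_cases hg : g ∈ H
      · rw [Finset.sum_eq_single (⟨g⁻¹, H.inv_mem hg⟩ : H)]
        · simp
        · intro h _ hne
          have : (h : G)⁻¹ ≠ g := by
            intro h'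
            apply hne
            apply Subtype.ext
            show (h : G) = g⁻¹
            rw [← h', inv_inv]
          simp [this]
        · intro h; exact absurd (mem_univ _) h
      · have h5 : f.coeff g = 0 := by
          by_contra hne
          exact hg (hf g hne)
        rw [h5]
        symm
        apply Finset.sum_eq_zero
        intro h _
        have : (h : G)⁻¹ ≠ g := by
          intro h'
          apply hg
          rw [← h']
          exact H.inv_mem h.2
        simp [this]
    calc f * E = ∑ h : H, f * (x h * f * y h) := by rw [hE, mul_sum]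
      _ = ∑ h : H, f * (f.coeff (h : G)⁻¹ • MonoidAlgebra.single (h : G)⁻¹ 1) :=
          Finset.sum_congr rfl fun h _ => h1 h
      _ = f * f := by rw [← mul_sum, ← h4]
      _ = f := hff
  refine ⟨E, univ, x, y, ⟨hES, hEF⟩, ?_, hfE, hxS, hyS, rfl⟩
  calc E * E = ∑ i : H, (x i * f * y i) * E := by conv_lhs => rw [hE, sum_mul, ← hE]
    _ = ∑ i : H, x i * f * y i := by
        apply Finset.sum_congr rfl
        intro i _
        have h1 : y i * E = E * y i := commute_of_mem (hyS i) hEF
        rw [mul_assoc, h1, ← mul_assoc, mul_assoc (x i), hfE]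
    _ = E := rfl

end Group

section Corner

variable {k A : Type*} [Field k] [Ring A] [Algebra k A] [FiniteDimensional k A]

/-- The corner of `f b` is the image of the elements `b E c`, where `c` commutes with `S`. -/
theorem finrank_crn_le {S : Subalgebra k A} {f E b : A} (hfS : f ∈ S) (hff : f * f = f)
    (hf : ∀ y ∈ S, ∃ c : k, f * y * f = c • f)
    {ι : Type*} (s : Finset ι) (x y : ι → A) (hx : ∀ i, x i ∈ S) (hy : ∀ i, y i ∈ S)
    (hE : E = ∑ i ∈ s, x i * f * y i) (hES : ∀ z ∈ S, E * z = z * E) (hfE : f * E = f)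
    (hb : ∀ z, b * z = z * b) (hbb : b * b = b) (T : Submodule k A)
    (hT : ∀ c, (∀ z ∈ S, z * c = c * z) → b * E * c ∈ T) :
    finrank k (crn k (f * b) (f * b)) ≤ finrank k T := by
  have h1 : crn k (f * b) (f * b) ≤
      Submodule.map ((LinearMap.mulLeft k f).comp (LinearMap.mulRight k f)) T := by
    intro a ha
    rw [mem_crn] at ha
    obtain ⟨a', ha'⟩ := ha
    have hba : b * a = a := by
      have e0 : b * (f * b) = f * b := by rw [hb, mul_assoc, hbb]
      calc b * a = (b * (f * b)) * a' * (f * b) := by rw [ha']; simp only [mul_assoc]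
        _ = a := by rw [e0, ← ha']
    have hfa : f * a * f = a := by
      have e1 : f * (f * b) = f * b := by rw [← mul_assoc, hff]
      have e2 : (f * b) * f = f * b := by rw [mul_assoc, hb f, ← mul_assoc, hff]
      calc f * a * f = (f * (f * b)) * a' * ((f * b) * f) := by rw [ha']; simp only [mul_assoc]
        _ = a := by rw [e1, e2, ← ha']
    obtain ⟨h2, h3, h4, h5⟩ := exists_lift hfS hff hf s x y hx hy hE hES hfE a hfa
    refine ⟨b * E * (∑ i ∈ s, x i * a * y i), hT _ h2, ?_⟩
    show f * (b * E * (∑ i ∈ s, x i * a * y i) * f) = a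
    rw [mul_assoc b E, h4, ← mul_assoc, ← mul_assoc, ← hb f, mul_assoc b f, mul_assoc b, h3, hba]
  exact (Submodule.finrank_mono h1).trans (Submodule.finrank_map_le _ _)

end Corner

section Main

variable {k : Type*} [Field k] {α : Type*} [Fintype α] [DecidableEq α]

/-- The corner of an idempotent `f ∈ k Sym(F)` with `f k Sym(F) f = k f`. -/
theorem finrank_corner_le (F : Finset α) {f b : MonoidAlgebra k (Perm α)}
    {J : Submodule k (MonoidAlgebra k (Perm α))}
    (hf : f ∈ SubAlg k (symF F)) (hff : f * f = f)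
    (hfS : ∀ y ∈ SubAlg k (symF F), ∃ c : k, f * y * f = c • f)
    (hJc : ∀ j ∈ J, ∀ x, j * x = x * j)
    (hb : b ∈ Fix (cj k (Perm α)) ⊤) (hbb : b * b = b)
    (hJ : ∀ z ∈ Fix (cj k (Perm α)) ⊤, ∃ c : k, b * z - c • b ∈ J)
    {g : ℕ} (hg : J ^ g = ⊥) :
    finrank k (crn k (f * b) (f * b)) ≤
      (Fᶜ).card.factorial * (g * (Fᶜ).card) ^ (Fᶜ).card := by
  classical
  by_cases hf0 : f = 0
  · have h1 : crn k (f * b) (f * b) = ⊥ := by
      rw [eq_bot_iff]
      intro x hx
      rw [mem_crn] at hx
      obtain ⟨a, rfl⟩ := hx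
      rw [hf0]
      simp
    rw [h1]
    simp
  obtain ⟨E, s, x, y, hE, hEE, hfE, hx, hy, hsum⟩ := exists_block hf hff hf0 hfS
  have hES : ∀ z ∈ SubAlg k (symF F), E * z = z * E := fun z hz => (commute_of_mem hz hE.2).symm
  have hbc : ∀ z, b * z = z * b := fun z => (commute_of_mem (SubAlg_top z) hb).symm
  have h1 := finrank_crn_le hf hff hfS s x y hx hy hsum hES hfE hbc hbb
    (Submodule.map (LinearMap.mulLeft k (b * E))
      (Subalgebra.toSubmodule (Fix (cj k (Perm α)) (symF F)))) (by
      intro c hc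
      refine ⟨c, ?_, rfl⟩
      show c ∈ Fix (cj k (Perm α)) (symF F)
      rw [mem_Fix_cj_iff]
      intro h hh
      exact hc _ (single_mem_SubAlg hh 1))
  have h2 : finrank k (Submodule.map (LinearMap.mulLeft k E)
      (Subalgebra.toSubmodule (ZAlg k (symF F)))) ≤ 1 := by
    have h3 : Submodule.map (LinearMap.mulLeft k E) (Subalgebra.toSubmodule (ZAlg k (symF F))) ≤
        Submodule.span k {E} := by
      rintro _ ⟨z, hz, rfl⟩
      obtain ⟨c, hc⟩ := hfS z hz.1
      have hfz : f * z = z * f := commute_of_mem hf hz.2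
      rw [hfz, mul_assoc, hff] at hc
      rw [Submodule.mem_span_singleton]
      refine ⟨c, ?_⟩
      show c • E = E * z
      have hzE : E * z = z * E := hES z hz.1
      rw [hzE, hsum, smul_sum, mul_sum]
      apply Finset.sum_congr rfl
      intro i _
      have hxz : x i * z = z * x i := commute_of_mem (hx i) hz.2
      calc c • (x i * f * y i) = x i * (c • f) * y i := by
            rw [mul_smul_comm, smul_mul_assoc]
        _ = (x i * z) * f * y i := by rw [← hc, mul_assoc (x i) z f]
        _ = _ := by rw [hxz]; simp only [mul_assoc]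
    refine (Submodule.finrank_mono h3).trans ?_
    have h4 := finrank_span_le_card (R := k) ({E} : Set (MonoidAlgebra k (Perm α)))
    simpa using h4
  refine h1.trans ((finrank_bEC_le F hE hEE hJc hb hbb hJ hg).trans ?_)
  apply Nat.mul_le_mul_left
  calc _ ≤ 1 * (g * (Fᶜ).card) ^ (Fᶜ).card := Nat.mul_le_mul_right _ h2
    _ = _ := one_mul _

end Main

end Vale.Agent.P180.R2.H589
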