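import Vale.Agent.P180.R2.H589.Cent

set_option linter.unusedSectionVars false

/-!
P180: Jucys-Murphy elements of the group algebra of the symmetric group on `Fin n`.
-/

namespace Vale.Agent.P180.R2.H589

open Equiv Finset Polynomial

variable {k : Type*} [CommRing k] {n : ℕ}

/-- The Jucys-Murphy element of `i`: the sum of the transpositions `(j i)`, `j < i`. -/
noncomputable def L (k : Type*) [CommRing k] (i : Fin n) : MonoidAlgebra k (Perm (Fin n)) :=
  ∑ j ∈ univ.filter (fun j : Fin n => j < i), MonoidAlgebra.single (swap j i) 1

/-- Group elements in the group algebra. -/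
noncomputable abbrev gp (k : Type*) [CommRing k] {G : Type*} [Group G] (g : G) :
    MonoidAlgebra k G := MonoidAlgebra.single g 1

theorem gp_mul {G : Type*} [Group G] (g h : G) : gp k (g * h) = gp k g * gp k h := by
  rw [MonoidAlgebra.single_mul_single, one_mul]

theorem gp_one {G : Type*} [Group G] : gp k (1 : G) = 1 := rfl

/-- Permutations which fix `j` and preserve the points below `j` commute with `L j`. -/
theorem gp_comm_L {σ : Perm (Fin n)} {j : Fin n} (h1 : σ j = j) (h2 : ∀ x, σ x < j ↔ x < j) :
    Commute (gp k σ) (L k j) := by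
  unfold L Commute SemiconjBy
  rw [mul_sum, sum_mul]
  apply sum_bij (fun f _ => σ f)
  · intro f hf
    rw [mem_filter] at hf ⊢
    exact ⟨mem_univ _, (h2 f).2 hf.2⟩
  · intro a _ b _ hab; exact σ.injective hab
  · intro f hf
    rw [mem_filter] at hf
    refine ⟨σ⁻¹ f, ?_, by simp⟩
    rw [mem_filter]
    refine ⟨mem_univ _, (h2 _).1 ?_⟩
    simpa using hf.2
  · intro f _
    rw [MonoidAlgebra.single_mul_single, MonoidAlgebra.single_mul_single,
      Equiv.mul_swap_eq_swap_mul, h1]

theorem L_comm_of_lt {i j : Fin n} (hij : i < j) : Commute (L k i) (L k j) := by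
  unfold L
  apply Commute.sum_left
  intro a ha
  rw [mem_filter] at ha
  have ha' : a < j := ha.2.trans hij
  apply gp_comm_L
  · exact swap_apply_of_ne_of_ne ha'.ne' hij.ne'
  · intro x
    rcases eq_or_ne x a with rfl | hxa
    · rw [swap_apply_left]; simp only [hij, ha']
    · rcases eq_or_ne x i with rfl | hxi
      · rw [swap_apply_right]; simp only [hij, ha']
      · rw [swap_apply_of_ne_of_ne hxa hxi]

theorem L_comm (i j : Fin n) : Commute (L k i) (L k j) := by
  rcases lt_trichotomy i j with h | h | h
  · exact L_comm_of_lt h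
  · rw [h]
  · exact (L_comm_of_lt h).symm

/-- The relation between neighbours. -/
theorem gp_mul_L {i j : Fin n} (hij : (j : ℕ) = i + 1) :
    gp k (swap i j) * L k j = L k i * gp k (swap i j) + 1 := by
  have hlt : i < j := by rw [Fin.lt_def]; omega
  have h1 : univ.filter (fun x : Fin n => x < j) = insert i (univ.filter (fun x : Fin n => x < i)) := by
    ext x
    simp only [mem_filter, mem_univ, true_and, mem_insert, Fin.lt_def, Fin.ext_iff]
    omega
  have h2 : i ∉ univ.filter (fun x : Fin n => x < i) := by simp
  unfold L
  rw [h1, sum_insert h2, mul_add, mul_sum, sum_mul, MonoidAlgebra.single_mul_single, swap_mul_self,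
    add_comm]
  congr 1
  · apply sum_congr rfl
    intro x hx
    rw [mem_filter] at hx
    rw [MonoidAlgebra.single_mul_single, MonoidAlgebra.single_mul_single,
      Equiv.mul_swap_eq_swap_mul, swap_apply_right, swap_apply_of_ne_of_ne hx.2.ne (hx.2.trans hlt).ne]
  · rw [one_mul]; rfl

theorem L_mul_gp {i j : Fin n} (hij : (j : ℕ) = i + 1) :
    L k j * gp k (swap i j) = gp k (swap i j) * L k i + 1 := by
  have h1 := gp_mul_L (k := k) hij
  have h2 : gp k (swap i j) * gp k (swap i j) = 1 := by rw [← gp_mul, swap_mul_self]; rfl
  calc L k j * gp k (swap i j)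
      = gp k (swap i j) * (gp k (swap i j) * L k j) * gp k (swap i j) := by
        rw [← mul_assoc (gp k (swap i j)), h2, one_mul]
    _ = gp k (swap i j) * (L k i * gp k (swap i j) + 1) * gp k (swap i j) := by rw [h1]
    _ = gp k (swap i j) * L k i * (gp k (swap i j) * gp k (swap i j))
          + gp k (swap i j) * gp k (swap i j) := by noncomm_ring
    _ = _ := by rw [h2, mul_one]

theorem gp_comm_add {i j : Fin n} (hij : (j : ℕ) = i + 1) :
    Commute (gp k (swap i j)) (L k i + L k j) := by
  unfold Commute SemiconjBy
  have h1 := gp_mul_L (k := k) hij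
  have h2 := L_mul_gp (k := k) hij
  rw [mul_add, add_mul, h1, h2]
  abel

theorem gp_comm_mul {i j : Fin n} (hij : (j : ℕ) = i + 1) :
    Commute (gp k (swap i j)) (L k i * L k j) := by
  unfold Commute SemiconjBy
  have h1 := gp_mul_L (k := k) hij
  have h2 := L_mul_gp (k := k) hij
  have h3 : gp k (swap i j) * L k i = L k j * gp k (swap i j) - 1 := by rw [h2]; abel
  calc gp k (swap i j) * (L k i * L k j) = (gp k (swap i j) * L k i) * L k j := by rw [mul_assoc]
    _ = L k j * (gp k (swap i j) * L k j) - L k j := by rw [h3]; noncomm_ring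
    _ = L k j * L k i * gp k (swap i j) := by rw [h1]; noncomm_ring
    _ = _ := by rw [(L_comm j i).eq]

/-! ### The products -/

/-- The linear factors. -/
noncomputable def fac (k : Type*) [CommRing k] (n i : ℕ) : (MonoidAlgebra k (Perm (Fin n)))[X] :=
  if h : i < n then X - C (L k ⟨i, h⟩) else 1

/-- The product of `m` factors, from `l` on. -/
noncomputable def Q (k : Type*) [CommRing k] (n l : ℕ) : ℕ → (MonoidAlgebra k (Perm (Fin n)))[X]
  | 0 => 1
  | m + 1 => Q k n l m * fac k n (l + m)

theorem Q_add (l m m' : ℕ) : Q k n l (m + m') = Q k n l m * Q k n (l + m) m' := by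
  induction m' with
  | zero => rw [add_zero]; simp [Q]
  | succ m' ih => rw [← add_assoc, Q, Q, ih, mul_assoc, add_assoc]

theorem gp_comm_fac {i j : Fin n} (hij : (j : ℕ) = i + 1) {a : ℕ} (h1 : a ≠ i) (h2 : a ≠ j) :
    Commute (C (gp k (swap i j))) (fac k n a) := by
  unfold fac
  split_ifs with h
  · have hai : (⟨a, h⟩ : Fin n) ≠ i := fun h' => h1 (congrArg Fin.val h')
    have haj : (⟨a, h⟩ : Fin n) ≠ j := fun h' => h2 (congrArg Fin.val h')
    apply Commute.sub_right
    · exact Polynomial.commute_X _ |>.symm
    · have := (gp_comm_L (k := k) (σ := swap i j) (j := ⟨a, h⟩)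
        (swap_apply_of_ne_of_ne hai haj) (fun x => ?_))
      · unfold Commute SemiconjBy
        rw [← C_mul, ← C_mul, this.eq]
      · rcases eq_or_ne x i with rfl | hxa
        · rw [swap_apply_left]; simp only [Fin.lt_def]; omega
        · rcases eq_or_ne x j with rfl | hxi
          · rw [swap_apply_right]; simp only [Fin.lt_def]; omega
          · rw [swap_apply_of_ne_of_ne hxa hxi]
  · exact Commute.one_right _

theorem gp_comm_pair {i j : Fin n} (hij : (j : ℕ) = i + 1) :
    Commute (C (gp k (swap i j))) (fac k n i * fac k n j) := by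
  have e : fac k n i * fac k n j = X * X - X * C (L k i + L k j) + C (L k i * L k j) := by
    unfold fac
    rw [dif_pos i.2, dif_pos j.2, C_add, C_mul]
    simp only [Fin.eta]
    rw [sub_mul, mul_sub, mul_sub, mul_add, (commute_X (C (L k i))).eq]
    abel
  rw [e]
  have hX : Commute (C (gp k (swap i j))) (X : (MonoidAlgebra k (Perm (Fin n)))[X]) :=
    (commute_X _).symm
  have hC : ∀ y, Commute (gp k (swap i j)) y →
      Commute (C (gp k (swap i j))) (C y : (MonoidAlgebra k (Perm (Fin n)))[X]) := by
    intro y hy
    unfold Commute SemiconjBy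
    rw [← C_mul, ← C_mul, hy.eq]
  exact ((hX.mul_right hX).sub_right (hX.mul_right (hC _ (gp_comm_add hij)))).add_right
    (hC _ (gp_comm_mul hij))

/-- Products over intervals which contain both or none of `i`, `i + 1`. -/
theorem gp_comm_Q {i j : Fin n} (hij : (j : ℕ) = i + 1) (l m : ℕ)
    (h : (i : ℕ) < l ∧ (j : ℕ) < l ∨ l + m ≤ i ∨ l ≤ i ∧ (j : ℕ) < l + m) :
    Commute (C (gp k (swap i j))) (Q k n l m) := by
  have h0 : ∀ m, ((i : ℕ) < l ∧ (j : ℕ) < l ∨ l + m ≤ i) → Commute (C (gp k (swap i j))) (Q k n l m) := by
    intro m
    induction m with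
    | zero => intro _; exact Commute.one_right _
    | succ m ih =>
      intro h
      rw [Q]
      apply Commute.mul_right (ih (by omega))
      apply gp_comm_fac hij <;> omega
  rcases h with h | h | ⟨h1, h2⟩
  · exact h0 m (Or.inl h)
  · exact h0 m (Or.inr h)
  · obtain ⟨d, hd⟩ := Nat.exists_eq_add_of_le h1
    obtain ⟨r, hr⟩ := Nat.exists_eq_add_of_le (show d + 2 ≤ m by omega)
    rw [hr, Q_add, show d + 2 = (d + 1) + 1 from rfl, Q, Q, mul_assoc (Q k n l d)]
    have e1 : l + d = (i : ℕ) := by omega
    have e2 : l + (d + 1) = (j : ℕ) := by omega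
    rw [e1, e2]
    refine ((h0 d (Or.inr (by omega))).mul_right (gp_comm_pair hij)).mul_right ?_
    clear hr h2 h1
    induction r with
    | zero => exact Commute.one_right _
    | succ r ih =>
      rw [Q]
      apply Commute.mul_right ih
      apply gp_comm_fac hij <;> omega

/-- Elements commuting with the neighbour transpositions of the first `l` points. -/
theorem comm_of_neighbours (y : MonoidAlgebra k (Perm (Fin n))) : ∀ l : ℕ,
    (∀ i j : Fin n, (j : ℕ) = i + 1 → (j : ℕ) < l → Commute (gp k (swap i j)) y) →
    ∀ h : Perm (Fin n), (∀ x : Fin n, l ≤ x → h x = x) → Commute (gp k h) y := by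
  intro l
  induction l with
  | zero =>
    intro _ h hh
    have : h = 1 := by ext x; rw [hh x (Nat.zero_le _)]; rfl
    rw [this, gp_one]
    exact Commute.one_left _
  | succ l ih =>
    intro hy h hh
    have ih' := ih (fun i j hij hj => hy i j hij (by omega))
    by_cases hl : l < n
    · set p : Fin n := ⟨l, hl⟩ with hp
      -- transpositions `(a l)`
      have hsw : ∀ a : Fin n, (a : ℕ) < l → Commute (gp k (swap a p)) y := by
        intro a ha
        by_cases ha1 : (a : ℕ) + 1 = l
        · exact hy a p (by rw [hp]; exact ha1.symm) (by rw [hp]; exact Nat.lt_succ_self l)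
        · set q : Fin n := ⟨l - 1, by omega⟩ with hq
          have hqp : (p : ℕ) = q + 1 := by rw [hp, hq]; show l = l - 1 + 1; omega
          have haq : a ≠ q := by
            intro h'; rw [h'] at ha1; apply ha1; show l - 1 + 1 = l; omega
          have hap : a ≠ p := by intro h'; rw [h'] at ha; exact absurd ha (lt_irrefl _)
          have e : swap a p = swap q p * swap a q * swap q p := by
            have := Equiv.swap_apply_apply (swap q p) a q
            rwa [swap_apply_of_ne_of_ne haq hap, swap_apply_left, Equiv.swap_inv] at this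
          have c1 := hy q p hqp (by rw [hp]; exact Nat.lt_succ_self l)
          have c2 := ih' (swap a q) (fun x hx => swap_apply_of_ne_of_ne
            (by rintro rfl; omega) (by rintro rfl; rw [hq] at hx; simp only at hx; omega))
          rw [e, gp_mul, gp_mul]
          exact (c1.mul_left c2).mul_left c1
      by_cases hhp : h p = p
      · apply ih' h
        intro x hx
        by_cases hxl : (x : ℕ) = l
        · have : x = p := Fin.ext hxl
          rw [this, hhp]
        · exact hh x (by omega)
      · have hlt : ((h p : Fin n) : ℕ) < l := by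
          by_contra hc
          have h1 : h (h p) = h p := by
            rcases Nat.lt_or_ge l (h p : Fin n) with h2 | h2
            · exact hh _ h2
            · exfalso
              apply hhp
              apply Fin.ext
              show ((h p : Fin n) : ℕ) = l
              omega
          exact hhp (h.injective h1)
        have e : h = swap (h p) p * (swap (h p) p * h) := by
          rw [← mul_assoc, swap_mul_self, one_mul]
        rw [e, gp_mul]
        apply (hsw _ hlt).mul_left
        apply ih'
        intro x hx
        by_cases hxl : (x : ℕ) = l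
        · have : x = p := Fin.ext hxl
          rw [this, Perm.mul_apply, swap_apply_left]
        · have h3 : h x = x := hh x (by omega)
          rw [Perm.mul_apply, h3]
          apply swap_apply_of_ne_of_ne
          · rintro rfl; omega
          · rintro rfl; exact hxl rfl
    · apply ih'
      intro x hx
      exact absurd x.2 (by omega)

end Vale.Agent.P180.R2.H589
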