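import Vale.Agent.P180.R2.H589.Two

set_option linter.unusedSectionVars false

/-!
P180: the corner bound for idempotents of `k Alt(F)`, in odd characteristic.
-/

namespace Vale.Agent.P180.R2.H589

open Equiv Finset Module
open Vale.Agent.P180

section Cross

variable {k A : Type*} [Field k] [Ring A] [Algebra k A]

/-- If `j ∈ A i A` then `dim j A i ≤ dim j A j * dim i A i`. -/
theorem finrank_cross' [FiniteDimensional k A] {i j : A} (hi : i * i = i) (hj : j * j = j)
    (h : j ∈ idl k i) :
    finrank k (crn k j i) ≤ finrank k (crn k j j) * finrank k (crn k i i) := by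
  classical
  -- products spanning `j A j`
  set P : Set A := {x | ∃ a b : A, x = (j * a * i) * (i * b * j)} with hP
  have hPle : Submodule.span k P ≤ crn k j j := by
    rw [Submodule.span_le]
    rintro x ⟨a, b, rfl⟩
    show _ ∈ crn k j j
    rw [mem_crn]
    exact ⟨a * i * (i * b), by simp only [mul_assoc]⟩
  have hjP : j ∈ Submodule.span k P := by
    have h1 : ∀ x ∈ idl k i, j * x * j ∈ Submodule.span k P := by
      intro x hx
      refine Submodule.span_induction ?_ ?_ ?_ ?_ hx
      · rintro x ⟨a, b, rfl⟩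
        apply Submodule.subset_span
        refine ⟨a, b, ?_⟩
        calc j * (a * i * b) * j = j * a * i * b * j := by simp only [mul_assoc]
          _ = j * a * (i * i) * b * j := by rw [hi]
          _ = _ := by simp only [mul_assoc]
      · simp
      · intro x y _ _ hx hy; rw [mul_add, add_mul]; exact Submodule.add_mem _ hx hy
      · intro c x _ hx
        rw [mul_smul_comm, smul_mul_assoc]
        exact Submodule.smul_mem _ _ hx
    have := h1 j h
    rwa [hj, hj] at this
  -- choose a basis among the products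
  obtain ⟨T, hTP, hTspan, hTli⟩ := exists_linearIndependent k P
  have hTfin : T.Finite := hTli.setFinite
  have := hTfin.fintype
  have hcard : Fintype.card T ≤ finrank k (crn k j j) := by
    have h1 : finrank k (Submodule.span k T) = Fintype.card T := by
      rw [finrank_span_set_eq_card hTli, Set.toFinset_card]
    rw [← h1]
    apply Submodule.finrank_mono
    rw [hTspan]
    exact hPle
  have hjT : j ∈ Submodule.span k T := by rw [hTspan]; exact hjP
  choose a b hab using (fun t : T => hTP t.2)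
  -- the injective map
  let f : crn k j i →ₗ[k] (T → crn k i i) :=
    LinearMap.pi (fun t => LinearMap.codRestrict (crn k i i)
      ((LinearMap.mulLeft k (i * b t * j)).comp (crn k j i).subtype) (by
        intro x
        obtain ⟨y, hy⟩ := mem_crn.1 x.2
        rw [mem_crn]
        refine ⟨b t * j * (j * y), ?_⟩
        simp [hy, mul_assoc]))
  have hf : Function.Injective f := by
    rw [← LinearMap.ker_eq_bot, LinearMap.ker_eq_bot']
    intro x hx
    have h1 : ∀ t : T, (i * b t * j) * (x : A) = 0 := by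
      intro t
      have := congrArg (fun y => ((y t : crn k i i) : A)) hx
      simpa [f, mul_assoc] using this
    have h2 : ∀ y ∈ Submodule.span k T, y * (x : A) = 0 := by
      intro y hy
      refine Submodule.span_induction ?_ ?_ ?_ ?_ hy
      · intro t ht
        have h5 : t = j * a ⟨t, ht⟩ * i * (i * b ⟨t, ht⟩ * j) := hab ⟨t, ht⟩
        rw [h5, mul_assoc, h1, mul_zero]
      · simp
      · intro x y _ _ hx hy; rw [add_mul, hx, hy, add_zero]
      · intro c x _ hx; rw [smul_mul_assoc, hx, smul_zero]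
    have h3 := h2 j hjT
    obtain ⟨h4, _⟩ := (mem_crn' hj hi).1 x.2
    rw [h4] at h3
    exact Subtype.ext h3
  calc finrank k (crn k j i) ≤ finrank k (T → crn k i i) := LinearMap.finrank_le_finrank_of_injective hf
    _ = Fintype.card T * finrank k (crn k i i) := by
        rw [Module.finrank_pi_fintype]; simp
    _ ≤ _ := Nat.mul_le_mul_right _ hcard

theorem finrank_crn_add [FiniteDimensional k A] {i j : A} :
    finrank k (crn k (i + j) (i + j)) ≤
      finrank k (crn k i i) + finrank k (crn k j j) + (finrank k (crn k i j) + finrank k (crn k j i)) := by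
  have hle : crn k (i + j) (i + j) ≤ (crn k i i ⊔ crn k j j) ⊔ (crn k i j ⊔ crn k j i) := by
    intro x hx
    rw [mem_crn] at hx
    obtain ⟨a, rfl⟩ := hx
    have h : (i + j) * a * (i + j) = (i * a * i + j * a * j) + (i * a * j + j * a * i) := by
      noncomm_ring
    rw [h]
    exact Submodule.add_mem_sup (Submodule.add_mem_sup (mem_crn.2 ⟨a, rfl⟩) (mem_crn.2 ⟨a, rfl⟩))
      (Submodule.add_mem_sup (mem_crn.2 ⟨a, rfl⟩) (mem_crn.2 ⟨a, rfl⟩))
  refine (Submodule.finrank_mono hle).trans ?_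
  refine (Submodule.finrank_add_le_finrank_add_finrank _ _).trans ?_
  exact Nat.add_le_add (Submodule.finrank_add_le_finrank_add_finrank _ _)
    (Submodule.finrank_add_le_finrank_add_finrank _ _)

/-- The corner of a sum of two orthogonal idempotents, one of which is full. -/
theorem finrank_crn_add_of_full [FiniteDimensional k A] {i j : A} (hi : i * i = i) (hj : j * j = j)
    {n : ℕ} (hni : finrank k (crn k i i) ≤ n) (hnj : finrank k (crn k j j) ≤ n)
    (h : j ∈ idl k i ∨ i ∈ idl k j) : finrank k (crn k (i + j) (i + j)) ≤ 2 * n + 2 * (n * n) := by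
  have h1 := finrank_crn_add (k := k) (i := i) (j := j)
  have h2 : finrank k (crn k i j) ≤ n * n ∧ finrank k (crn k j i) ≤ n * n := by
    rcases h with h | h
    · exact ⟨(finrank_cross hi hj h).trans (Nat.mul_le_mul hnj hni),
        (finrank_cross' hi hj h).trans (Nat.mul_le_mul hnj hni)⟩
    · exact ⟨(finrank_cross' hj hi h).trans (Nat.mul_le_mul hni hnj),
        (finrank_cross hj hi h).trans (Nat.mul_le_mul hni hnj)⟩
  omega

theorem mul_mem_idl {i x : A} (hx : x ∈ idl k i) (y : A) : y * x ∈ idl k i ∧ x * y ∈ idl k i := by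
  refine Submodule.span_induction ?_ ?_ ?_ ?_ hx
  · rintro x ⟨a, b, rfl⟩
    constructor
    · exact Submodule.subset_span ⟨y * a, b, by simp only [mul_assoc]⟩
    · exact Submodule.subset_span ⟨a, b * y, by simp only [mul_assoc]⟩
  · simp
  · intro x x' _ _ h h'
    rw [mul_add, add_mul]
    exact ⟨Submodule.add_mem _ h.1 h'.1, Submodule.add_mem _ h.2 h'.2⟩
  · intro c x _ h
    rw [mul_smul_comm, smul_mul_assoc]
    exact ⟨Submodule.smul_mem _ _ h.1, Submodule.smul_mem _ _ h.2⟩

theorem half_corner {S : Subalgebra k A} {f f1 u : A} (hff1 : f * f1 = f1) (hf1f : f1 * f = f1)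
    (h11 : f1 * f1 = f1) {c0 : k} (hu1 : f1 * u * f1 = c0 • f1)
    (hcor : ∀ y ∈ S, ∃ c c' : k, f * y * f = c • f + c' • u) :
    ∀ y ∈ S, ∃ c : k, f1 * y * f1 = c • f1 := by
  intro y hy
  obtain ⟨c, c', hc⟩ := hcor y hy
  refine ⟨c + c' * c0, ?_⟩
  have h1 : f1 * y * f1 = f1 * (f * y * f) * f1 := by
    calc f1 * y * f1 = (f1 * f) * y * (f * f1) := by rw [hff1, hf1f]
      _ = _ := by simp only [mul_assoc]
  rw [h1, hc, mul_add, add_mul, mul_smul_comm, mul_smul_comm, smul_mul_assoc, smul_mul_assoc,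
    hf1f, h11, hu1, smul_smul, add_smul]

/-- Splitting of an idempotent with a two-dimensional corner. -/
theorem split_idem (h2 : (2 : k) ≠ 0) {S : Subalgebra k A} {f u : A} (hfS : f ∈ S) (huS : u ∈ S)
    (hff : f * f = f) (huu : u * u = f) (hfu : f * u = u) (huf : u * f = u)
    (hcor : ∀ y ∈ S, ∃ c c' : k, f * y * f = c • f + c' • u) :
    ∃ f1 ∈ S, ∃ f2 ∈ S, f1 * f1 = f1 ∧ f2 * f2 = f2 ∧ f1 + f2 = f ∧
      (∀ y ∈ S, ∃ c : k, f1 * y * f1 = c • f1) ∧ (∀ y ∈ S, ∃ c : k, f2 * y * f2 = c • f2) := by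
  have h4 : (2 : k)⁻¹ * 2⁻¹ * 2 = 2⁻¹ := by field_simp
  have e1 : (f + u) * (f + u) = (2 : k) • (f + u) := by
    rw [add_mul, mul_add, mul_add, hff, hfu, huf, huu, two_smul]
    abel
  have e2 : (f - u) * (f - u) = (2 : k) • (f - u) := by
    rw [sub_mul, mul_sub, mul_sub, hff, hfu, huf, huu, two_smul]
    abel
  have e11 : ((2 : k)⁻¹ • (f + u)) * ((2 : k)⁻¹ • (f + u)) = (2 : k)⁻¹ • (f + u) := by
    rw [smul_mul_smul_comm, e1, smul_smul, h4]
  have e22 : ((2 : k)⁻¹ • (f - u)) * ((2 : k)⁻¹ • (f - u)) = (2 : k)⁻¹ • (f - u) := by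
    rw [smul_mul_smul_comm, e2, smul_smul, h4]
  refine ⟨(2 : k)⁻¹ • (f + u), Subalgebra.smul_mem _ (Subalgebra.add_mem _ hfS huS) _,
    (2 : k)⁻¹ • (f - u), Subalgebra.smul_mem _ (Subalgebra.sub_mem _ hfS huS) _, e11, e22, ?_, ?_, ?_⟩
  · rw [← smul_add]
    have : f + u + (f - u) = (2 : k) • f := by rw [two_smul]; abel
    rw [this, smul_smul, inv_mul_cancel₀ h2, one_smul]
  · apply half_corner (f := f) (u := u) (c0 := 1) _ _ e11 _ hcor
    · rw [mul_smul_comm, mul_add, hff, hfu]
    · rw [smul_mul_assoc, add_mul, hff, huf]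
    · have : ((2 : k)⁻¹ • (f + u)) * u = (2 : k)⁻¹ • (f + u) := by
        rw [smul_mul_assoc, add_mul, hfu, huu, add_comm]
      rw [this, e11, one_smul]
  · apply half_corner (f := f) (u := u) (c0 := -1) _ _ e22 _ hcor
    · rw [mul_smul_comm, mul_sub, hff, hfu]
    · rw [smul_mul_assoc, sub_mul, hff, huf]
    · have : ((2 : k)⁻¹ • (f - u)) * u = - ((2 : k)⁻¹ • (f - u)) := by
        rw [smul_mul_assoc, sub_mul, hfu, huu, ← smul_neg]
        congr 1
        abel
      rw [this, neg_mul, e22, neg_one_smul]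

end Cross

section Main

variable {k : Type*} [Field k] {α : Type*} [Fintype α] [DecidableEq α]

theorem tr_mem_idl {P : Subgroup (Perm α)} {f w : MonoidAlgebra k (Perm α)}
    (h : f * w ∈ Fix (cj k (Perm α)) P) : tr (cj k (Perm α)) P ⊤ (f * w) ∈ idl k f := by
  classical
  have := Fintype.ofFinite (Perm α ⧸ P)
  rw [tr_top_eq_sum h]
  apply Submodule.sum_mem
  intro q _
  apply Submodule.subset_span
  refine ⟨MonoidAlgebra.single q.out 1, w * MonoidAlgebra.single q.out⁻¹ 1, ?_⟩
  rw [cj_eq]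
  simp only [mul_assoc]

/-- **The corner bound in odd characteristic.** -/
theorem finrank_corner_odd [IsAlgClosed k] (h2 : (2 : k) ≠ 0) (F : Finset α)
    {f b w : MonoidAlgebra k (Perm α)} {J : Submodule k (MonoidAlgebra k (Perm α))}
    (hf : f ∈ SubAlg k (symF F ⊓ alternatingGroup α)) (hff : f * f = f)
    (hfS : ∀ y ∈ SubAlg k (symF F ⊓ alternatingGroup α), ∃ c : k, f * y * f = c • f)
    (hJc : ∀ j ∈ J, ∀ x, j * x = x * j)
    (hb : IsBlockOf ⊤ b)
    (hJ : ∀ z ∈ Fix (cj k (Perm α)) ⊤, ∃ c : k, b * z - c • b ∈ J)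
    {g : ℕ} (hg : J ^ g = ⊥) {P : Subgroup (Perm α)} (hP : ∀ h ∈ P, ∀ x ∈ F, h x = x)
    (hw : w ∈ Fix (cj k (Perm α)) P) (hbw : b = tr (cj k (Perm α)) P ⊤ (f * w)) {n : ℕ}
    (hn : n = (Fᶜ).card.factorial * (g * (Fᶜ).card) ^ (Fᶜ).card) :
    finrank k (crn k (f * b) (f * b)) ≤ 2 * n + 2 * (n * n) := by
  classical
  have hbF : b ∈ Fix (cj k (Perm α)) ⊤ := hb.mem.2
  have hbb : b * b = b := hb.idem
  have hbc : ∀ z, b * z = z * b := fun z => (commute_of_mem (SubAlg_top z) hbF).symm
  rcases corner_dichotomy hf hff hfS with h | ⟨v, hv, hvo, hfv, hv0⟩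
  · have h1 := finrank_corner_le F (SubAlg_mono inf_le_left hf) hff h hJc hbF hbb hJ hg
    rw [← hn] at h1
    omega
  have hfH : f ∈ SubAlg k (symF F) := SubAlg_mono inf_le_left hf
  obtain ⟨⟨a, ha0, hvv⟩, hall⟩ := odd_corner (fun x y => not_mem_alt_mul) hf hff hfS hv hvo hfv hv0
  obtain ⟨r, hr⟩ := IsAlgClosed.exists_pow_nat_eq a (n := 2) (by norm_num)
  have hr0 : r ≠ 0 := by
    rintro rfl
    apply ha0
    rw [← hr]
    norm_num
  set u := r⁻¹ • v with hu
  have hfv1 : f * v = v := by rw [← hfv, ← mul_assoc, ← mul_assoc, hff]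
  have hfv2 : v * f = v := by rw [← hfv, mul_assoc, hff]
  have huu : u * u = f := by
    rw [hu, smul_mul_smul_comm, hvv, smul_smul, ← hr]
    have : r⁻¹ * r⁻¹ * r ^ 2 = 1 := by field_simp
    rw [this, one_smul]
  have hfu : f * u = u := by rw [hu, mul_smul_comm, hfv1]
  have huf : u * f = u := by rw [hu, smul_mul_assoc, hfv2]
  have huH : u ∈ SubAlg k (symF F) := Subalgebra.smul_mem _ hv _
  -- the corner of `f`
  have hcor : ∀ y ∈ SubAlg k (symF F), ∃ c c' : k, f * y * f = c • f + c' • u := by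
    intro y hy
    obtain ⟨c, hc⟩ := hfS _ (ev_mem_SubAlg (N := alternatingGroup α) hy)
    obtain ⟨c', hc'⟩ := hall (f * od (alternatingGroup α) y * f)
      (Subalgebra.mul_mem _ (Subalgebra.mul_mem _ hfH (od_mem_SubAlg hy)) hfH)
      ((mem_mul_Odd' (SubAlg_mono inf_le_right hf) (od_odd y)).mul_mem
        (SubAlg_mono inf_le_right hf)) (by
        calc f * (f * od (alternatingGroup α) y * f) * f
            = (f * f) * od (alternatingGroup α) y * (f * f) := by simp only [mul_assoc]
          _ = _ := by rw [hff])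
    refine ⟨c, c' * r, ?_⟩
    conv_lhs => rw [← ev_add_od (N := alternatingGroup α) y]
    rw [mul_add, add_mul, hc, hc', hu, smul_smul, mul_assoc, mul_inv_cancel₀ hr0, mul_one]
  obtain ⟨f1, hf1H, f2, hf2H, e11, e22, e12, hc1, hc2⟩ :=
    split_idem h2 hfH huH hff huu hfu huf hcor
  have hn1 := finrank_corner_le F hf1H e11 hc1 hJc hbF hbb hJ hg
  have hn2 := finrank_corner_le F hf2H e22 hc2 hJc hbF hbb hJ hg
  rw [← hn] at hn1 hn2
  -- `k Sym(F)` is fixed by `P`
  have hfixP : ∀ x ∈ SubAlg k (symF F), x ∈ Fix (cj k (Perm α)) P := by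
    intro x hx
    rw [mem_Fix_cj_iff]
    intro h hh
    have h5 : MonoidAlgebra.single h (1 : k) ∈ Fix (cj k (Perm α)) (symF F) := by
      rw [mem_Fix_cj_iff]
      intro t ht
      rw [MonoidAlgebra.single_mul_single, MonoidAlgebra.single_mul_single]
      congr 1
      ext y
      rw [Perm.mul_apply, Perm.mul_apply]
      by_cases hy : y ∈ F
      · have h6 : t y ∈ F := (IsF.mem ht).2 hy
        rw [hP h hh y hy, hP h hh _ h6]
      · have h6 : h y ∉ F := by
          intro h7
          have h8 := hP h hh _ h7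
          have h9 := h.injective h8
          rw [h9] at h7
          exact hy h7
        rw [ht _ hy, ht _ h6]
    exact (commute_of_mem hx h5).symm
  -- one of the two idempotents is full
  have hx1 : f1 * w ∈ Fix (cj k (Perm α)) P := Subalgebra.mul_mem _ (hfixP _ hf1H) hw
  have hx2 : f2 * w ∈ Fix (cj k (Perm α)) P := Subalgebra.mul_mem _ (hfixP _ hf2H) hw
  have hsum : tr (cj k (Perm α)) P ⊤ (f1 * w) * b + tr (cj k (Perm α)) P ⊤ (f2 * w) * b = b := by
    rw [← add_mul, ← tr_add, ← add_mul, e12, ← hbw, hbb]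
  have hfull : b ∈ idl k (f1 * b) ∨ b ∈ idl k (f2 * b) := by
    have hidl : ∀ i, b ∈ idl k i → b ∈ idl k (i * b) := by
      intro i hi
      have h7 : ∀ x ∈ idl k i, x * b ∈ idl k (i * b) := by
        intro x hx
        refine Submodule.span_induction ?_ ?_ ?_ ?_ hx
        · rintro x ⟨a, c, rfl⟩
          apply Submodule.subset_span
          refine ⟨a, c, ?_⟩
          rw [mul_assoc (a * i), ← hbc c, ← mul_assoc, ← mul_assoc]
        · simp
        · intro x x' _ _ h h'
          rw [add_mul]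
          exact Submodule.add_mem _ h h'
        · intro c x _ h
          rw [smul_mul_assoc]
          exact Submodule.smul_mem _ _ h
      have h8 := h7 b hi
      rwa [hbb] at h8
    have h9 : ∀ i, f1 = i ∨ f2 = i → (∃ y ∈ ZAlg k (⊤ : Subgroup (Perm α)), y * b = y ∧
        tr (cj k (Perm α)) P ⊤ (i * w) * b * y = b) → b ∈ idl k (i * b) := by
      rintro i hi ⟨y, _, _, hy⟩
      apply hidl
      have h10 : tr (cj k (Perm α)) P ⊤ (i * w) ∈ idl k i := by
        rcases hi with rfl | rfl
        · exact tr_mem_idl hx1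
        · exact tr_mem_idl hx2
      have h11 := (mul_mem_idl (mul_mem_idl h10 b).2 y).2
      rwa [hy] at h11
    have hz : ∀ x, x ∈ Fix (cj k (Perm α)) P → tr (cj k (Perm α)) P ⊤ x * b ∈
        ZAlg k (⊤ : Subgroup (Perm α)) := fun x hx =>
      ⟨SubAlg_top _, Subalgebra.mul_mem _ (tr_mem_Fix hx) hbF⟩
    obtain ⟨i, -, y, hy, hyb, hxy⟩ := hb.exists_unit_of_sum (by exact ZAlg_comm) (Finset.univ : Finset (Fin 2))
      (![tr (cj k (Perm α)) P ⊤ (f1 * w) * b, tr (cj k (Perm α)) P ⊤ (f2 * w) * b])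
      (fun i _ => by
        fin_cases i
        · exact hz _ hx1
        · exact hz _ hx2)
      (fun i _ => by
        fin_cases i
        · show tr (cj k (Perm α)) P ⊤ (f1 * w) * b * b = _
          rw [mul_assoc, hbb]; rfl
        · show tr (cj k (Perm α)) P ⊤ (f2 * w) * b * b = _
          rw [mul_assoc, hbb]; rfl)
      (by rw [Fin.sum_univ_two]; exact hsum)
    fin_cases i
    · left
      exact h9 f1 (Or.inl rfl) ⟨y, hy, hyb, hxy⟩
    · right
      exact h9 f2 (Or.inr rfl) ⟨y, hy, hyb, hxy⟩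
  have g1 : (f1 * b) * (f1 * b) = f1 * b := by
    rw [mul_assoc, ← mul_assoc b, hbc f1, mul_assoc f1 b b, hbb, ← mul_assoc, e11]
  have g2 : (f2 * b) * (f2 * b) = f2 * b := by
    rw [mul_assoc, ← mul_assoc b, hbc f2, mul_assoc f2 b b, hbb, ← mul_assoc, e22]
  have g3 : f1 * b + f2 * b = f * b := by rw [← add_mul, e12]
  rw [← g3]
  apply finrank_crn_add_of_full g1 g2 hn1 hn2
  rcases hfull with h | h
  · left
    exact (mul_mem_idl h f2).1
  · right
    exact (mul_mem_idl h f1).1

end Main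

end Vale.Agent.P180.R2.H589
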