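import Vale.Agent.P180.R2.H589.Par

set_option linter.unusedSectionVars false

/-!
P180: the corner bound for idempotents of `k Alt(F)`, in characteristic two.
-/

namespace Vale.Agent.P180.R2.H589

open Equiv Finset Module
open Vale.Agent.P180

section Block

variable {k : Type*} [Field k] {G : Type*} [Group G] [Finite G] {N H : Subgroup G}

/-- If the corner `f kH f` has an odd element, then the block idempotent of `k(H ∩ N)` which belongs
to `f` is fixed by `H`, and its product with `Z(kH)` has dimension at most two. -/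
theorem exists_block_odd [hNn : N.Normal] (hN : ∀ x y : G, x ∉ N → y ∉ N → x * y ∈ N)
    {f : MonoidAlgebra k G}
    (hf : f ∈ SubAlg k (H ⊓ N)) (hff : f * f = f)
    (hfS : ∀ y ∈ SubAlg k (H ⊓ N), ∃ c : k, f * y * f = c • f)
    {v : MonoidAlgebra k G} (hv : v ∈ SubAlg k H) (hvo : Odd' N v) (hfv : f * v * f = v)
    (hv0 : v ≠ 0) :
    ∃ (E : MonoidAlgebra k G) (s : Finset (H ⊓ N : Subgroup G))
      (x y : (H ⊓ N : Subgroup G) → MonoidAlgebra k G),
      E ∈ ZAlg k H ∧ E ∈ SubAlg k (H ⊓ N) ∧ E * E = E ∧ f * E = f ∧ (∀ i, x i ∈ SubAlg k (H ⊓ N)) ∧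
      (∀ i, y i ∈ SubAlg k (H ⊓ N)) ∧ E = ∑ i ∈ s, x i * f * y i ∧
      finrank k (Submodule.map (LinearMap.mulLeft k E)
        (Subalgebra.toSubmodule (ZAlg k H))) ≤ 2 ∧ ∃ t ∈ H, t ∉ N := by
  classical
  obtain ⟨⟨a, ha0, hvv⟩, hall⟩ := odd_corner hN hf hff hfS hv hvo hfv hv0
  have hf0 : f ≠ 0 := by
    rintro rfl
    apply hv0
    rw [← hfv]
    simp
  obtain ⟨E, s, x, y, hE, hEE, hfE, hx, hy, hsum⟩ := exists_block hf hff hf0 hfS
  have hES : ∀ z ∈ SubAlg k (H ⊓ N), E * z = z * E := fun z hz => (commute_of_mem hz hE.2).symm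
  obtain ⟨hw1, hw2, hw3, hw4⟩ := exists_lift hf hff hfS s x y hx hy hsum hES hfE v hfv
  set w := ∑ i ∈ s, x i * v * y i with hw
  have hSH : ∀ z, z ∈ SubAlg k (H ⊓ N) → z ∈ SubAlg k H := fun z hz => SubAlg_mono inf_le_left hz
  have hSN : ∀ z, z ∈ SubAlg k (H ⊓ N) → z ∈ SubAlg k N := fun z hz => SubAlg_mono inf_le_right hz
  have hwH : w ∈ SubAlg k H := Subalgebra.sum_mem _ fun i _ =>
    Subalgebra.mul_mem _ (Subalgebra.mul_mem _ (hSH _ (hx i)) hv) (hSH _ (hy i))
  have hwo : Odd' N w := Odd'.sum _ _ fun i _ =>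
    (mem_mul_Odd' (hSN _ (hx i)) hvo).mul_mem (hSN _ (hy i))
  have hfw : f * w = w * f := hw1 f hf
  have hfwv : f * w = v := by rw [← hw2, mul_assoc, ← hfw, ← mul_assoc, hff]
  have hww : w * w = a • E := by
    have h1 : w * w * f = a • f := by
      calc w * w * f = (f * w) * (f * w) := by
            rw [mul_assoc, ← hfw, ← mul_assoc, ← mul_assoc, hfw, mul_assoc w f f, hff]
        _ = _ := by rw [hfwv, hvv]
    calc w * w = (w * w) * E := by rw [mul_assoc, hw4]
      _ = ∑ i ∈ s, x i * (w * w * f) * y i := by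
          rw [hsum, mul_sum]
          apply Finset.sum_congr rfl
          intro i _
          have h2 : (w * w) * x i = x i * (w * w) := by
            rw [mul_assoc, ← hw1 _ (hx i), ← mul_assoc, ← hw1 _ (hx i), mul_assoc]
          rw [← mul_assoc, ← mul_assoc, h2]
          simp only [mul_assoc]
      _ = a • E := by
          rw [h1, hsum, smul_sum]
          apply Finset.sum_congr rfl
          intro i _
          rw [mul_smul_comm, smul_mul_assoc]
  have hw0 : w ≠ 0 := by
    intro h0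
    apply hv0
    rw [← hfwv, h0, mul_zero]
  obtain ⟨t, ht⟩ : ∃ t, w.coeff t ≠ 0 := by
    by_contra hcon
    push Not at hcon
    apply hw0
    ext g
    rw [hcon g]
    simp
  have htH : t ∈ H := hwH t ht
  have htN : t ∉ N := hwo t ht
  have htiN : t⁻¹ ∉ N := fun h => htN (by simpa using N.inv_mem h)
  -- `E` is fixed by `t`
  have hwt : w * MonoidAlgebra.single t⁻¹ 1 ∈ SubAlg k (H ⊓ N) := fun g hg =>
    ⟨Subalgebra.mul_mem _ hwH (single_mem_SubAlg (H.inv_mem htH) 1) g hg,
      hwo.mul_Odd' hN (SuppIn.single htiN 1) g hg⟩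
  have hst : MonoidAlgebra.single t⁻¹ (1 : k) * MonoidAlgebra.single t 1 = 1 := by
    rw [MonoidAlgebra.single_mul_single, inv_mul_cancel, one_mul]; rfl
  have h3 : w = w * cj k G t⁻¹ E := by
    have h4 := hES _ hwt
    rw [← mul_assoc, hw3] at h4
    have h5 := congrArg (fun z => z * MonoidAlgebra.single t (1 : k)) h4
    simp only [mul_assoc] at h5
    rw [hst, mul_one] at h5
    rw [cj_eq, inv_inv]
    simpa only [mul_assoc] using h5
  have h4 : E = E * cj k G t⁻¹ E := by
    have h5 : a • E = a • (E * cj k G t⁻¹ E) := by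
      rw [← smul_mul_assoc, ← hww, mul_assoc, ← h3]
    have h6 := congrArg (fun z => a⁻¹ • z) h5
    simpa only [smul_smul, inv_mul_cancel₀ ha0, one_smul] using h6
  have ht2 : t⁻¹ * t⁻¹ ∈ H ⊓ N := ⟨H.mul_mem (H.inv_mem htH) (H.inv_mem htH), hN _ _ htiN htiN⟩
  have h5 : cj k G t⁻¹ E = cj k G t E := by
    have h6 := hE.2 _ ht2
    rw [map_mul_act] at h6
    have h7 := congrArg (cj k G t) h6
    rwa [map_act_inv] at h7
  have hnorm : ∀ g ∈ H, ∀ z ∈ SubAlg k (H ⊓ N), cj k G g z ∈ SubAlg k (H ⊓ N) := by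
    intro g hg z hz
    exact SuppIn.conj hz g fun s hs => ⟨H.mul_mem (H.mul_mem hg hs.1) (H.inv_mem hg),
      hNn.conj_mem s hs.2 g⟩
  have h6 : cj k G t E = E := by
    have h7 : cj k G t E = cj k G t E * E := by
      have h8 := congrArg (cj k G t) h4
      rwa [map_mul, map_act_inv] at h8
    have h8 : E * cj k G t E = cj k G t E * E := hES _ (hnorm t htH E hE.1)
    rw [h7, ← h8, ← h5]
    exact h4.symm
  have hEH : E ∈ Fix (cj k G) H := by
    intro g hg
    by_cases hgN : g ∈ N
    · exact hE.2 g ⟨hg, hgN⟩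
    · have h7 : g = t * (t⁻¹ * g) := by group
      rw [h7, map_mul_act, hE.2 _ ⟨H.mul_mem (H.inv_mem htH) hg, hN _ _ htiN hgN⟩, h6]
  refine ⟨E, s, x, y, ⟨hSH _ hE.1, hEH⟩, hE.1, hEE, hfE, hx, hy, hsum, ?_, t, htH, htN⟩
  have hle : Submodule.map (LinearMap.mulLeft k E) (Subalgebra.toSubmodule (ZAlg k H)) ≤
      Submodule.span k ({E, w} : Set (MonoidAlgebra k G)) := by
    rintro _ ⟨z, hz, rfl⟩
    have hz' : z ∈ ZAlg k H := hz
    have key : ∀ z' ∈ ZAlg k H, E * z' = ∑ i ∈ s, x i * (f * z' * f) * y i := by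
      intro z' hz'
      rw [hsum, sum_mul]
      apply Finset.sum_congr rfl
      intro i _
      have e1 : y i * z' = z' * y i := commute_of_mem (hSH _ (hy i)) hz'.2
      have e2 : f * z' * f = f * z' := by
        have e3 : f * z' = z' * f := commute_of_mem (hSH _ hf) hz'.2
        rw [e3, mul_assoc, hff]
      rw [e2, mul_assoc (x i * f), e1]
      simp only [mul_assoc]
    have hz0 : ev N z ∈ ZAlg k H := ⟨hSH _ (ev_mem_SubAlg hz'.1), ev_mem_Fix hz'.2⟩
    have hz1 : od N z ∈ ZAlg k H := ⟨od_mem_SubAlg hz'.1, od_mem_Fix hz'.2⟩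
    show E * z ∈ _
    rw [← ev_add_od (N := N) z, mul_add]
    apply Submodule.add_mem
    · obtain ⟨c, hc⟩ := hfS _ (ev_mem_SubAlg (N := N) hz'.1)
      rw [key _ hz0, hc]
      have : ∑ i ∈ s, x i * (c • f) * y i = c • E := by
        rw [hsum, smul_sum]
        apply Finset.sum_congr rfl
        intro i _
        rw [mul_smul_comm, smul_mul_assoc]
      rw [this]
      exact Submodule.smul_mem _ _ (Submodule.subset_span (by simp))
    · obtain ⟨c, hc⟩ := hall (f * od N z * f)
        (Subalgebra.mul_mem _ (Subalgebra.mul_mem _ (hSH _ hf) hz1.1) (hSH _ hf))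
        ((mem_mul_Odd' (hSN _ hf) (od_odd z)).mul_mem (hSN _ hf)) (by
          calc f * (f * od N z * f) * f = (f * f) * od N z * (f * f) := by simp only [mul_assoc]
            _ = _ := by rw [hff])
      rw [key _ hz1, hc]
      have : ∑ i ∈ s, x i * (c • v) * y i = c • w := by
        rw [hw, smul_sum]
        apply Finset.sum_congr rfl
        intro i _
        rw [mul_smul_comm, smul_mul_assoc]
      rw [this]
      exact Submodule.smul_mem _ _ (Submodule.subset_span (by simp))
  refine (Submodule.finrank_mono hle).trans ?_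
  have h7 := finrank_span_le_card (R := k) ({E, w} : Set (MonoidAlgebra k G))
  refine h7.trans ?_
  rw [Set.toFinset_insert, Set.toFinset_singleton]
  exact (Finset.card_insert_le _ _).trans (by simp)

/-- In characteristic two, passing from the centralizer of `kH` to the one of `k(H ∩ N)` at most
doubles the dimension. -/
theorem finrank_two_le [hNn : N.Normal] (hN : ∀ x y : G, x ∉ N → y ∉ N → x * y ∈ N)
    (h2 : (2 : k) = 0) {e : MonoidAlgebra k G} (he : e ∈ Fix (cj k G) H) (hee : e * e = e)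
    {t : G} (htH : t ∈ H) (htN : t ∉ N) :
    finrank k (Submodule.map (LinearMap.mulLeft k e)
      (Subalgebra.toSubmodule (Fix (cj k G) (H ⊓ N)))) ≤
    2 * finrank k (Submodule.map (LinearMap.mulLeft k e)
      (Subalgebra.toSubmodule (Fix (cj k G) H))) := by
  classical
  have : FiniteDimensional k (MonoidAlgebra k G) :=
    Module.Finite.equiv (MonoidAlgebra.coeffLinearEquiv k (M := G) (S := k)).symm
  set T := Submodule.map (LinearMap.mulLeft k e)
      (Subalgebra.toSubmodule (Fix (cj k G) (H ⊓ N))) with hT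
  set T' := Submodule.map (LinearMap.mulLeft k e)
      (Subalgebra.toSubmodule (Fix (cj k G) H)) with hT'
  have hfixH : ∀ x ∈ Fix (cj k G) (H ⊓ N), cj k G t x = x → x ∈ Fix (cj k G) H := by
    intro x hx hxt g hg
    by_cases hgN : g ∈ N
    · exact hx g ⟨hg, hgN⟩
    · have h7 : g = t * (t⁻¹ * g) := by group
      rw [h7, map_mul_act, hx _ ⟨H.mul_mem (H.inv_mem htH) hg, hN _ _
        (fun h => htN (by simpa using N.inv_mem h)) hgN⟩, hxt]
  let φ : T →ₗ[k] MonoidAlgebra k G :=
    (LinearMap.id + (cj k G t).toLinearMap).domRestrict T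
  have hφ : ∀ x : T, φ x = (x : MonoidAlgebra k G) + cj k G t x := fun x => rfl
  have hr : LinearMap.range φ ≤ T' := by
    rintro _ ⟨⟨_, x, hx, rfl⟩, rfl⟩
    have hx' : x ∈ Fix (cj k G) (H ⊓ N) := hx
    refine ⟨x + cj k G t x, ?_, ?_⟩
    · apply hfixH
      · apply Subalgebra.add_mem _ hx'
        intro g hg
        have h3 : t⁻¹ * g * t ∈ H ⊓ N := ⟨H.mul_mem (H.mul_mem (H.inv_mem htH) hg.1) htH, by
          have := hNn.conj_mem g hg.2 t⁻¹
          rwa [inv_inv] at this⟩
        rw [← map_mul_act]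
        have h4 : g * t = t * (t⁻¹ * g * t) := by group
        rw [h4, map_mul_act, hx' _ h3]
      · rw [map_add, ← map_mul_act, hx' (t * t) ⟨H.mul_mem htH htH, hN _ _ htN htN⟩, add_comm]
    · rw [hφ]
      show e * (x + cj k G t x) = e * x + cj k G t (e * x)
      rw [map_mul, he t htH, mul_add]
  have hk : finrank k (LinearMap.ker φ) ≤ finrank k T' := by
    have hle : (LinearMap.ker φ).map T.subtype ≤ T' := by
      rintro _ ⟨⟨y, hy⟩, hy0, rfl⟩
      have h3 : y + cj k G t y = 0 := by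
        have := LinearMap.mem_ker.1 hy0
        rwa [hφ] at this
      have hyt : cj k G t y = y := by
        have h4 : cj k G t y = -y := by rw [eq_neg_iff_add_eq_zero, add_comm]; exact h3
        rw [h4]
        have h5 : (2 : k) • y = y + y := two_smul k y
        rw [h2, zero_smul] at h5
        exact neg_eq_of_add_eq_zero_left h5.symm
      obtain ⟨x, hx, rfl⟩ := hy
      have hyF : e * x ∈ Fix (cj k G) (H ⊓ N) := Subalgebra.mul_mem _ (Fix_mono _ inf_le_left he) hx
      refine ⟨e * x, hfixH _ hyF hyt, ?_⟩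
      show e * (e * x) = e * x
      rw [← mul_assoc, hee]
    have h3 := Submodule.finrank_mono hle
    rwa [Submodule.finrank_map_subtype_eq] at h3
  have hrk := LinearMap.finrank_range_add_finrank_ker φ
  have h3 := Submodule.finrank_mono hr
  omega

end Block

section Main

variable {k : Type*} [Field k] {α : Type*} [Fintype α] [DecidableEq α]

theorem not_mem_alt_mul {x y : Perm α} (hx : x ∉ alternatingGroup α) (hy : y ∉ alternatingGroup α) :
    x * y ∈ alternatingGroup α := by
  rw [Equiv.Perm.mem_alternatingGroup] at hx hy ⊢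
  rw [map_mul]
  rcases Int.units_eq_one_or (Perm.sign x) with h | h
  · exact absurd h hx
  · rcases Int.units_eq_one_or (Perm.sign y) with h' | h'
    · exact absurd h' hy
    · rw [h, h']; rfl

/-- **The corner bound in characteristic two.** -/
theorem finrank_corner_two (h2 : (2 : k) = 0) (F : Finset α) {f b : MonoidAlgebra k (Perm α)}
    {J : Submodule k (MonoidAlgebra k (Perm α))}
    (hf : f ∈ SubAlg k (symF F ⊓ alternatingGroup α)) (hff : f * f = f)
    (hfS : ∀ y ∈ SubAlg k (symF F ⊓ alternatingGroup α), ∃ c : k, f * y * f = c • f)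
    (hJc : ∀ j ∈ J, ∀ x, j * x = x * j)
    (hb : b ∈ Fix (cj k (Perm α)) ⊤) (hbb : b * b = b)
    (hJ : ∀ z ∈ Fix (cj k (Perm α)) ⊤, ∃ c : k, b * z - c • b ∈ J)
    {g : ℕ} (hg : J ^ g = ⊥) :
    finrank k (crn k (f * b) (f * b)) ≤
      4 * ((Fᶜ).card.factorial * (g * (Fᶜ).card) ^ (Fᶜ).card) := by
  classical
  rcases corner_dichotomy hf hff hfS with h | ⟨v, hv, hvo, hfv, hv0⟩
  · have h1 := finrank_corner_le F (SubAlg_mono inf_le_left hf) hff h hJc hb hbb hJ hg
    omega
  obtain ⟨E, s, x, y, hE, hEN, hEE, hfE, hx, hy, hsum, hd, t, htH, htN⟩ :=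
    exists_block_odd (fun x y => not_mem_alt_mul) hf hff hfS hv hvo hfv hv0
  have hES : ∀ z ∈ SubAlg k (symF F ⊓ alternatingGroup α), E * z = z * E := fun z hz =>
    (commute_of_mem hz (Fix_mono _ inf_le_left hE.2)).symm
  have hbc : ∀ z, b * z = z * b := fun z => (commute_of_mem (SubAlg_top z) hb).symm
  have h1 := finrank_crn_le hf hff hfS s x y hx hy hsum hES hfE hbc hbb
    (Submodule.map (LinearMap.mulLeft k (b * E))
      (Subalgebra.toSubmodule (Fix (cj k (Perm α)) (symF F ⊓ alternatingGroup α)))) (by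
      intro c hc
      refine ⟨c, ?_, rfl⟩
      show c ∈ Fix (cj k (Perm α)) (symF F ⊓ alternatingGroup α)
      rw [mem_Fix_cj_iff]
      intro h hh
      exact hc _ (single_mem_SubAlg hh 1))
  have hbE : b * E ∈ Fix (cj k (Perm α)) (symF F) :=
    Subalgebra.mul_mem _ (Fix_mono _ le_top hb) hE.2
  have hbEE : (b * E) * (b * E) = b * E := by
    rw [mul_assoc, ← mul_assoc E, ← hbc E, mul_assoc b E E, hEE, ← mul_assoc, hbb]
  have h3 := finrank_two_le (fun x y => not_mem_alt_mul) h2 hbE hbEE htH htN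
  have h4 := finrank_bEC_le F hE hEE hJc hb hbb hJ hg
  have h5 : (Fᶜ).card.factorial * (finrank k (Submodule.map (LinearMap.mulLeft k E)
      (Subalgebra.toSubmodule (ZAlg k (symF F)))) * (g * (Fᶜ).card) ^ (Fᶜ).card) ≤
      (Fᶜ).card.factorial * (2 * (g * (Fᶜ).card) ^ (Fᶜ).card) :=
    Nat.mul_le_mul_left _ (Nat.mul_le_mul_right _ hd)
  have h6 : (Fᶜ).card.factorial * (2 * (g * (Fᶜ).card) ^ (Fᶜ).card) =
      2 * ((Fᶜ).card.factorial * (g * (Fᶜ).card) ^ (Fᶜ).card) := by ring
  omega

end Main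

end Vale.Agent.P180.R2.H589
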